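import Vale.Agent.P088.R2.H983.Fl.Fld

/-!
# P088, stage 3: the divergence `div (F c)` and the errors of the multiplier identity
-/

open Set
open scoped ContDiff Topology

noncomputable section

namespace Vale.Agent.P088.R2.H983.Fl

open Vale.Agent.P088.R2.H230.W
open Vale.Agent.P088.R2.H960.W (dF eC cY cY_bd cY_sq eC_bd abs_sum2_le L1_sq eta YY)
open Vale.Agent.P088.R2.H961.GW (Sm Sl)

variable {E ι κ' : Type*} [NormedAddCommGroup E] [NormedSpace ℝ E] [Fintype ι]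

/-- The gradient of `W` in the frame. -/
def gw (σ : Sl E ι) (W : E → ℝ) (z : E) : ι → ℝ := fun l => σ.D l W z

lemma L1_nn (u : ι → ℝ) : ∑ i, |u i| ≤ √(Fintype.card ι) * nn u := by
  have h := L1_sq u
  have h1 : ∑ i, u i ^ 2 = dd u u := Finset.sum_congr rfl fun i _ => by ring
  rw [h1] at h
  have h2 : (∑ i, |u i|) ≤ √(Fintype.card ι * dd u u) :=
    Real.le_sqrt_of_sq_le h
  rwa [Real.sqrt_mul (Nat.cast_nonneg _)] at h2

lemma L1_mul (u v : ι → ℝ) :
    (∑ i, |u i|) * (∑ i, |v i|) ≤ Fintype.card ι * (nn u * nn v) := by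
  have h := mul_le_mul (L1_nn u) (L1_nn v) (Finset.sum_nonneg fun i _ => abs_nonneg _)
    (mul_nonneg (Real.sqrt_nonneg _) (nn_nonneg u))
  refine h.trans (le_of_eq ?_)
  have : √(Fintype.card ι : ℝ) * √(Fintype.card ι : ℝ) = Fintype.card ι :=
    Real.mul_self_sqrt (Nat.cast_nonneg _)
  calc _ = (√(Fintype.card ι : ℝ) * √(Fintype.card ι : ℝ)) * (nn u * nn v) := by ring
    _ = _ := by rw [this]

section

variable {σ : Sl E ι} {W : E → ℝ} {z : E} {S B M A₀ A₁ : ℝ}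

theorem F_le (hS : ∀ i j, |σ.s i j z| ≤ S) :
    |σ.F W z| ≤ Fintype.card ι * S * nn (gw σ W z) ^ 2 := by
  have h : |σ.F W z| ≤ S * ((∑ i, |gw σ W z i|) * ∑ i, |gw σ W z i|) :=
    abs_sum2_le (fun i j => σ.s i j z) hS (gw σ W z) (gw σ W z)
  have h2 := L1_mul (gw σ W z) (gw σ W z)
  rcases isEmpty_or_nonempty ι with he | ⟨⟨i₀⟩⟩
  · simpa using h
  · have S0 : 0 ≤ S := (abs_nonneg _).trans (hS i₀ i₀)
    refine h.trans ((mul_le_mul_of_nonneg_left h2 S0).trans (le_of_eq ?_))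
    ring

theorem D_F_le (ds : ∀ i j, DifferentiableAt ℝ (σ.s i j) z) (dw : Dfv (gw σ W) z)
    (hS : ∀ i j, |σ.s i j z| ≤ S) (j : ι) (hB : ∀ i k, |σ.D j (σ.s i k) z| ≤ B) :
    |σ.D j (fun z => σ.F W z) z| ≤ Fintype.card ι * (B * nn (gw σ W z) ^ 2 +
      2 * S * (nn (dv σ j (gw σ W) z) * nn (gw σ W z))) := by
  have e : σ.D j (fun z => σ.F W z) z =
      (∑ i, ∑ k, σ.D j (σ.s i k) z * gw σ W z i * gw σ W z k) +
      (∑ i, ∑ k, σ.s i k z * dv σ j (gw σ W) z i * gw σ W z k) +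
      (∑ i, ∑ k, σ.s i k z * gw σ W z i * dv σ j (gw σ W) z k) := by
    have e1 : (fun z => σ.F W z) = fun z => ∑ i, ∑ k, σ.s i k z * gw σ W z i * gw σ W z k := rfl
    have d0 : ∀ i k, DifferentiableAt ℝ (fun z => σ.s i k z * gw σ W z i) z :=
      fun i k => (ds i k).mul (dw i)
    have d1 : ∀ i k, DifferentiableAt ℝ (fun z => σ.s i k z * gw σ W z i * gw σ W z k) z :=
      fun i k => (d0 i k).mul (dw k)
    rw [e1]
    unfold Sl.D
    rw [fderiv_fun_sum fun i _ => DifferentiableAt.fun_sum fun k _ => d1 i k]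
    simp only [_root_.sum_apply, Finset.mul_sum, ← Finset.sum_add_distrib]
    refine Finset.sum_congr rfl fun i _ => ?_
    rw [fderiv_fun_sum fun k _ => d1 i k]
    simp only [_root_.sum_apply, Finset.mul_sum]
    refine Finset.sum_congr rfl fun k _ => ?_
    rw [fderiv_fun_mul (d0 i k) (dw k), fderiv_fun_mul (ds i k) (dw i)]
    simp only [_root_.add_apply, _root_.smul_apply, smul_eq_mul, dv, Sl.D]
    ring
  have a1 := abs_sum2_le (fun i k => σ.D j (σ.s i k) z) hB (gw σ W z) (gw σ W z)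
  have a2 := abs_sum2_le (fun i k => σ.s i k z) hS (dv σ j (gw σ W) z) (gw σ W z)
  have a3 := abs_sum2_le (fun i k => σ.s i k z) hS (gw σ W z) (dv σ j (gw σ W) z)
  have l1 := L1_mul (gw σ W z) (gw σ W z)
  have l2 := L1_mul (dv σ j (gw σ W) z) (gw σ W z)
  have S0 : 0 ≤ S := (abs_nonneg _).trans (hS j j)
  have B0 : 0 ≤ B := (abs_nonneg _).trans (hB j j)
  have b1 := mul_le_mul_of_nonneg_left l1 B0
  have b2 := mul_le_mul_of_nonneg_left l2 S0
  rw [mul_comm (∑ i, |gw σ W z i|) (∑ k, |dv σ j (gw σ W) z k|)] at a3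
  rw [e]
  refine (abs_add_le _ _).trans ((add_le_add_left (abs_add_le _ _) _).trans ?_)
  nlinarith

/-- **The divergence of `F c`.** -/
theorem dF_le {c : ι → E → ℝ} (ds : ∀ i j, DifferentiableAt ℝ (σ.s i j) z)
    (dw : Dfv (gw σ W) z) (dc : ∀ l, DifferentiableAt ℝ (c l) z)
    (hS : ∀ i j, |σ.s i j z| ≤ S) (hB : ∀ j i k, |σ.D j (σ.s i k) z| ≤ B)
    (hk : ∀ j, |σ.k j z| ≤ B) (hM : ∀ j, nn (dv σ j (gw σ W) z) ≤ M) (h₀ : ∀ l, |c l z| ≤ A₀)
    (h₁ : ∀ i l, |σ.D i (c l) z| ≤ A₁) :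
    |dF σ c W z| ≤ Fintype.card ι ^ 2 * ((B * nn (gw σ W z) ^ 2 + 2 * S * (M * nn (gw σ W z))) * A₀ +
      S * nn (gw σ W z) ^ 2 * A₁ + B * S * nn (gw σ W z) ^ 2 * A₀) := by
  set N : ℝ := (Fintype.card ι : ℝ) with hN
  have N0 : 0 ≤ N := Nat.cast_nonneg _
  set n := nn (gw σ W z) with hn
  have n0 : 0 ≤ n := nn_nonneg _
  have dFF : DifferentiableAt ℝ (fun z => σ.F W z) z :=
    DifferentiableAt.fun_sum fun i _ => DifferentiableAt.fun_sum fun k _ =>
      ((ds i k).mul (dw i)).mul (dw k)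
  have hF := F_le (σ := σ) (W := W) hS
  have t : ∀ j, |σ.D j (fun z => σ.F W z * c j z) z + σ.k j z * (σ.F W z * c j z)| ≤
      N * ((B * n ^ 2 + 2 * S * (M * n)) * A₀ + S * n ^ 2 * A₁ + B * S * n ^ 2 * A₀) := by
    intro j
    have S0 : 0 ≤ S := (abs_nonneg _).trans (hS j j)
    have B0 : 0 ≤ B := (abs_nonneg _).trans (hk j)
    have A00 : 0 ≤ A₀ := (abs_nonneg _).trans (h₀ j)
    have A10 : 0 ≤ A₁ := (abs_nonneg _).trans (h₁ j j)
    have M0 : 0 ≤ M := (nn_nonneg _).trans (hM j)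
    have e : σ.D j (fun z => σ.F W z * c j z) z =
        σ.D j (fun z => σ.F W z) z * c j z + σ.F W z * σ.D j (c j) z := by
      unfold Sl.D
      rw [fderiv_fun_mul dFF (dc j)]
      simp only [_root_.add_apply, _root_.smul_apply, smul_eq_mul]
      ring
    rw [e]
    have q1 := D_F_le ds dw hS j (hB j)
    have q1' : |σ.D j (fun z => σ.F W z) z| ≤ N * (B * n ^ 2 + 2 * S * (M * n)) := by
      refine q1.trans (mul_le_mul_of_nonneg_left ?_ N0)
      have := mul_le_mul_of_nonneg_right (hM j) n0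
      nlinarith
    have r1 : |σ.D j (fun z => σ.F W z) z * c j z| ≤ N * (B * n ^ 2 + 2 * S * (M * n)) * A₀ := by
      rw [abs_mul]
      exact mul_le_mul q1' (h₀ j) (abs_nonneg _) (by positivity)
    have r2 : |σ.F W z * σ.D j (c j) z| ≤ N * S * n ^ 2 * A₁ := by
      rw [abs_mul]
      exact mul_le_mul hF (h₁ j j) (abs_nonneg _) (by positivity)
    have r3 : |σ.k j z * (σ.F W z * c j z)| ≤ B * (N * S * n ^ 2 * A₀) := by
      rw [abs_mul, abs_mul]
      exact mul_le_mul (hk j) (mul_le_mul hF (h₀ j) (abs_nonneg _) (by positivity))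
        (by positivity) B0
    refine (abs_add_le _ _).trans ((add_le_add_left (abs_add_le _ _) _).trans ?_)
    linarith
  unfold dF
  refine (Finset.abs_sum_le_sum_abs _ _).trans ((Finset.sum_le_sum fun j _ => t j).trans ?_)
  rw [Finset.sum_const, Finset.card_univ, nsmul_eq_mul]
  exact le_of_eq (by ring)

end

end Vale.Agent.P088.R2.H983.Fl
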