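import Vale.Agent.P088.R2.H983.Fl.Cf
import Vale.Agent.P088.R2.H942.Near5
import Vale.Agent.P088.R2.H960.W.Weyl

/-!
# P088, stage 3: fields `fl e w (κ (α(s, e·h) e + β(s, e·h) h))`, bounds for the multiplier identity

`w = D W`.  With `|De|, |Dh|, |Ds| ≤ b`, `|Dκ| ≤ κ b`: `|c| ≤ 6 C κ/|w|`,
`|Dc| ≤ 36 C κ b/|w| + 18 C κ |Dw|/|w|²`, and the error terms of `H960.W.weyl`.
-/

open Set
open scoped ContDiff Topology

noncomputable section

namespace Vale.Agent.P088.R2.H983.Fl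

open Vale.Agent.P088.R2.H230.W
open Vale.Agent.P088.R2.H961.GW (Sm Sl)
open Vale.Agent.P088.R2.H942.Iso.Near (KK KK_compact)

/-- Coefficients which are differentiable on `K`, bounded with their derivatives. -/
structure Cf (α β : ℝ × ℝ → ℝ) (K : Set (ℝ × ℝ)) (C : ℝ) : Prop where
  C0 : 0 < C
  da : ∀ p ∈ K, DifferentiableAt ℝ α p
  db : ∀ p ∈ K, DifferentiableAt ℝ β p
  ba : ∀ p ∈ K, |α p| ≤ C
  bb : ∀ p ∈ K, |β p| ≤ C
  fa : ∀ p ∈ K, ‖fderiv ℝ α p‖ ≤ C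
  fb : ∀ p ∈ K, ‖fderiv ℝ β p‖ ≤ C

theorem Cf.mono {α β : ℝ × ℝ → ℝ} {K : Set (ℝ × ℝ)} {C C' : ℝ} (h : Cf α β K C) (hC : C ≤ C') :
    Cf α β K C' :=
  ⟨h.C0.trans_le hC, h.da, h.db, fun p hp => (h.ba p hp).trans hC, fun p hp => (h.bb p hp).trans hC,
    fun p hp => (h.fa p hp).trans hC, fun p hp => (h.fb p hp).trans hC⟩

theorem exists_cf {O K : Set (ℝ × ℝ)} {α β : ℝ × ℝ → ℝ} (hO : IsOpen O)
    (hα : ContDiffOn ℝ ∞ α O) (hβ : ContDiffOn ℝ ∞ β O) (hK : IsCompact K) (hKO : K ⊆ O) :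
    ∃ C, Cf α β K C := by
  obtain ⟨C1, h1, h1'⟩ := cpt_bd hO hα hK hKO
  obtain ⟨C2, h2, h2'⟩ := cpt_bd hO hβ hK hKO
  have d : ∀ {F : ℝ × ℝ → ℝ}, ContDiffOn ℝ ∞ F O → ∀ p ∈ K, DifferentiableAt ℝ F p :=
    fun hF p hp => (hF.contDiffAt (hO.mem_nhds (hKO hp))).differentiableAt (by simp)
  exact ⟨max C1 C2, lt_max_of_lt_left h1, d hα, d hβ,
    fun p hp => (h1' p hp).1.trans (le_max_left _ _), fun p hp => (h2' p hp).1.trans (le_max_right _ _),
    fun p hp => (h1' p hp).2.trans (le_max_left _ _), fun p hp => (h2' p hp).2.trans (le_max_right _ _)⟩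

/-- **The coefficients of the near fields.** -/
theorem near_cf {θ c0 r1 : ℝ} (hθ : 0 < θ) (hθ2 : 1 / 2 ≤ θ ^ 2) (hc0 : 0 < c0) :
    ∃ C, Cf (c1e θ) (c1h θ) (KK c0 r1) C ∧ Cf (c2e θ) (c2h θ) (KK c0 r1) C := by
  have hK : KK c0 r1 ⊆ OO θ := fun p hp => by
    have h2 : p.2 ^ 2 ≤ 1 := (sq_le_one_iff_abs_le_one _).2 (abs_le.2 hp.2)
    exact mem_OO hθ hθ2 (hc0.trans_le hp.1.1) h2
  obtain ⟨C1, h1⟩ := exists_cf (OO_open hθ) (s_c1e hθ) (s_c1h hθ) KK_compact hK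
  obtain ⟨C2, h2⟩ := exists_cf (OO_open hθ) (s_c2e hθ) (s_c2h hθ) KK_compact hK
  exact ⟨max C1 C2, h1.mono (le_max_left _ _), h2.mono (le_max_right _ _)⟩

variable {E ι κ' : Type*} [NormedAddCommGroup E] [NormedSpace ℝ E] [Fintype ι]

/-- The covector `α e + β h`. -/
def gm (α β : ℝ × ℝ → ℝ) (s : E → ℝ) (e h : E → ι → ℝ) (z : E) : ι → ℝ :=
  α (s z, dd (e z) (h z)) • e z + β (s z, dd (e z) (h z)) • h z

/-- The field. -/
def cc (α β : ℝ × ℝ → ℝ) (k s : E → ℝ) (e h w : E → ι → ℝ) (z : E) : ι → ℝ :=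
  fl (e z) (w z) (k z • gm α β s e h z)

section

variable {α β : ℝ × ℝ → ℝ} {K O : Set (ℝ × ℝ)} {C b : ℝ} {k s : E → ℝ} {e h w : E → ι → ℝ} {z : E}
  {U : Set E}

/-- Smoothness. -/
theorem cc_sm (hα : ContDiffOn ℝ ∞ α O) (hβ : ContDiffOn ℝ ∞ β O) (hk : Sm U k) (hs : Sm U s)
    (he : Smv U e) (hh : Smv U h) (hw : Smv U w) (hO : ∀ z ∈ U, (s z, dd (e z) (h z)) ∈ O)
    (h0 : ∀ z ∈ U, 0 < dd (w z) (w z)) : Smv U (cc α β k s e h w) := by
  have hp : ContDiffOn ℝ ∞ (fun z => (s z, dd (e z) (h z))) U := hs.prodMk (he.dd hh)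
  have h1 : Sm U fun z => α (s z, dd (e z) (h z)) := hα.comp hp hO
  have h2 : Sm U fun z => β (s z, dd (e z) (h z)) := hβ.comp hp hO
  exact Smv.fl he hw (Smv.smul hk ((Smv.smul h1 he).add (Smv.smul h2 hh))) h0

/-- The data of the field at a point. -/
structure At (σ : Sl E κ') (K : Set (ℝ × ℝ)) (k s : E → ℝ) (e h : E → ι → ℝ) (b : ℝ) (z : E) :
    Prop where
  dk : DifferentiableAt ℝ k z
  ds : DifferentiableAt ℝ s z
  de : Dfv e z
  dh : Dfv h z
  ee : dd (e z) (e z) = 1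
  hh : dd (h z) (h z) = 1
  mem : (s z, dd (e z) (h z)) ∈ K
  k0 : 0 ≤ k z
  bk : ∀ j, |σ.D j k z| ≤ k z * b
  bs : ∀ j, |σ.D j s z| ≤ b
  be : ∀ j, nn (dv σ j e z) ≤ b
  bh : ∀ j, nn (dv σ j h z) ≤ b

variable {σ : Sl E κ'}

lemma nn_one {u : ι → ℝ} (h : dd u u = 1) : nn u = 1 := by unfold nn; rw [h, Real.sqrt_one]

theorem gm_bd (c : Cf α β K C) (a : At σ K k s e h b z) : nn (gm α β s e h z) ≤ 2 * C := by
  unfold gm
  refine (nn_add_le _ _).trans ?_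
  rw [nn_smul, nn_smul, nn_one a.ee, nn_one a.hh]
  linarith [c.ba _ a.mem, c.bb _ a.mem]

theorem gm_df (c : Cf α β K C) (a : At σ K k s e h b z) : Dfv (gm α β s e h) z := by
  have h1 : DifferentiableAt ℝ (fun z => (s z, dd (e z) (h z))) z := a.ds.prodMk (a.de.dd a.dh)
  have h2 : DifferentiableAt ℝ (fun z => α (s z, dd (e z) (h z))) z :=
    DifferentiableAt.comp z (c.da _ a.mem) h1
  have h3 : DifferentiableAt ℝ (fun z => β (s z, dd (e z) (h z))) z :=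
    DifferentiableAt.comp z (c.db _ a.mem) h1
  exact fun i => (h2.mul (a.de i)).add (h3.mul (a.dh i))

theorem gm_D (c : Cf α β K C) (a : At σ K k s e h b z) (j : κ') :
    nn (dv σ j (gm α β s e h) z) ≤ 8 * C * b := by
  have hg := a.de.dd a.dh
  have h1 : DifferentiableAt ℝ (fun z => (s z, dd (e z) (h z))) z := a.ds.prodMk hg
  have h2 : DifferentiableAt ℝ (fun z => α (s z, dd (e z) (h z))) z :=
    DifferentiableAt.comp z (c.da _ a.mem) h1
  have h3 : DifferentiableAt ℝ (fun z => β (s z, dd (e z) (h z))) z :=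
    DifferentiableAt.comp z (c.db _ a.mem) h1
  have hb : 0 ≤ b := (abs_nonneg _).trans (a.bs j)
  have n1 := nn_one a.ee
  have n2 := nn_one a.hh
  have g1 : |σ.D j (fun z => dd (e z) (h z)) z| ≤ 2 * b := by
    rw [D_dd σ j a.de a.dh]
    refine (abs_add_le _ _).trans ?_
    have q1 := abs_dd_le (e z) (dv σ j h z)
    have q2 := abs_dd_le (dv σ j e z) (h z)
    rw [n1, one_mul] at q1
    rw [n2, mul_one] at q2
    linarith [a.be j, a.bh j]
  have hC := c.C0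
  have d : ∀ {F : ℝ × ℝ → ℝ}, DifferentiableAt ℝ F (s z, dd (e z) (h z)) →
      ‖fderiv ℝ F (s z, dd (e z) (h z))‖ ≤ C →
      |σ.D j (fun z => F (s z, dd (e z) (h z))) z| ≤ 3 * C * b := by
    intro F hF hF'
    refine (D_comp_le σ j hF a.ds hg).trans ?_
    have := mul_le_mul hF' (add_le_add (a.bs j) g1) (by positivity) hC.le
    linarith
  have d1 := d (c.da _ a.mem) (c.fa _ a.mem)
  have d2 := d (c.db _ a.mem) (c.fb _ a.mem)
  have e1 : Dfv (fun z => α (s z, dd (e z) (h z)) • e z) z := fun i => h2.mul (a.de i)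
  have e2 : Dfv (fun z => β (s z, dd (e z) (h z)) • h z) z := fun i => h3.mul (a.dh i)
  have e3 : dv σ j (gm α β s e h) z = dv σ j (fun z => α (s z, dd (e z) (h z)) • e z) z +
      dv σ j (fun z => β (s z, dd (e z) (h z)) • h z) z := dv_add σ j e1 e2
  rw [e3, dv_smul σ j h2 a.de, dv_smul σ j h3 a.dh]
  refine (nn_add_le _ _).trans ?_
  have t1 := nn_add_le (α (s z, dd (e z) (h z)) • dv σ j e z)
    (σ.D j (fun z => α (s z, dd (e z) (h z))) z • e z)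
  have t2 := nn_add_le (β (s z, dd (e z) (h z)) • dv σ j h z)
    (σ.D j (fun z => β (s z, dd (e z) (h z))) z • h z)
  rw [nn_smul, nn_smul, n1, mul_one] at t1
  rw [nn_smul, nn_smul, n2, mul_one] at t2
  have m1 := mul_le_mul (c.ba _ a.mem) (a.be j) (nn_nonneg _) hC.le
  have m2 := mul_le_mul (c.bb _ a.mem) (a.bh j) (nn_nonneg _) hC.le
  linarith

/-- **Size of the field.** -/
theorem cc_nn (c : Cf α β K C) (a : At σ K k s e h b z) (hw : 0 < dd (w z) (w z)) :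
    nn (cc α β k s e h w z) ≤ 6 * C * k z / nn (w z) := by
  refine (fl_nn _ hw).trans (div_le_div_of_nonneg_right ?_ (nn_nonneg _))
  rw [nn_one a.ee, nn_smul, abs_of_nonneg a.k0]
  have := mul_le_mul_of_nonneg_left (gm_bd c a) a.k0
  linarith

/-- **First derivatives of the field.** -/
theorem cc_D (c : Cf α β K C) (a : At σ K k s e h b z) (dw : Dfv w z)
    (hw : 0 < dd (w z) (w z)) (j : κ') : nn (dv σ j (cc α β k s e h w) z) ≤
      36 * C * (k z * b) / nn (w z) + 18 * C * (k z * nn (dv σ j w z)) / nn (w z) ^ 2 := by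
  have hg := gm_df c a
  have hkg : Dfv (fun z => k z • gm α β s e h z) z := fun i => a.dk.mul (hg i)
  have h1 := D_fl_nn σ j a.de dw hkg hw
  have hb : 0 ≤ b := (abs_nonneg _).trans (a.bs j)
  have hC := c.C0
  have hk := a.k0
  have g0 := gm_bd c a
  have g1 := gm_D c a j
  have n0 : nn (k z • gm α β s e h z) ≤ 2 * C * k z := by
    rw [nn_smul, abs_of_nonneg hk]
    have := mul_le_mul_of_nonneg_left g0 hk
    linarith
  have n1 : nn (dv σ j (fun z => k z • gm α β s e h z) z) ≤ 10 * C * (k z * b) := by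
    rw [dv_smul σ j a.dk hg]
    refine (nn_add_le _ _).trans ?_
    rw [nn_smul, nn_smul, abs_of_nonneg hk]
    have q1 := mul_le_mul_of_nonneg_left g1 hk
    have q2 := mul_le_mul (a.bk j) g0 (nn_nonneg _) (by positivity)
    linarith
  refine h1.trans (add_le_add (div_le_div_of_nonneg_right ?_ (nn_nonneg _))
    (div_le_div_of_nonneg_right ?_ (by positivity)))
  · rw [nn_one a.ee]
    have q1 := mul_le_mul (a.be j) n0 (nn_nonneg _) hb
    linarith
  · rw [nn_one a.ee]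
    have q1 := mul_le_mul_of_nonneg_right n0 (nn_nonneg (dv σ j w z))
    linarith

end

end Vale.Agent.P088.R2.H983.Fl
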