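import Vale.Agent.P088.R2.H983.Fl.Zn
import Vale.Agent.P088.R2.H464.EP.SymU

/-!
# P088, stage 3: the fields of zone II for the actual weight

`W = Φ(u) + e^u S(ρ)`, `ρ = g_p(q, q) / 2`, `|du| = a = λ (1 + μ'(l(p)))`, `λ = |dl|(p)`.
The model is exact after the scaling by `a`: `g = a² S`, `k = S'`, `y = S'' / a²`, `s = 2 a² ρ`,
`b = a dl(p).q / λ`, `p = a² (N / E + S)`, `κ = a² κ / E`.
-/

open Set Filter
open scoped ContDiff Topology

noncomputable section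

namespace Vale.Agent.P088.R2.H983.Fl

open Vale.Agent.P088.LR Vale.Agent.P088.HY Vale.Agent.P088.R2.H464.Cu
open Vale.Agent.P088.R2.H230.W (dd)
open Vale.Agent.P088.R2.H961.GW (Sl slx sly)
open Vale.Agent.P088.R2.H942.Iso.Near (cn dq wq aa kf)

section gen

variable {E κ : Type*} [NormedAddCommGroup E] [NormedSpace ℝ E]
variable {σ : Sl E κ} {r : ℝ} {z : E} {A : ℝ} {f : E → ℝ} {m n : ℕ} {x y : ℝ}

/-- The derivations are directional derivatives along vectors of length at most `1`. -/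
def Un (σ : Sl E κ) : Prop := ∀ j (f : E → ℝ) (z : E), |σ.D j f z| ≤ ‖fderiv ℝ f z‖

theorem P1.nrm (hσ : Un σ) (hr : 0 ≤ r) (hd : DifferentiableAt ℝ f z) (hv : |f z| ≤ A ^ m * x)
    (hD : ‖fderiv ℝ f z‖ * r ≤ A ^ m * x) : P1 σ r z A f m x :=
  ⟨hd, hv, fun j => (mul_le_mul_of_nonneg_right (hσ j f z) hr).trans hD⟩

/-- Change of the constant. -/
theorem P1.base (h : P1 σ r z A f m x) (hA : 2 ≤ A) {M : ℕ} (hm : m ≤ M) :
    P1 σ r z (A ^ M) f 1 x := by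
  have := h.up hA hm
  exact ⟨this.d, by rw [pow_one]; exact this.v, fun j => by rw [pow_one]; exact this.D j⟩

/-- Composition with a function of one variable. -/
theorem P1.chain (h : P1 σ r z A f m x) (hA : 2 ≤ A) {F : ℝ → ℝ} {F' : ℝ}
    (hF : HasDerivAt F F' (f z)) (hv : |F (f z)| ≤ A ^ n * y) (hD : |F'| * x ≤ A ^ n * y) :
    P1 σ r z A (fun z => F (f z)) (m + n) y := by
  have hy : 0 ≤ A ^ n * y := (abs_nonneg _).trans hv
  have hm : 1 ≤ A ^ m := one_le_pow₀ (by linarith)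
  have e : A ^ (m + n) * y = A ^ m * (A ^ n * y) := by rw [pow_add]; ring
  refine ⟨hF.differentiableAt.comp z h.d, ?_, fun j => ?_⟩
  · rw [e]; nlinarith
  · have e1 : σ.D j (fun z => F (f z)) z = F' * σ.D j f z := by
      have h2 : HasFDerivAt (fun z => F (f z)) (F' • fderiv ℝ f z) z :=
        hF.comp_hasFDerivAt z h.d.hasFDerivAt
      simp only [Sl.D]
      rw [h2.fderiv]
      simp only [_root_.smul_apply, smul_eq_mul]; ring
    rw [e1, abs_mul, mul_assoc, e]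
    calc |F'| * (|σ.D j f z| * r) ≤ |F'| * (A ^ m * x) :=
          mul_le_mul_of_nonneg_left (h.D j) (abs_nonneg _)
      _ = A ^ m * (|F'| * x) := by ring
      _ ≤ _ := mul_le_mul_of_nonneg_left hD (by positivity)

/-- Square roots. -/
theorem P1.sqrt1 (h : P1 σ r z A f m 1) (hA : 2 ≤ A) (hf : 1 ≤ A ^ n * f z) :
    P1 σ r z A (fun z => √(f z)) (m + n) 1 ∧ 1 ≤ A ^ n * √(f z) := by
  have An : 1 ≤ A ^ n := one_le_pow₀ (by linarith)
  have Am : 1 ≤ A ^ m := one_le_pow₀ (by linarith)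
  have f0 : 0 < f z := by
    by_contra hc
    have : A ^ n * f z ≤ 0 := mul_nonpos_of_nonneg_of_nonpos (by linarith) (not_lt.1 hc)
    linarith
  have s0 : 0 < √(f z) := Real.sqrt_pos.2 f0
  have hs : 1 ≤ A ^ n * √(f z) := by
    have h1 : √((A ^ n) ^ 2 * f z) = A ^ n * √(f z) := by
      rw [Real.sqrt_mul (by positivity), Real.sqrt_sq (by positivity)]
    rw [← h1, Real.one_le_sqrt, pow_two, mul_assoc]
    nlinarith
  refine ⟨⟨?_, ?_, fun j => ?_⟩, hs⟩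
  · exact (Real.hasDerivAt_sqrt f0.ne').differentiableAt.comp z h.d
  · have h1 : f z ≤ A ^ m := by
      have := h.v; rw [mul_one] at this; exact (le_abs_self _).trans this
    have h2 : √(f z) ≤ A ^ m := by
      rw [Real.sqrt_le_left (by positivity)]; nlinarith
    rw [abs_of_nonneg s0.le, mul_one, pow_add]
    nlinarith
  · have e1 : σ.D j (fun z => √(f z)) z = 1 / (2 * √(f z)) * σ.D j f z := by
      have h2 : HasFDerivAt (fun z => √(f z)) ((1 / (2 * √(f z))) • fderiv ℝ f z) z :=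
        (Real.hasDerivAt_sqrt f0.ne').comp_hasFDerivAt z h.d.hasFDerivAt
      simp only [Sl.D]
      rw [h2.fderiv]
      simp only [_root_.smul_apply, smul_eq_mul]; ring
    have h3 : |1 / (2 * √(f z))| ≤ A ^ n := by
      rw [abs_of_pos (by positivity), div_le_iff₀ (by positivity)]
      nlinarith
    have h4 := h.D j
    rw [mul_one] at h4
    rw [e1, abs_mul, mul_assoc, mul_one, pow_add, mul_comm (A ^ m)]
    rcases le_or_gt 0 (|σ.D j f z| * r) with h5 | h5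
    · exact mul_le_mul h3 h4 h5 (by positivity)
    · have : |1 / (2 * √(f z))| * (|σ.D j f z| * r) ≤ 0 :=
        mul_nonpos_of_nonneg_of_nonpos (abs_nonneg _) h5.le
      exact this.trans (by positivity)

end gen

section slots

variable {n : ℕ}

theorem norm_e1 (j : Fin n) : ‖((Pi.single j 1, 0) : VV n)‖ ≤ 1 := by
  rw [Prod.norm_def]
  simp only [norm_zero, sup_le_iff, zero_le_one, and_true]
  exact norm_single_le j

theorem norm_e2 (j : Fin n) : ‖((0, Pi.single j 1) : VV n)‖ ≤ 1 := by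
  rw [Prod.norm_def]
  simp only [norm_zero, sup_le_iff, zero_le_one, true_and]
  exact norm_single_le j

theorem un_sx (s : MF n) : Un (slx (fun _ => 1) s) := by
  intro j f z
  show |(1 : ℝ) * fderiv ℝ f z (Pi.single j 1, 0)| ≤ _
  rw [one_mul]
  have h := (fderiv ℝ f z).le_opNorm ((Pi.single j 1, 0) : VV n)
  rw [Real.norm_eq_abs] at h
  exact h.trans (mul_le_of_le_one_right (norm_nonneg _) (norm_e1 j))

theorem un_sy (s : MF n) : Un (sly (fun _ => 1) s) := by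
  intro j f z
  show |(1 : ℝ) * fderiv ℝ f z (0, Pi.single j 1)| ≤ _
  rw [one_mul]
  have h := (fderiv ℝ f z).le_opNorm ((0, Pi.single j 1) : VV n)
  rw [Real.norm_eq_abs] at h
  exact h.trans (mul_le_of_le_one_right (norm_nonneg _) (norm_e2 j))

theorem norm_midL : ‖midL n‖ ≤ 1 := by
  refine ContinuousLinearMap.opNorm_le_bound _ zero_le_one fun v => ?_
  rw [midL_apply, mid, norm_smul, one_mul]
  have h1 := norm_add_le v.1 v.2
  have h2 := norm_fst_le v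
  have h3 := norm_snd_le v
  norm_num
  linarith

theorem norm_difL (i : Fin n) : ‖difL i‖ ≤ 2 := by
  refine ContinuousLinearMap.opNorm_le_bound _ (by norm_num) fun v => ?_
  rw [difL_apply, Real.norm_eq_abs]
  have h1 := cmp_le (dif v) i
  have h2 := norm_sub_le v.1 v.2
  have h3 := norm_fst_le v
  have h4 := norm_snd_le v
  have h5 : ‖dif v‖ = ‖v.1 - v.2‖ := rfl
  linarith

theorem fd_mid {φ : V n → ℝ} {z : VV n} (h : DifferentiableAt ℝ φ (mid z)) :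
    HasFDerivAt (fun z => φ (mid z)) ((fderiv ℝ φ (mid z)).comp (midL n)) z :=
  HasFDerivAt.comp z (f := fun z => mid z) h.hasFDerivAt (midL n).hasFDerivAt

theorem norm_fd_mid {φ : V n → ℝ} {z : VV n} (h : DifferentiableAt ℝ φ (mid z)) :
    ‖fderiv ℝ (fun z => φ (mid z)) z‖ ≤ ‖fderiv ℝ φ (mid z)‖ := by
  rw [(fd_mid h).fderiv]
  exact (ContinuousLinearMap.opNorm_comp_le _ _).trans
    (mul_le_of_le_one_right (norm_nonneg _) norm_midL)

variable {κ : Type*} {σ : Sl (VV n) κ} {r : ℝ} {z : VV n} {B : ℝ}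

/-- Functions of the midpoint. -/
theorem P1.mid (hσ : Un σ) (hr : 0 ≤ r) (r1 : r ≤ 1) {φ : V n → ℝ}
    (hd : DifferentiableAt ℝ φ (mid z)) (hv : |φ (mid z)| ≤ B) (hD : ‖fderiv ℝ φ (mid z)‖ ≤ B) :
    P1 σ r z B (fun z => φ (mid z)) 1 1 := by
  refine P1.nrm hσ hr (fd_mid hd).differentiableAt (by rwa [pow_one, mul_one]) ?_
  rw [pow_one, mul_one]
  have := norm_fd_mid hd
  have h0 := norm_nonneg (fderiv ℝ (fun z => φ (Vale.Agent.P088.R2.H464.Cu.mid z)) z)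
  nlinarith

theorem P1.dif (hσ : Un σ) (hr : 0 ≤ r) (hB : 2 ≤ B) {i : Fin n} (h : |dif z i| ≤ B * r) :
    P1 σ r z B (fun z => dif z i) 1 r := by
  refine P1.nrm hσ hr (difL i).differentiableAt (by rwa [pow_one]) ?_
  have e : fderiv ℝ (fun z : VV n => Vale.Agent.P088.R2.H464.Cu.dif z i) z = difL i :=
    (difL i).fderiv
  rw [e, pow_one]
  exact mul_le_mul_of_nonneg_right ((norm_difL i).trans hB) hr

end slots

/-! ## The functions -/

section fun_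

variable {n : ℕ}

/-- The gradient. -/
def gl (l : V n → ℝ) (p : V n) : V n := fun i => pd i l p

/-- `λ = |dl|`. -/
def lam (s : MF n) (l : V n → ℝ) (p : V n) : ℝ := √(bf (s p) (gl l p) (gl l p))

/-- The unit vector field `∇l / λ` at the midpoint. -/
def eu (s : MF n) (l : V n → ℝ) (i : Fin n) (z : VV n) : ℝ :=
  (∑ j, s (mid z) i j * pd j l (mid z)) * (lam s l (mid z))⁻¹

/-- `b = dl(p).q / λ`. -/
def bb (s : MF n) (l : V n → ℝ) (z : VV n) : ℝ :=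
  (∑ i, pd i l (mid z) * dif z i) * (lam s l (mid z))⁻¹

/-- `a = λ (1 + μ')`. -/
def aa' (s : MF n) (l : V n → ℝ) (μ₁ : ℝ → ℝ) (z : VV n) : ℝ :=
  lam s l (mid z) * (1 + μ₁ (l (mid z)))

/-- The coefficients after the scaling. -/
def alS (a G k y b s ν ka : ℝ) : ℝ :=
  al (a ^ 2 * G) k (y * (a ^ 2)⁻¹) (a * b) (a ^ 2 * s) (a ^ 2 * (ν + G)) (a ^ 2 * ka)

def beS (a G k y b s ν ka : ℝ) : ℝ :=
  be (a ^ 2 * G) k (y * (a ^ 2)⁻¹) (a * b) (a ^ 2 * s) (a ^ 2 * (ν + G)) (a ^ 2 * ka)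

/-- The functions of the weight near the diagonal at a point. -/
structure Wn (n : ℕ) where
  s : MF n
  g : MF n
  l : V n → ℝ
  u : VV n → ℝ
  Φ₁ : ℝ → ℝ
  Φ₂ : ℝ → ℝ
  μ₁ : ℝ → ℝ
  μ₂ : ℝ → ℝ
  S : ℝ → ℝ
  S₁ : ℝ → ℝ
  S₂ : ℝ → ℝ
  S₃ : ℝ → ℝ

namespace Wn

variable (w : Wn n)

/-- `r²`. -/
def r2 (z : VV n) : ℝ := 2 * rq w.g z

def a (z : VV n) : ℝ := aa' w.s w.l w.μ₁ z

def b (z : VV n) : ℝ := bb w.s w.l z

def G (z : VV n) : ℝ := w.S (w.r2 z)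

def k (z : VV n) : ℝ := 2 * w.S₁ (w.r2 z)

def y (z : VV n) : ℝ := 4 * w.S₂ (w.r2 z)

/-- `ν = N / E`. -/
def nu (z : VV n) : ℝ := w.Φ₁ (w.u z) * (Real.exp (w.u z))⁻¹

/-- **The field of the first slot.** `kE = κ / E`. -/
def c₁ (kE : VV n → ℝ) (i : Fin n) (z : VV n) : ℝ :=
  fdc (w.a z) (alS (w.a z) (w.G z) (w.k z) (w.y z) (w.b z) (w.r2 z) (w.nu z) (kE z))
    (beS (w.a z) (w.G z) (w.k z) (w.y z) (w.b z) (w.r2 z) (w.nu z) (kE z))
    (eu w.s w.l i z) (dif z i)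

/-- **The field of the second slot.** -/
def c₂ (kE : VV n → ℝ) (i : Fin n) (z : VV n) : ℝ :=
  fdc (w.a z) (alS (w.a z) (w.G z) (w.k z) (w.y z) (-w.b z) (w.r2 z) (w.nu z) (kE z))
    (beS (w.a z) (w.G z) (w.k z) (w.y z) (-w.b z) (w.r2 z) (w.nu z) (kE z))
    (eu w.s w.l i z) (-dif z i)

/-- The hypotheses at a point. -/
structure Ok (B : ℝ) (z : VV n) : Prop where
  B8 : 8 ≤ B
  nB : (n : ℝ) ≤ B
  dg : ∀ i j, DifferentiableAt ℝ (fun x => w.g x i j) (mid z)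
  g0 : ∀ i j, |w.g (mid z) i j| ≤ B
  g1 : ∀ i j, ‖fderiv ℝ (fun x => w.g x i j) (mid z)‖ ≤ B
  ds : ∀ i j, DifferentiableAt ℝ (fun x => w.s x i j) (mid z)
  s0 : ∀ i j, |w.s (mid z) i j| ≤ B
  s1 : ∀ i j, ‖fderiv ℝ (fun x => w.s x i j) (mid z)‖ ≤ B
  dl : DifferentiableAt ℝ w.l (mid z)
  l1 : ‖fderiv ℝ w.l (mid z)‖ ≤ B
  dpl : ∀ j, DifferentiableAt ℝ (pd j w.l) (mid z)
  pl0 : ∀ j, |pd j w.l (mid z)| ≤ B
  pl1 : ∀ j, ‖fderiv ℝ (pd j w.l) (mid z)‖ ≤ B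
  la : 1 ≤ B * bf (w.s (mid z)) (gl w.l (mid z)) (gl w.l (mid z))
  du : DifferentiableAt ℝ w.u z
  u1 : ‖fderiv ℝ w.u z‖ ≤ B
  dΦ : HasDerivAt w.Φ₁ (w.Φ₂ (w.u z)) (w.u z)
  Φ0 : 0 ≤ w.Φ₁ (w.u z)
  Φb : |w.Φ₂ (w.u z)| ≤ B * w.Φ₁ (w.u z)
  dμ : HasDerivAt w.μ₁ (w.μ₂ (w.l (mid z))) (w.l (mid z))
  μ0 : |w.μ₁ (w.l (mid z))| ≤ 1 / 2
  μb : |w.μ₂ (w.l (mid z))| ≤ B
  dS : HasDerivAt w.S (w.S₁ (w.r2 z)) (w.r2 z)
  dS₁ : HasDerivAt w.S₁ (w.S₂ (w.r2 z)) (w.r2 z)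
  dS₂ : HasDerivAt w.S₂ (w.S₃ (w.r2 z)) (w.r2 z)
  S0 : 0 ≤ w.S (w.r2 z)
  Sb : w.S (w.r2 z) ≤ B * w.r2 z
  S₁0 : 1 / 4 ≤ w.S₁ (w.r2 z)
  S₁b : w.S₁ (w.r2 z) ≤ B
  S₂0 : 0 ≤ w.S₂ (w.r2 z)
  S₂b : w.S₂ (w.r2 z) ≤ B
  S₃b : |w.S₃ (w.r2 z)| ≤ B
  r0 : 0 < w.r2 z
  r1 : w.r2 z ≤ 1
  df : ∀ i, |dif z i| ≤ B * √(w.r2 z)
  cs : w.b z ^ 2 ≤ w.r2 z
  sm : w.a z * √(w.r2 z) ≤ 1 / 4
  nr : 2 * (w.a z * (w.nu z + w.G z)) ≤ w.k z * √(w.r2 z)
  n1 : w.nu z ≤ √(w.r2 z)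

end Wn

variable {w : Wn n} {κ : Type*} {σ : Sl (VV n) κ} {z : VV n} {B ρ : ℝ}

theorem Wn.Ok.B2 (h : w.Ok B z) : 2 ≤ B := by linarith [h.B8]

theorem Wn.Ok.rp (h : w.Ok B z) : 0 < √(w.r2 z) := Real.sqrt_pos.2 h.r0

theorem Wn.Ok.rl (h : w.Ok B z) : √(w.r2 z) ≤ 1 := by
  exact Real.sqrt_le_one.2 h.r1

theorem Wn.Ok.rr (h : w.Ok B z) : √(w.r2 z) ^ 2 = w.r2 z := Real.sq_sqrt h.r0.le

section atoms

variable (h : w.Ok B z) (hσ : Un σ) (ρ0 : 0 ≤ ρ) (ρ1 : ρ ≤ 1)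
include h hσ ρ0 ρ1

theorem Wn.Ok.aL2 : P1 σ ρ z B (fun z => bf (w.s (mid z)) (gl w.l (mid z)) (gl w.l (mid z))) 7 1 := by
  have B2 := h.B2
  refine P1.sum (m := 6) (fun i => ?_) B2 zero_le_one (by simpa using h.nB) ρ0
  refine P1.sum (m := 5) (fun j => ?_) B2 zero_le_one (by simpa using h.nB) ρ0
  have s1 : P1 σ ρ z B (fun z => w.s (mid z) i j) 1 1 :=
    P1.mid hσ ρ0 ρ1 (φ := fun x => w.s x i j) (h.ds i j) (h.s0 i j) (h.s1 i j)
  have l1 : ∀ i, P1 σ ρ z B (fun z => gl w.l (mid z) i) 1 1 := fun i =>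
    P1.mid hσ ρ0 ρ1 (φ := pd i w.l) (h.dpl i) (h.pl0 i) (h.pl1 i)
  exact (((s1.mul (l1 i) B2 ρ0).mul (l1 j) B2 ρ0)).size B2 (by norm_num)

theorem Wn.Ok.aLam : P1 σ ρ z B (fun z => lam w.s w.l (mid z)) 8 1 ∧
    1 ≤ B ^ 1 * lam w.s w.l (mid z) :=
  (h.aL2 hσ ρ0 ρ1).sqrt1 (n := 1) h.B2 (by rw [pow_one]; exact h.la)

theorem Wn.Ok.aLi : P1 σ ρ z B (fun z => (lam w.s w.l (mid z))⁻¹) 10 1 := by
  obtain ⟨h1, h2⟩ := h.aLam hσ ρ0 ρ1
  have h3 : 0 ≤ lam w.s w.l (mid z) := Real.sqrt_nonneg _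
  have := h1.inv (n := 1) h.B2 one_pos (by rwa [abs_of_nonneg h3]) ρ0
  simpa using this

theorem Wn.Ok.aE (i : Fin n) : P1 σ ρ z B (eu w.s w.l i) 15 1 := by
  have B2 := h.B2
  have s1 : ∀ j, P1 σ ρ z B (fun z => w.s (mid z) i j) 1 1 := fun j =>
    P1.mid hσ ρ0 ρ1 (φ := fun x => w.s x i j) (h.ds i j) (h.s0 i j) (h.s1 i j)
  have l1 : ∀ i, P1 σ ρ z B (fun z => pd i w.l (mid z)) 1 1 := fun i =>
    P1.mid hσ ρ0 ρ1 (φ := pd i w.l) (h.dpl i) (h.pl0 i) (h.pl1 i)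
  have t : P1 σ ρ z B (fun z => ∑ j, w.s (mid z) i j * pd j w.l (mid z)) 4 1 :=
    P1.sum (m := 3) (fun j => ((s1 j).mul (l1 j) B2 ρ0).size B2 (by norm_num)) B2 zero_le_one
      (by simpa using h.nB) ρ0
  exact (t.mul (h.aLi hσ ρ0 ρ1) B2 ρ0).size B2 (by norm_num)

theorem Wn.Ok.aA : P1 σ ρ z B w.a 12 1 := by
  have B2 := h.B2
  have d : HasFDerivAt (fun z => w.μ₁ (w.l (mid z))) (w.μ₂ (w.l (mid z)) •
      (fderiv ℝ w.l (mid z)).comp (midL n)) z :=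
    h.dμ.comp_hasFDerivAt z (fd_mid h.dl)
  have m1 : P1 σ ρ z B (fun z => w.μ₁ (w.l (mid z))) 2 1 := by
    refine P1.nrm hσ ρ0 d.differentiableAt ?_ ?_
    · have := h.μ0
      nlinarith
    · rw [d.fderiv, norm_smul, mul_one, Real.norm_eq_abs]
      have e1 : ‖(fderiv ℝ w.l (mid z)).comp (midL n)‖ ≤ B :=
        (ContinuousLinearMap.opNorm_comp_le _ _).trans
          ((mul_le_of_le_one_right (norm_nonneg _) norm_midL).trans h.l1)
      have e2 := mul_le_mul h.μb e1 (norm_nonneg _) (by linarith)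
      have e3 : 0 ≤ |w.μ₂ (w.l (mid z))| * ‖(fderiv ℝ w.l (mid z)).comp (midL n)‖ := by
        positivity
      nlinarith
  have c1 : P1 σ ρ z B (fun _ => (1 : ℝ)) 0 1 := P1.const (by simp)
  exact ((h.aLam hσ ρ0 ρ1).1.mul (c1.add m1 B2 ρ0) B2 ρ0).size B2 (by norm_num)

end atoms

section atoms2

variable (h : w.Ok B z) (hσ : Un σ)
include h hσ

/-- `q`. -/
theorem Wn.Ok.aq (i : Fin n) : P1 σ (√(w.r2 z)) z B (fun z => dif z i) 1 (√(w.r2 z)) :=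
  P1.dif hσ h.rp.le h.B2 (h.df i)

/-- `r²`. -/
theorem Wn.Ok.ar : P1 σ (√(w.r2 z)) z B w.r2 8 (√(w.r2 z) ^ 2) := by
  have B2 := h.B2
  have r0 := h.rp.le
  have hr := h.rp
  have t : P1 σ (√(w.r2 z)) z B (fun z => ∑ i, ∑ j, w.g (mid z) i j * dif z i * dif z j) 7
      (√(w.r2 z) ^ 2) := by
    refine P1.sum (m := 6) (fun i => ?_) B2 (by positivity) (by simpa using h.nB) r0
    refine P1.sum (m := 5) (fun j => ?_) B2 (by positivity) (by simpa using h.nB) r0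
    have g1 : P1 σ (√(w.r2 z)) z B (fun z => w.g (mid z) i j) 1 1 :=
      P1.mid hσ r0 h.rl (φ := fun x => w.g x i j) (h.dg i j) (h.g0 i j) (h.g1 i j)
    exact ((g1.mul (h.aq hσ i) B2 r0).mul (h.aq hσ j) B2 r0).size B2 (by rw [pow_two, one_mul])
  have e : w.r2 = fun z => 1 * ∑ i, ∑ j, w.g (mid z) i j * dif z i * dif z j := by
    funext z; unfold Wn.r2 rq bf; ring
  have := t.cmul (c := 1) (n := 1) B2 (by rw [pow_one, abs_one]; linarith)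
  exact this.congr (Eventually.of_forall fun z' => congrFun e z')

theorem Wn.Ok.aG : P1 σ (√(w.r2 z)) z B w.G 9 (√(w.r2 z) ^ 2) := by
  refine (h.ar hσ).chain (n := 1) h.B2 h.dS ?_ ?_
  · rw [abs_of_nonneg h.S0, pow_one, h.rr]; exact h.Sb
  · have := h.S₁0
    rw [abs_of_pos (by linarith), pow_one]
    exact mul_le_mul_of_nonneg_right h.S₁b (by positivity)

theorem Wn.Ok.aK : P1 σ (√(w.r2 z)) z B w.k 10 1 := by
  have B2 := h.B2
  have h1 := h.S₁0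
  have h2 := h.S₂0
  have h3 : √(w.r2 z) ^ 2 ≤ 1 := by rw [h.rr]; exact h.r1
  have h4 := sq_nonneg (√(w.r2 z))
  have t : P1 σ (√(w.r2 z)) z B (fun z => w.S₁ (w.r2 z)) (8 + 1) 1 := by
    refine (h.ar hσ).chain (n := 1) B2 h.dS₁ ?_ ?_
    · rw [abs_of_pos (by linarith), pow_one, mul_one]; exact h.S₁b
    · rw [abs_of_nonneg h2, pow_one, mul_one]
      nlinarith [h.S₂b]
  exact t.cmul (n := 1) B2 (by rw [pow_one, abs_of_pos (by norm_num)]; linarith)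

theorem Wn.Ok.aY : P1 σ (√(w.r2 z)) z B w.y 10 1 := by
  have B2 := h.B2
  have B8 := h.B8
  have h2 := h.S₂0
  have h3 : √(w.r2 z) ^ 2 ≤ 1 := by rw [h.rr]; exact h.r1
  have h4 := sq_nonneg (√(w.r2 z))
  have t : P1 σ (√(w.r2 z)) z B (fun z => w.S₂ (w.r2 z)) (8 + 1) 1 := by
    refine (h.ar hσ).chain (n := 1) B2 h.dS₂ ?_ ?_
    · rw [abs_of_nonneg h2, pow_one, mul_one]; exact h.S₂b
    · rw [pow_one, mul_one]
      have h5 := abs_nonneg (w.S₃ (w.r2 z))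
      nlinarith [h.S₃b]
  exact t.cmul (n := 1) B2 (by rw [pow_one, abs_of_pos (by norm_num)]; linarith)

theorem Wn.Ok.aB : P1 σ (√(w.r2 z)) z B w.b 15 (√(w.r2 z)) := by
  have B2 := h.B2
  have r0 := h.rp.le
  have l1 : ∀ i, P1 σ (√(w.r2 z)) z B (fun z => pd i w.l (mid z)) 1 1 := fun i =>
    P1.mid hσ r0 h.rl (φ := pd i w.l) (h.dpl i) (h.pl0 i) (h.pl1 i)
  have t : P1 σ (√(w.r2 z)) z B (fun z => ∑ i, pd i w.l (mid z) * dif z i) 4 (√(w.r2 z)) :=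
    P1.sum (m := 3) (fun i => ((l1 i).mul (h.aq hσ i) B2 r0).size B2 (by rw [one_mul])) B2 r0
      (by simpa using h.nB) r0
  exact (t.mul (h.aLi hσ r0 h.rl) B2 r0).size B2 (by rw [mul_one])

omit hσ in
theorem Wn.Ok.n0 : 0 ≤ w.nu z := mul_nonneg h.Φ0 (inv_nonneg.2 (Real.exp_pos _).le)

theorem Wn.Ok.aN : P1 σ (√(w.r2 z)) z B w.nu 3 (w.nu z) := by
  have B2 := h.B2
  have B8 := h.B8
  have r0 := h.rp.le
  have n0 := h.n0
  have hE := Real.exp_pos (w.u z)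
  have hu := h.du.hasFDerivAt
  have d1 : HasFDerivAt (fun z => w.Φ₁ (w.u z)) (w.Φ₂ (w.u z) • fderiv ℝ w.u z) z :=
    h.dΦ.comp_hasFDerivAt z hu
  have d2 : HasFDerivAt (fun z => (Real.exp (w.u z))⁻¹)
      (-(Real.exp (w.u z))⁻¹ • fderiv ℝ w.u z) z := by
    have e : (fun z => (Real.exp (w.u z))⁻¹) = fun z => Real.exp (-w.u z) := by
      funext z; rw [Real.exp_neg]
    rw [e]
    have := (hu.neg).exp
    refine this.congr_fderiv ?_
    have e1 : (-w.u) z = -w.u z := rfl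
    rw [e1, Real.exp_neg]
    refine ContinuousLinearMap.ext fun v => ?_
    simp
  have d := d1.mul d2
  refine P1.nrm hσ r0 d.differentiableAt ?_ ?_
  · rw [abs_of_nonneg n0]
    have : 1 ≤ B ^ 3 := one_le_pow₀ (by linarith)
    nlinarith
  · have e : fderiv ℝ w.nu z = ((w.Φ₂ (w.u z) - w.Φ₁ (w.u z)) * (Real.exp (w.u z))⁻¹) •
        fderiv ℝ w.u z := by
      refine d.fderiv.trans (ContinuousLinearMap.ext fun v => ?_)
      simp only [_root_.add_apply, _root_.smul_apply, smul_eq_mul]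
      ring
    rw [e, norm_smul, Real.norm_eq_abs, abs_mul, abs_of_pos (inv_pos.2 hE)]
    have h1 : |w.Φ₂ (w.u z) - w.Φ₁ (w.u z)| ≤ 2 * B * w.Φ₁ (w.u z) := by
      have := abs_sub (w.Φ₂ (w.u z)) (w.Φ₁ (w.u z))
      rw [abs_of_nonneg h.Φ0] at this
      nlinarith [h.Φb, h.Φ0]
    have h2 : |w.Φ₂ (w.u z) - w.Φ₁ (w.u z)| * (Real.exp (w.u z))⁻¹ ≤ 2 * B * w.nu z := by
      have := mul_le_mul_of_nonneg_right h1 (inv_pos.2 hE).le
      unfold Wn.nu; linarith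
    have h3 := mul_le_mul h2 h.u1 (norm_nonneg _) (by positivity)
    have h4 : 0 ≤ |w.Φ₂ (w.u z) - w.Φ₁ (w.u z)| * (Real.exp (w.u z))⁻¹ * ‖fderiv ℝ w.u z‖ := by
      positivity
    have h5 := mul_le_mul_of_nonneg_left h.rl h4
    have h6 : 2 * B * w.nu z * B ≤ B ^ 3 * w.nu z := by
      have : 2 * B * B ≤ B ^ 3 := by nlinarith [sq_nonneg B]
      nlinarith
    linarith

end atoms2

/-! ## The data near the diagonal -/

theorem Wn.Ok.a0 (h : w.Ok B z) : 0 < w.a z ∧ 1 ≤ B ^ 2 * w.a z := by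
  have B8 := h.B8
  have h1 : 1 ≤ B ^ 1 * lam w.s w.l (mid z) := by
    have h0 := h.la
    have hB : (0 : ℝ) < B := by linarith
    have f0 : 0 < bf (w.s (mid z)) (gl w.l (mid z)) (gl w.l (mid z)) := by
      by_contra hc
      have := mul_nonpos_of_nonneg_of_nonpos hB.le (not_lt.1 hc)
      linarith
    have e : √(B ^ 2 * bf (w.s (mid z)) (gl w.l (mid z)) (gl w.l (mid z))) =
        B * lam w.s w.l (mid z) := by
      rw [Real.sqrt_mul (by positivity), Real.sqrt_sq hB.le]; rfl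
    rw [pow_one, ← e, Real.one_le_sqrt, pow_two, mul_assoc]
    nlinarith
  have h2 := (abs_le.1 h.μ0).1
  have h3 : 1 / 2 ≤ 1 + w.μ₁ (w.l (mid z)) := by linarith
  have h4 : 0 < lam w.s w.l (mid z) := by
    rw [pow_one] at h1
    by_contra hc
    have := mul_nonpos_of_nonneg_of_nonpos (by linarith : (0 : ℝ) ≤ B) (not_lt.1 hc)
    linarith
  have h5 : w.a z = lam w.s w.l (mid z) * (1 + w.μ₁ (w.l (mid z))) := rfl
  constructor
  · rw [h5]; positivity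
  · rw [h5]
    have h6 : 1 ≤ B * lam w.s w.l (mid z) * (B * (1 + w.μ₁ (w.l (mid z)))) := by
      rw [pow_one] at h1
      have : 1 ≤ B * (1 + w.μ₁ (w.l (mid z))) := by nlinarith
      nlinarith
    calc (1 : ℝ) ≤ _ := h6
      _ = _ := by ring

/-- The exponent. -/
def Mz : ℕ := 44

/-- `Nd` for both signs of `q`. -/
theorem Wn.Ok.nd (h : w.Ok B z) (hσ : Un σ) {b' : VV n → ℝ}
    (hb : P1 σ (√(w.r2 z)) z B b' 15 (√(w.r2 z))) (hb2 : b' z ^ 2 ≤ w.r2 z) :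
    Nd σ (√(w.r2 z)) (w.nu z) z (B ^ Mz) (fun z => w.a z ^ 2 * w.G z) w.k
      (fun z => w.y z * (w.a z ^ 2)⁻¹) (fun z => w.a z * b' z) (fun z => w.a z ^ 2 * w.r2 z)
      (fun z => w.a z ^ 2 * (w.nu z + w.G z)) := by
  have B2 := h.B2
  have B8 := h.B8
  have r0 := h.rp.le
  have hr := h.rp
  have rl := h.rl
  have rr := h.rr
  obtain ⟨a0, a1⟩ := h.a0
  have pa := h.aA hσ r0 rl
  have pa2 : P1 σ (√(w.r2 z)) z B (fun z => w.a z ^ 2) 25 1 :=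
    (pa.sq B2 r0).size B2 (by norm_num)
  have pai : P1 σ (√(w.r2 z)) z B (fun z => (w.a z ^ 2)⁻¹) 33 1 := by
    have := pa2.inv (n := 4) B2 one_pos (by
      rw [abs_of_pos (by positivity)]
      have : (1 : ℝ) ≤ (B ^ 2 * w.a z) ^ 2 := one_le_pow₀ a1
      calc (1 : ℝ) ≤ (B ^ 2 * w.a z) ^ 2 := this
        _ = _ := by ring) r0
    simpa using this
  have pG := h.aG hσ
  have pK := h.aK hσ
  have pY := h.aY hσ
  have pR := h.ar hσ
  have pN := h.aN hσ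
  have n0 := h.n0
  have hG : 0 ≤ w.G z := h.S0
  have hk1 : 1 / 2 ≤ w.k z := by have := h.S₁0; unfold Wn.k; linarith
  have hy0 : 0 ≤ w.y z := by have := h.S₂0; unfold Wn.y; linarith
  have hM : ∀ {m : ℕ} {f : VV n → ℝ} {x : ℝ}, P1 σ (√(w.r2 z)) z B f m x → m ≤ Mz →
      P1 σ (√(w.r2 z)) z (B ^ Mz) f 1 x := fun hf hm => hf.base B2 hm
  -- the sizes
  set t := w.a z * √(w.r2 z) with ht
  have t0 : 0 < t := by positivity
  have t1 : t ≤ 1 / 4 := h.sm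
  have hs : w.a z ^ 2 * w.r2 z = t ^ 2 := by rw [ht, mul_pow, rr]
  have hb3 : |w.a z * b' z| ≤ t := by
    rw [abs_mul, abs_of_pos a0, ht]
    refine mul_le_mul_of_nonneg_left ?_ a0.le
    exact abs_le_of_sq_le_sq (by rw [rr]; exact hb2) r0
  have hp0 : 0 ≤ w.a z ^ 2 * (w.nu z + w.G z) := by positivity
  have hp1 : w.a z ^ 2 * (w.nu z + w.G z) ≤ w.k z * t / 2 := by
    have := mul_le_mul_of_nonneg_left h.nr a0.le
    rw [ht]; nlinarith
  have bp := abs_le.1 hb3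
  refine { A8 := ?_, r0 := hr, r1 := rl, n0 := n0, n1 := h.n1, hg := ?_, hk := ?_, hy := ?_,
           hb := ?_, hs := ?_, hp := ?_, dql := ?_, wql := ?_ }
  · have : B ^ 1 ≤ B ^ Mz := pow_le_pow_right₀ (by linarith) (by decide)
    rw [pow_one] at this; linarith
  · exact hM ((pa2.mul pG B2 r0).size B2 (by rw [one_mul])) (by decide)
  · exact hM pK (by decide)
  · exact hM ((pY.mul pai B2 r0).size B2 (by norm_num)) (by decide)
  · exact hM ((pa.mul hb B2 r0).size B2 (by rw [one_mul])) (by decide)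
  · exact hM ((pa2.mul pR B2 r0).size B2 (by rw [one_mul])) (by decide)
  · refine hM ((pa2.mul ((pN.size B2 ?_).add (pG.size B2 ?_) B2 r0) B2 r0).size
      (y := w.nu z + √(w.r2 z) ^ 2) B2 (by rw [one_mul])) (by decide)
    · have := sq_nonneg (√(w.r2 z)); linarith
    · linarith
  · show 1 ≤ dq (w.a z ^ 2 * w.G z) (w.k z) (w.y z * (w.a z ^ 2)⁻¹) (w.a z * b' z)
      (w.a z ^ 2 * w.r2 z)
    unfold dq
    have e1 : 0 ≤ w.a z ^ 2 * w.G z := by positivity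
    have e2 : 0 ≤ w.y z * (w.a z ^ 2)⁻¹ * (w.a z ^ 2 * w.r2 z) := by
      have := h.r0; positivity
    have e3 : 4 * w.k z * (w.a z * b' z) ≤ 4 * w.k z * (1 / 4) :=
      mul_le_mul_of_nonneg_left (by linarith) (by linarith)
    linarith
  · show √(w.r2 z) ^ 2 ≤ B ^ Mz * wq (w.k z) (w.a z * b' z) (w.a z ^ 2 * w.r2 z)
      (w.a z ^ 2 * (w.nu z + w.G z)) 1
    generalize w.a z ^ 2 * (w.nu z + w.G z) = P at hp0 hp1 ⊢
    rw [hs]
    have e1 : (w.k z * t - P) ^ 2 ≤ wq (w.k z) (w.a z * b' z) (t ^ 2) P 1 := by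
      unfold wq
      have : -(2 * P * w.k z * t) ≤ 2 * P * w.k z * (w.a z * b' z) := by
        have h0 : 0 ≤ 2 * P * w.k z := by positivity
        nlinarith
      nlinarith
    have e2 : (w.k z * t / 2) ^ 2 ≤ (w.k z * t - P) ^ 2 :=
      pow_le_pow_left₀ (by positivity) (by linarith) 2
    have e3 : (t / 4) ^ 2 ≤ (w.k z * t / 2) ^ 2 := pow_le_pow_left₀ (by positivity) (by nlinarith) 2
    have e4 : t ^ 2 / 16 ≤ wq (w.k z) (w.a z * b' z) (t ^ 2) P 1 := by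
      have e0 : (t / 4) ^ 2 = t ^ 2 / 16 := by ring
      linarith
    have e5 : √(w.r2 z) ^ 2 ≤ B ^ 4 * t ^ 2 := by
      have : (1 : ℝ) ≤ (B ^ 2 * w.a z) ^ 2 := one_le_pow₀ a1
      have h2 := mul_le_mul_of_nonneg_right this (sq_nonneg (√(w.r2 z)))
      rw [ht]
      calc √(w.r2 z) ^ 2 = 1 * √(w.r2 z) ^ 2 := by ring
        _ ≤ _ := h2
        _ = _ := by ring
    have e6 : 16 * B ^ 4 ≤ B ^ Mz := by
      have : B ^ 6 ≤ B ^ Mz := pow_le_pow_right₀ (by linarith) (by decide)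
      have h7 : 16 * B ^ 4 ≤ B ^ 6 := by
        have h8 : 0 < B ^ 4 := by positivity
        have h9 : B ^ 6 = B ^ 2 * B ^ 4 := by ring
        rw [h9]
        exact mul_le_mul_of_nonneg_right (by nlinarith) h8.le
      linarith
    calc √(w.r2 z) ^ 2 ≤ B ^ 4 * t ^ 2 := e5
      _ = 16 * B ^ 4 * (t ^ 2 / 16) := by ring
      _ ≤ B ^ Mz * (t ^ 2 / 16) := mul_le_mul_of_nonneg_right e6 (by positivity)
      _ ≤ _ := mul_le_mul_of_nonneg_left e4 (by positivity)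

section final

variable {kE : VV n → ℝ} {x : ℝ} {i : Fin n}

/-- The size of `c - a e`. -/
def Xz (ν r x : ℝ) : ℝ := ν / r + r + x / r

theorem Wn.Ok.f1 (h : w.Ok B z) (hσ : Un σ) (hk : P1 σ (√(w.r2 z)) z B kE 16 x) :
    P1 σ (√(w.r2 z)) z (B ^ Mz) (fun z => w.c₁ kE i z - w.a z * eu w.s w.l i z) 46
      (Xz (w.nu z) (√(w.r2 z)) x) := by
  have B2 := h.B2
  have r0 := h.rp.le
  have pa := h.aA hσ r0 h.rl
  have pe := h.aE hσ r0 h.rl i
  have pa2 : P1 σ (√(w.r2 z)) z B (fun z => w.a z ^ 2) 25 1 :=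
    (pa.sq B2 r0).size B2 (by norm_num)
  have hka : P1 σ (√(w.r2 z)) z (B ^ Mz) (fun z => w.a z ^ 2 * kE z) 1 x :=
    ((pa2.mul hk B2 r0).size B2 (by rw [one_mul])).base B2 (by decide)
  exact (h.nd hσ (h.aB hσ) h.cs).fd46 hka (pa.base B2 (by decide)) (pe.base B2 (by decide))
    ((h.aq hσ i).base B2 (by decide))

theorem Wn.Ok.f2 (h : w.Ok B z) (hσ : Un σ) (hk : P1 σ (√(w.r2 z)) z B kE 16 x) :
    P1 σ (√(w.r2 z)) z (B ^ Mz) (fun z => w.c₂ kE i z - w.a z * eu w.s w.l i z) 46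
      (Xz (w.nu z) (√(w.r2 z)) x) := by
  have B2 := h.B2
  have r0 := h.rp.le
  have pa := h.aA hσ r0 h.rl
  have pe := h.aE hσ r0 h.rl i
  have pa2 : P1 σ (√(w.r2 z)) z B (fun z => w.a z ^ 2) 25 1 :=
    (pa.sq B2 r0).size B2 (by norm_num)
  have hka : P1 σ (√(w.r2 z)) z (B ^ Mz) (fun z => w.a z ^ 2 * kE z) 1 x :=
    ((pa2.mul hk B2 r0).size B2 (by rw [one_mul])).base B2 (by decide)
  have hb2 : (-w.b z) ^ 2 ≤ w.r2 z := by rw [neg_sq]; exact h.cs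
  exact (h.nd hσ (h.aB hσ).neg hb2).fd46 hka (pa.base B2 (by decide)) (pe.base B2 (by decide))
    ((h.aq hσ i).neg.base B2 (by decide))

/-- The slope field is of scale `1`. -/
theorem Wn.Ok.f0 (h : w.Ok B z) (hσ : Un σ) :
    P1 σ 1 z B (fun z => w.a z * eu w.s w.l i z) 28 1 :=
  ((h.aA hσ zero_le_one le_rfl).mul (h.aE hσ zero_le_one le_rfl i) h.B2 zero_le_one).size h.B2
    (by norm_num)

/-- The constant. -/
def Cz (B : ℝ) : ℝ := B ^ 2100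

theorem num_le {B : ℝ} (hB : 2 ≤ B) : B ^ 28 + 2 * (B ^ Mz) ^ 46 ≤ Cz B := by
  have h1 : (1 : ℝ) ≤ B := by linarith
  have a1 : B ^ 28 ≤ B ^ 2024 := pow_le_pow_right₀ h1 (by norm_num)
  have a2 : (B ^ Mz) ^ 46 = B ^ 2024 := by rw [← pow_mul]; rfl
  have a3 : B ^ 2024 * B ^ 2 ≤ B ^ 2100 := by
    rw [← pow_add]; exact pow_le_pow_right₀ h1 (by norm_num)
  have a4 : 0 < B ^ 2024 := by positivity
  rw [a2]; unfold Cz
  have a5 : B ^ 2024 * 3 ≤ B ^ 2024 * B ^ 2 := mul_le_mul_of_nonneg_left (by nlinarith) a4.le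
  linarith

/-- From the two parts to the numbers. -/
theorem fb_num {c e : VV n → ℝ} {r X : ℝ} (B2 : 2 ≤ B) (hr : 0 < r)
    (h1 : P1 σ r z (B ^ Mz) (fun z => c z - e z) 46 X) (h0 : P1 σ 1 z B e 28 1) :
    (X ≤ 3 → |c z| ≤ 3 * Cz B) ∧ |c z - e z| ≤ Cz B * X ∧
      ∀ j, |σ.D j c z| ≤ Cz B * (1 + X / r) := by
  have hn := num_le B2
  have hB : 0 < B := by linarith
  have p1 : 0 < B ^ 28 := by positivity
  have p2 : 0 < (B ^ Mz) ^ 46 := by positivity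
  have x0 : 0 ≤ X := h1.x0 (by
    have : B ^ 1 ≤ B ^ Mz := pow_le_pow_right₀ (by linarith) (by decide)
    rw [pow_one] at this; linarith)
  have v1 := h1.v
  have v0 := h0.v
  rw [mul_one] at v0
  refine ⟨fun hX => ?_, ?_, fun j => ?_⟩
  · have e1 : c z = (c z - e z) + e z := by ring
    rw [e1]
    refine (abs_add_le _ _).trans ?_
    have : (B ^ Mz) ^ 46 * X ≤ (B ^ Mz) ^ 46 * 3 := mul_le_mul_of_nonneg_left hX p2.le
    linarith
  · refine v1.trans (mul_le_mul_of_nonneg_right (by linarith) x0)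
  · have hc : DifferentiableAt ℝ c z := by
      have := h1.d.add h0.d
      refine this.congr_of_eventuallyEq (Eventually.of_forall fun z => ?_)
      simp
    have e1 : σ.D j c z = σ.D j (fun z => c z - e z) z + σ.D j e z := by
      simp only [Sl.D]
      rw [fderiv_fun_sub hc h0.d]
      simp only [_root_.sub_apply]; ring
    have d1 := h1.D j
    have d0 := h0.D j
    rw [mul_one, mul_one] at d0
    have d2 : |σ.D j (fun z => c z - e z) z| ≤ (B ^ Mz) ^ 46 * (X / r) := by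
      rw [← mul_div_assoc, le_div_iff₀ hr]; exact d1
    have x1 : 0 ≤ X / r := by positivity
    rw [e1]
    refine (abs_add_le _ _).trans ?_
    have a1 : (B ^ Mz) ^ 46 * (X / r) ≤ Cz B * (X / r) :=
      mul_le_mul_of_nonneg_right (by linarith) x1
    have a2 : B ^ 28 ≤ Cz B := by linarith
    linarith

/-- **The bounds of the fields**: `|c| ≤ C`, `|c - c'| ≤ C (ν/r + r + κ/(E r))`,
`|D c| ≤ C (1 + ν/r² + κ/(E r²))`. -/
theorem Wn.Ok.fb (h : w.Ok B z) (hσ : Un σ) (hk : P1 σ (√(w.r2 z)) z B kE 16 x)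
    (hx : x ≤ √(w.r2 z)) :
    (∀ i, |w.c₁ kE i z| ≤ 3 * Cz B ∧ |w.c₂ kE i z| ≤ 3 * Cz B ∧
      |w.c₁ kE i z - w.c₂ kE i z| ≤ 2 * Cz B * Xz (w.nu z) (√(w.r2 z)) x) ∧
    ∀ i j, |σ.D j (w.c₁ kE i) z| ≤ 2 * Cz B * (1 + w.nu z / w.r2 z + x / w.r2 z) ∧
      |σ.D j (w.c₂ kE i) z| ≤ 2 * Cz B * (1 + w.nu z / w.r2 z + x / w.r2 z) := by
  have B2 := h.B2
  have hr := h.rp
  have C0 : 0 ≤ Cz B := by unfold Cz; have : 0 < B := by linarith
                           positivity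
  have X3 : Xz (w.nu z) (√(w.r2 z)) x ≤ 3 := by
    unfold Xz
    have a1 : w.nu z / √(w.r2 z) ≤ 1 := by rw [div_le_one hr]; exact h.n1
    have a2 : x / √(w.r2 z) ≤ 1 := by rw [div_le_one hr]; exact hx
    have := h.rl
    linarith
  have hX : Cz B * (1 + Xz (w.nu z) (√(w.r2 z)) x / √(w.r2 z)) ≤
      2 * Cz B * (1 + w.nu z / w.r2 z + x / w.r2 z) := by
    have e : Xz (w.nu z) (√(w.r2 z)) x / √(w.r2 z) = w.nu z / w.r2 z + 1 + x / w.r2 z := by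
      unfold Xz
      have h5 := h.rr
      generalize √(w.r2 z) = r at h5 hr
      rw [← h5]
      field_simp
    have x0 := hk.x0 B2
    have a1 : 0 ≤ w.nu z / w.r2 z := div_nonneg h.n0 h.r0.le
    have a2 : 0 ≤ x / w.r2 z := div_nonneg x0 h.r0.le
    rw [e, mul_comm 2, mul_assoc]
    exact mul_le_mul_of_nonneg_left (by linarith) C0
  refine ⟨fun i => ?_, fun i j => ?_⟩
  · obtain ⟨a1, a2, -⟩ := fb_num B2 hr (h.f1 (i := i) hσ hk) (h.f0 (i := i) hσ)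
    obtain ⟨b1, b2, -⟩ := fb_num B2 hr (h.f2 (i := i) hσ hk) (h.f0 (i := i) hσ)
    refine ⟨a1 X3, b1 X3, ?_⟩
    have e : w.c₁ kE i z - w.c₂ kE i z = (w.c₁ kE i z - w.a z * eu w.s w.l i z) -
        (w.c₂ kE i z - w.a z * eu w.s w.l i z) := by ring
    rw [e]
    refine (abs_sub _ _).trans ?_
    linarith
  · obtain ⟨-, -, a3⟩ := fb_num B2 hr (h.f1 (i := i) hσ hk) (h.f0 (i := i) hσ)
    obtain ⟨-, -, b3⟩ := fb_num B2 hr (h.f2 (i := i) hσ hk) (h.f0 (i := i) hσ)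
    exact ⟨(a3 j).trans hX, (b3 j).trans hX⟩

end final

end fun_

end Vale.Agent.P088.R2.H983.Fl
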