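import Vale.Agent.P088.R2.H983.Fl.Zi
import Vale.Agent.P088.R2.H870.Z2.Spec

/-!
# P088, stage 3: the fields of zone II in frames, smoothness, the structure `FB`
-/

open Set Filter
open scoped ContDiff Topology Matrix

noncomputable section

namespace Vale.Agent.P088.R2.H983.Fl

open Vale.Agent.P088.LR Vale.Agent.P088.HY Vale.Agent.P088.R2.H464.Cu
open Vale.Agent.P088.R2.H961.GW (Sl slx sly sm_pd)
open Vale.Agent.P088.R2.H942.Iso.Near (cn dq wq aa kf)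

variable {n : ℕ}

/-- A frame: `F F = s`, `Ψ Ψ = g`, `F Ψ = 1`. -/
structure Fr1 (S G F Ψ : Matrix (Fin n) (Fin n) ℝ) : Prop where
  y1 : ∀ i j, F i j = F j i
  y2 : ∀ i j, Ψ i j = Ψ j i
  q1 : F * F = S
  q2 : Ψ * Ψ = G
  o1 : F * Ψ = 1
  o2 : Ψ * F = 1

theorem Fr1.exists {S G : Matrix (Fin n) (Fin n) ℝ} (hS : ∀ i j, S i j = S j i) {c : ℝ}
    (hp : ∀ v : V n, c ^ 2 * dt v v ≤ bf S v v) (hGS : G * S = 1) : ∃ F Ψ, Fr1 S G F Ψ := by
  obtain ⟨F, f1, f2, -⟩ := root hS hp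
  obtain ⟨Ψ, -, p2, p3, p4, p5⟩ := inv_root (G := G) f1 (by rw [f2]; exact hGS)
  exact ⟨F, Ψ, ⟨f1, p2, f2, p5, p4, p3⟩⟩

theorem dt_cs (a b : V n) : dt a b ^ 2 ≤ dt a a * dt b b := by
  have h := Finset.sum_mul_sq_le_sq_mul_sq Finset.univ a b
  unfold dt
  simpa only [pow_two] using h

theorem dt_mv {F : Matrix (Fin n) (Fin n) ℝ} (hF : ∀ i j, F i j = F j i) (a b : V n) :
    dt (F *ᵥ a) b = dt a (F *ᵥ b) := by
  unfold dt
  simp only [Matrix.mulVec, dotProduct, Finset.sum_mul, Finset.mul_sum]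
  rw [Finset.sum_comm]
  refine Finset.sum_congr rfl fun i _ => Finset.sum_congr rfl fun j _ => ?_
  rw [hF j i]; ring

theorem dt_smul_l (c : ℝ) (a b : V n) : dt (c • a) b = c * dt a b := by
  unfold dt
  rw [Finset.mul_sum]
  exact Finset.sum_congr rfl fun i _ => by rw [Pi.smul_apply, smul_eq_mul]; ring

theorem dt_smul_r (c : ℝ) (a b : V n) : dt a (c • b) = c * dt a b := by
  rw [dt_comm, dt_smul_l, dt_comm]

theorem dt_dd (a b : V n) : dt a b = H230.W.dd a b := rfl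

namespace Fr1

variable {S G F Ψ : Matrix (Fin n) (Fin n) ℝ} (f : Fr1 S G F Ψ)
include f

theorem lv (a v : V n) : dt (F *ᵥ a) (Ψ *ᵥ v) = dt a v := by
  rw [dt_mv f.y1, Matrix.mulVec_mulVec, f.o1, Matrix.one_mulVec]

theorem ll (a : V n) : dt (F *ᵥ a) (F *ᵥ a) = bf S a a := by
  rw [← f.q1, bf_sq f.y1]

theorem vv (v : V n) : dt (Ψ *ᵥ v) (Ψ *ᵥ v) = bf G v v := by
  rw [← f.q2, bf_sq f.y2]

theorem cs (a v : V n) : dt a v ^ 2 ≤ bf S a a * bf G v v := by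
  rw [← f.lv, ← f.ll, ← f.vv]; exact dt_cs _ _

end Fr1

section frames

variable {w : Wn n} {F Ψ : Matrix (Fin n) (Fin n) ℝ} {z : VV n}

/-- The slope direction in the frame. -/
def ef (w : Wn n) (F : Matrix (Fin n) (Fin n) ℝ) (z : VV n) : V n :=
  (lam w.s w.l (mid z))⁻¹ • (F *ᵥ gl w.l (mid z))

/-- `q` in the frame. -/
def qf' (Ψ : Matrix (Fin n) (Fin n) ℝ) (z : VV n) : V n := Ψ *ᵥ dif z

variable (f : Fr1 (w.s (mid z)) (w.g (mid z)) F Ψ)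
include f

theorem lam_sq : lam w.s w.l (mid z) ^ 2 = bf (w.s (mid z)) (gl w.l (mid z)) (gl w.l (mid z)) := by
  unfold lam
  refine Real.sq_sqrt ?_
  rw [← f.ll]; exact dt_nonneg _

theorem ef_one (hl : lam w.s w.l (mid z) ≠ 0) : dt (ef w F z) (ef w F z) = 1 := by
  unfold ef
  rw [dt_smul_l, dt_smul_r, f.ll, ← lam_sq f]
  field_simp

theorem qf_sq : dt (qf' Ψ z) (qf' Ψ z) = w.r2 z := by
  unfold qf' Wn.r2 rq
  rw [f.vv]; ring

theorem ef_qf : dt (ef w F z) (qf' Ψ z) = w.b z := by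
  unfold ef qf' Wn.b bb
  rw [dt_smul_l, f.lv, mul_comm]; rfl

theorem b_sq : w.b z ^ 2 ≤ w.r2 z := by
  by_cases hl : lam w.s w.l (mid z) = 0
  · have : w.b z = 0 := by unfold Wn.b bb; rw [hl, inv_zero, mul_zero]
    rw [this, ← qf_sq f, zero_pow two_ne_zero]; exact dt_nonneg _
  · have h := dt_cs (ef w F z) (qf' Ψ z)
    rwa [ef_one f hl, ef_qf f, qf_sq f, one_mul] at h

theorem F_ef (i : Fin n) : (F *ᵥ ef w F z) i = eu w.s w.l i z := by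
  unfold ef eu
  rw [Matrix.mulVec_smul, Matrix.mulVec_mulVec, f.q1, Pi.smul_apply, smul_eq_mul, mul_comm]
  rfl

theorem F_qf : F *ᵥ qf' Ψ z = dif z := by
  unfold qf'
  rw [Matrix.mulVec_mulVec, f.o1, Matrix.one_mulVec]

/-- **The first field in the frame.** -/
theorem c₁_fr (hl : lam w.s w.l (mid z) ≠ 0) (kE : VV n → ℝ) :
    (fun i => w.c₁ kE i z) = F *ᵥ (w.a z •
      (cn (ef w F z) (w.a z • qf' Ψ z) (w.a z ^ 2 * w.G z) (w.k z) (w.y z * (w.a z ^ 2)⁻¹)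
        (H230.W.dd (ef w F z) (w.a z • qf' Ψ z)) (H230.W.dd (w.a z • qf' Ψ z) (w.a z • qf' Ψ z))
        (w.a z ^ 2 * (w.nu z + w.G z)) 1 +
      (w.a z ^ 2 * kE z) • kf (ef w F z)
        ((w.a z ^ 2 * (w.nu z + w.G z)) • ef w F z + w.k z • (w.a z • qf' Ψ z)))) := by
  have h1 : H230.W.dd (ef w F z) (ef w F z) = 1 := ef_one f hl
  rw [← al_be h1]
  have e1 : H230.W.dd (ef w F z) (w.a z • qf' Ψ z) = w.a z * w.b z := by
    rw [← dt_dd, dt_smul_r, ef_qf f]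
  have e2 : H230.W.dd (w.a z • qf' Ψ z) (w.a z • qf' Ψ z) = w.a z ^ 2 * w.r2 z := by
    rw [← dt_dd, dt_smul_r, dt_smul_l, qf_sq f]; ring
  rw [e1, e2]
  rw [Matrix.mulVec_smul, Matrix.mulVec_add, Matrix.mulVec_smul, Matrix.mulVec_smul,
    Matrix.mulVec_smul, F_qf f]
  funext i
  simp only [Pi.smul_apply, Pi.add_apply, smul_eq_mul, F_ef f i]
  unfold Wn.c₁ fdc alS beS
  ring

/-- **The second field in the frame.** -/
theorem c₂_fr (hl : lam w.s w.l (mid z) ≠ 0) (kE : VV n → ℝ) :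
    (fun i => w.c₂ kE i z) = F *ᵥ (w.a z •
      (cn (ef w F z) (-(w.a z • qf' Ψ z)) (w.a z ^ 2 * w.G z) (w.k z) (w.y z * (w.a z ^ 2)⁻¹)
        (-H230.W.dd (ef w F z) (w.a z • qf' Ψ z)) (H230.W.dd (w.a z • qf' Ψ z) (w.a z • qf' Ψ z))
        (w.a z ^ 2 * (w.nu z + w.G z)) 1 +
      (w.a z ^ 2 * kE z) • kf (ef w F z)
        ((w.a z ^ 2 * (w.nu z + w.G z)) • ef w F z - w.k z • (w.a z • qf' Ψ z)))) := by
  have h1 : H230.W.dd (ef w F z) (ef w F z) = 1 := ef_one f hl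
  have n1 : -H230.W.dd (ef w F z) (w.a z • qf' Ψ z) = H230.W.dd (ef w F z) (-(w.a z • qf' Ψ z)) := by
    unfold Vale.Agent.P088.R2.H230.W.dd; simp
  have n2 : H230.W.dd (w.a z • qf' Ψ z) (w.a z • qf' Ψ z) =
      H230.W.dd (-(w.a z • qf' Ψ z)) (-(w.a z • qf' Ψ z)) := by unfold Vale.Agent.P088.R2.H230.W.dd; simp
  have n3 : (w.a z ^ 2 * (w.nu z + w.G z)) • ef w F z - w.k z • (w.a z • qf' Ψ z) =
      (w.a z ^ 2 * (w.nu z + w.G z)) • ef w F z + w.k z • (-(w.a z • qf' Ψ z)) := by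
    rw [smul_neg, sub_eq_add_neg]
  rw [n1, n2, n3, ← al_be h1]
  have e1 : H230.W.dd (ef w F z) (-(w.a z • qf' Ψ z)) = w.a z * -w.b z := by
    rw [← n1, ← dt_dd, dt_smul_r, ef_qf f]; ring
  have e2 : H230.W.dd (-(w.a z • qf' Ψ z)) (-(w.a z • qf' Ψ z)) = w.a z ^ 2 * w.r2 z := by
    rw [← n2, ← dt_dd, dt_smul_r, dt_smul_l, qf_sq f]; ring
  rw [e1, e2]
  rw [Matrix.mulVec_smul, Matrix.mulVec_add, Matrix.mulVec_smul, Matrix.mulVec_smul,
    Matrix.mulVec_neg, Matrix.mulVec_smul, F_qf f]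
  funext i
  simp only [Pi.smul_apply, Pi.add_apply, Pi.neg_apply, smul_eq_mul, F_ef f i]
  unfold Wn.c₂ fdc alS beS
  ring

end frames

section smooth

variable {w : Wn n} {O : Set (V n)} {Ω : Set (VV n)} {z : VV n} {B : ℝ} {kE : VV n → ℝ}

/-- Smoothness of the data. -/
structure Wn.Smo (w : Wn n) (O : Set (V n)) (Ω : Set (VV n)) : Prop where
  op : IsOpen O
  mi : ∀ z ∈ Ω, mid z ∈ O
  sg : ∀ i j, ContDiffOn ℝ ∞ (fun x => w.g x i j) O
  ss : ∀ i j, ContDiffOn ℝ ∞ (fun x => w.s x i j) O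
  sl : ContDiffOn ℝ ∞ w.l O
  su : ContDiffOn ℝ ∞ w.u Ω
  sΦ : ContDiff ℝ ∞ w.Φ₁
  sμ : ContDiff ℝ ∞ w.μ₁
  sS : ContDiff ℝ ∞ w.S
  sS₁ : ContDiff ℝ ∞ w.S₁
  sS₂ : ContDiff ℝ ∞ w.S₂

theorem Wn.Smo.midc (h : w.Smo O Ω) {φ : V n → ℝ} (hφ : ContDiffOn ℝ ∞ φ O) :
    ContDiffOn ℝ ∞ (fun z => φ (mid z)) Ω :=
  hφ.comp contDiff_mid.contDiffOn h.mi

theorem contDiff_dif (i : Fin n) : ContDiff ℝ ∞ fun z : VV n => dif z i :=
  (difL i).contDiff

theorem Wn.Smo.pl (h : w.Smo O Ω) (i : Fin n) : ContDiffOn ℝ ∞ (fun z => pd i w.l (mid z)) Ω :=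
  h.midc (sm_pd h.op h.sl i)

theorem Wn.Smo.la2 (h : w.Smo O Ω) :
    ContDiffOn ℝ ∞ (fun z => bf (w.s (mid z)) (gl w.l (mid z)) (gl w.l (mid z))) Ω := by
  unfold bf
  exact ContDiffOn.sum fun i _ => ContDiffOn.sum fun j _ =>
    ((h.midc (h.ss i j)).mul (h.pl i)).mul (h.pl j)

theorem Wn.Smo.la (h : w.Smo O Ω) (hB : ∀ z ∈ Ω, w.Ok B z) :
    ContDiffOn ℝ ∞ (fun z => lam w.s w.l (mid z)) Ω := by
  refine h.la2.sqrt fun z hz => ?_
  have h1 := (hB z hz).la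
  intro h0
  rw [h0, mul_zero] at h1
  linarith

theorem Wn.Ok.lne (h : w.Ok B z) : lam w.s w.l (mid z) ≠ 0 := by
  intro h0
  have h1 := h.a0.1
  unfold Wn.a aa' at h1
  rw [h0, zero_mul] at h1
  exact lt_irrefl _ h1

theorem Wn.Smo.sa (h : w.Smo O Ω) (hB : ∀ z ∈ Ω, w.Ok B z) : ContDiffOn ℝ ∞ w.a Ω :=
  (h.la hB).mul (contDiffOn_const.add (h.sμ.comp_contDiffOn (h.midc h.sl)))

theorem Wn.Smo.se (h : w.Smo O Ω) (hB : ∀ z ∈ Ω, w.Ok B z) (i : Fin n) :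
    ContDiffOn ℝ ∞ (eu w.s w.l i) Ω :=
  (ContDiffOn.sum fun j _ => (h.midc (h.ss i j)).mul (h.pl j)).mul
    ((h.la hB).inv fun z hz => (hB z hz).lne)

theorem Wn.Smo.sb (h : w.Smo O Ω) (hB : ∀ z ∈ Ω, w.Ok B z) : ContDiffOn ℝ ∞ w.b Ω :=
  (ContDiffOn.sum fun i _ => (h.pl i).mul (contDiff_dif i).contDiffOn).mul
    ((h.la hB).inv fun z hz => (hB z hz).lne)

theorem Wn.Smo.sr (h : w.Smo O Ω) : ContDiffOn ℝ ∞ w.r2 Ω := by
  unfold Wn.r2 rq bf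
  exact contDiffOn_const.mul (contDiffOn_const.mul (ContDiffOn.sum fun i _ =>
    ContDiffOn.sum fun j _ => ((h.midc (h.sg i j)).mul (contDiff_dif i).contDiffOn).mul
      (contDiff_dif j).contDiffOn))

theorem Wn.Smo.sn (h : w.Smo O Ω) : ContDiffOn ℝ ∞ w.nu Ω :=
  (h.sΦ.comp_contDiffOn h.su).mul ((h.su.exp).inv fun z _ => (Real.exp_pos _).ne')

theorem sm_al {g k y b s p ka : VV n → ℝ} (hg : ContDiffOn ℝ ∞ g Ω) (hk : ContDiffOn ℝ ∞ k Ω)
    (hy : ContDiffOn ℝ ∞ y Ω) (hb : ContDiffOn ℝ ∞ b Ω) (hs : ContDiffOn ℝ ∞ s Ω)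
    (hp : ContDiffOn ℝ ∞ p Ω) (hka : ContDiffOn ℝ ∞ ka Ω)
    (h1 : ∀ z ∈ Ω, dq (g z) (k z) (y z) (b z) (s z) ≠ 0)
    (h2 : ∀ z ∈ Ω, wq (k z) (b z) (s z) (p z) 1 ≠ 0) :
    ContDiffOn ℝ ∞ (fun z => al (g z) (k z) (y z) (b z) (s z) (p z) (ka z)) Ω ∧
      ContDiffOn ℝ ∞ (fun z => be (g z) (k z) (y z) (b z) (s z) (p z) (ka z)) Ω := by
  have d : ContDiffOn ℝ ∞ (fun z => dq (g z) (k z) (y z) (b z) (s z)) Ω := by
    unfold dq
    exact (contDiffOn_const.mul ((hg.add (hk.add (hy.mul hs))).add hk)).sub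
      ((contDiffOn_const.mul hk).mul hb)
  have e : ContDiffOn ℝ ∞ (fun z => wq (k z) (b z) (s z) (p z) 1) Ω := by
    unfold wq
    exact ((hp.pow 2).add ((((contDiffOn_const.mul hp).mul contDiffOn_const).mul hk).mul hb)).add
      ((contDiffOn_const.mul (hk.pow 2)).mul hs)
  have a : ContDiffOn ℝ ∞ (fun z => aa (g z) (k z) (y z) (b z)) Ω := by
    unfold aa
    exact ((contDiffOn_const.mul (hk.pow 2)).mul (contDiffOn_const.sub hb)).add
      (((contDiffOn_const.mul hg).mul hy).mul hb)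
  have de := (d.mul e).inv fun z hz => mul_ne_zero (h1 z hz) (h2 z hz)
  have ei := e.inv h2
  have pb := hp.add ((contDiffOn_const (c := (2 : ℝ)).mul hk).mul hb)
  constructor
  · unfold al
    exact (de.mul (((contDiffOn_const.mul hg).mul hk).mul pb |>.add ((hk.mul hs).mul a))).add
      (hka.mul (ei.mul pb))
  · unfold be
    exact (de.mul ((hp.mul a).sub ((contDiffOn_const.mul hg).mul (hk.pow 2)))).sub
      (hka.mul (ei.mul hk))

/-- **The fields are smooth.** -/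
theorem Wn.Smo.fields (h : w.Smo O Ω) (hB : ∀ z ∈ Ω, w.Ok B z) (hk : ContDiffOn ℝ ∞ kE Ω)
    (i : Fin n) : ContDiffOn ℝ ∞ (w.c₁ kE i) Ω ∧ ContDiffOn ℝ ∞ (w.c₂ kE i) Ω := by
  have sa := h.sa hB
  have sa2 := sa.pow 2
  have sai := sa2.inv fun z hz => (pow_pos (hB z hz).a0.1 2).ne'
  have sr := h.sr
  have sG : ContDiffOn ℝ ∞ w.G Ω := h.sS.comp_contDiffOn sr
  have sK : ContDiffOn ℝ ∞ w.k Ω := contDiffOn_const.mul (h.sS₁.comp_contDiffOn sr)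
  have sY : ContDiffOn ℝ ∞ w.y Ω := contDiffOn_const.mul (h.sS₂.comp_contDiffOn sr)
  have sb := h.sb hB
  have sn := h.sn
  have e1 := fun z hz => (hB z hz).nd (un_sx w.s) ((hB z hz).aB (un_sx w.s)) (hB z hz).cs
  have e2 := fun z hz => (hB z hz).nd (un_sx w.s) ((hB z hz).aB (un_sx w.s)).neg
    (by rw [neg_sq]; exact (hB z hz).cs)
  have t1 := sm_al (Ω := Ω) (sa2.mul sG) sK (sY.mul sai) (sa.mul sb) (sa2.mul sr)
    (sa2.mul (sn.add sG)) (sa2.mul hk) (fun z hz => (e1 z hz).dpos.ne')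
    (fun z hz => (e1 z hz).wpos.ne')
  have t2 := sm_al (Ω := Ω) (sa2.mul sG) sK (sY.mul sai) (sa.mul sb.neg) (sa2.mul sr)
    (sa2.mul (sn.add sG)) (sa2.mul hk) (fun z hz => (e2 z hz).dpos.ne')
    (fun z hz => (e2 z hz).wpos.ne')
  have se := h.se hB i
  have sd := (contDiff_dif i).contDiffOn (s := Ω)
  exact ⟨sa.mul ((t1.1.mul se).add ((sa.mul t1.2).mul sd)),
    sa.mul ((t2.1.mul se).add ((sa.mul t2.2).mul sd.neg))⟩

end smooth

section fb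

open Vale.Agent.P088.R2.H870.Z2 (FB)

variable {w : Wn n} {z : VV n} {B x k : ℝ} {kE : VV n → ℝ} {s₁ s₂ : MF n}
  {G₁ G₂ : Matrix (Fin n) (Fin n) ℝ}

theorem mul_c {S G : Matrix (Fin n) (Fin n) ℝ} (h : S * G = 1) (c : Fin n → ℝ) (i : Fin n) :
    c i = ∑ j, S i j * ∑ l, G j l * c l := by
  have e : (S * G) *ᵥ c = c := by rw [h, Matrix.one_mulVec]
  rw [← Matrix.mulVec_mulVec] at e
  exact (congrFun e i).symm

/-- **The structure `FB` of helper870.** `k` is the value of `κ`, `kE = κ / E`. -/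
theorem Wn.Ok.FB (h : w.Ok B z) (h1 : s₁ z.1 * G₁ = 1) (h2 : s₂ z.2 * G₂ = 1)
    (b1 : ∀ i j, |G₁ i j| ≤ B) (b2 : ∀ i j, |G₂ i j| ≤ B)
    (d : ∀ i j, |G₁ i j - G₂ i j| ≤ B * √(w.r2 z))
    (hk1 : P1 (slx (fun _ => 1) s₁) (√(w.r2 z)) z B kE 16 (k / Real.exp (w.u z)))
    (hk2 : P1 (sly (fun _ => 1) s₂) (√(w.r2 z)) z B kE 16 (k / Real.exp (w.u z)))
    (hx : k / Real.exp (w.u z) ≤ √(w.r2 z)) :
    FB (slx (fun _ => 1) s₁) (sly (fun _ => 1) s₂) (fun j z => ∑ l, G₁ j l * w.c₁ kE l z)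
      (fun j z => ∑ l, G₂ j l * w.c₂ kE l z) (w.c₁ kE) (w.c₂ kE) (5 * B ^ 2 * Cz B)
      (Real.exp (w.u z)) (w.Φ₁ (w.u z)) (√(w.r2 z)) k z := by
  have B2 := h.B2
  have B8 := h.B8
  have hr := h.rp
  have hE := Real.exp_pos (w.u z)
  have C0 : 0 ≤ Cz B := by
    unfold Cz
    have : 0 < B := by linarith
    positivity
  obtain ⟨f1, f2⟩ := h.fb (un_sx s₁) hk1 hx
  obtain ⟨-, f3⟩ := h.fb (un_sy s₂) hk2 hx
  have x0 := hk1.x0 B2
  have n0 := h.n0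
  have X0 : 0 ≤ Xz (w.nu z) (√(w.r2 z)) (k / Real.exp (w.u z)) := by unfold Xz; positivity
  have eX : Xz (w.nu z) (√(w.r2 z)) (k / Real.exp (w.u z)) =
      √(w.r2 z) + (w.Φ₁ (w.u z) + k) / (Real.exp (w.u z) * √(w.r2 z)) := by
    unfold Xz Wn.nu
    field_simp
    ring
  have eD : 1 + w.nu z / w.r2 z + k / Real.exp (w.u z) / w.r2 z =
      1 + (w.Φ₁ (w.u z) + k) / (Real.exp (w.u z) * √(w.r2 z) ^ 2) := by
    rw [h.rr]
    have := h.r0
    unfold Wn.nu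
    field_simp
    ring
  have hn : (n : ℝ) * B ≤ B ^ 2 := by nlinarith [h.nB]
  have sb : ∀ {c : Fin n → ℝ} {G : Matrix (Fin n) (Fin n) ℝ} {D : ℝ},
      (∀ i j, |G i j| ≤ B) → (∀ l, |c l| ≤ D) → 0 ≤ D → ∀ j, |∑ l, G j l * c l| ≤ B ^ 2 * D := by
    intro c G D hG hc hD j
    refine (sum_le1 (c := B * D) fun l => ?_).trans ?_
    · rw [abs_mul]; exact mul_le_mul (hG j l) (hc l) (abs_nonneg _) (by linarith)
    · have := mul_le_mul_of_nonneg_right hn hD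
      linarith
  refine ⟨fun i => mul_c h1 (fun l => w.c₁ kE l z) i, fun i => mul_c h2 (fun l => w.c₂ kE l z) i,
    fun j => ?_, fun j => ?_, fun j => ?_, fun i l => ?_, fun i l => ?_⟩
  · refine (sb b1 (fun l => (f1 l).1) (by positivity) j).trans ?_
    nlinarith [mul_nonneg (sq_nonneg B) C0]
  · refine (sb b2 (fun l => (f1 l).2.1) (by positivity) j).trans ?_
    nlinarith [mul_nonneg (sq_nonneg B) C0]
  · have e : (∑ l, G₁ j l * w.c₁ kE l z) - ∑ l, G₂ j l * w.c₂ kE l z =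
        (∑ l, (G₁ j l - G₂ j l) * w.c₁ kE l z) + ∑ l, G₂ j l * (w.c₁ kE l z - w.c₂ kE l z) := by
      rw [← Finset.sum_sub_distrib, ← Finset.sum_add_distrib]
      exact Finset.sum_congr rfl fun l _ => by ring
    have a1 : |∑ l, (G₁ j l - G₂ j l) * w.c₁ kE l z| ≤ B ^ 2 * (3 * Cz B * √(w.r2 z)) := by
      refine (sum_le1 (c := B * (3 * Cz B * √(w.r2 z))) fun l => ?_).trans ?_
      · rw [abs_mul]
        have := mul_le_mul (d j l) (f1 l).1 (abs_nonneg _) (by positivity)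
        linarith
      · have : 0 ≤ 3 * Cz B * √(w.r2 z) := by positivity
        have := mul_le_mul_of_nonneg_right hn this
        linarith
    have a2 := sb (c := fun l => w.c₁ kE l z - w.c₂ kE l z) b2 (fun l => (f1 l).2.2)
      (by positivity) j
    show |(∑ l, G₁ j l * w.c₁ kE l z) - ∑ l, G₂ j l * w.c₂ kE l z| ≤ _
    rw [e, ← eX]
    refine (abs_add_le _ _).trans ((add_le_add a1 a2).trans ?_)
    have a3 : √(w.r2 z) ≤ Xz (w.nu z) (√(w.r2 z)) (k / Real.exp (w.u z)) := by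
      unfold Xz
      have : 0 ≤ w.nu z / √(w.r2 z) := by positivity
      have : 0 ≤ k / Real.exp (w.u z) / √(w.r2 z) := by positivity
      linarith
    have a4 : B ^ 2 * (3 * Cz B * √(w.r2 z)) ≤
        B ^ 2 * (3 * Cz B * Xz (w.nu z) (√(w.r2 z)) (k / Real.exp (w.u z))) := by gcongr
    linarith
  · have a := (f2 l i).1
    rw [eD] at a
    refine a.trans ?_
    rw [← eD]
    have y0 : 0 ≤ 1 + w.nu z / w.r2 z + k / Real.exp (w.u z) / w.r2 z := by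
      have := h.r0; positivity
    refine mul_le_mul_of_nonneg_right ?_ y0
    exact mul_le_mul_of_nonneg_right (by nlinarith) C0
  · have a := (f3 l i).2
    rw [eD] at a
    refine a.trans ?_
    rw [← eD]
    have y0 : 0 ≤ 1 + w.nu z / w.r2 z + k / Real.exp (w.u z) / w.r2 z := by
      have := h.r0; positivity
    refine mul_le_mul_of_nonneg_right ?_ y0
    exact mul_le_mul_of_nonneg_right (by nlinarith) C0

/-- The class of `κ / E`. -/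
theorem P1.kapE {E κ : Type*} [NormedAddCommGroup E] [NormedSpace ℝ E] {σ : Sl E κ} {r : ℝ} {z : E}
    {A : ℝ} {K u : E → ℝ} {m : ℕ} (hA : 2 ≤ A) (hr : 0 ≤ r) (r1 : r ≤ 1) (hσ : Un σ)
    (hK : P1 σ r z A K m (K z)) (du : DifferentiableAt ℝ u z) (u1 : ‖fderiv ℝ u z‖ ≤ A) :
    P1 σ r z A (fun z => K z * (Real.exp (u z))⁻¹) (m + 2) (K z / Real.exp (u z)) := by
  have hE := Real.exp_pos (u z)
  have d : HasFDerivAt (fun z => (Real.exp (u z))⁻¹) (-(Real.exp (u z))⁻¹ • fderiv ℝ u z) z := by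
    have e : (fun z => (Real.exp (u z))⁻¹) = fun z => Real.exp (-u z) := by
      funext z; rw [Real.exp_neg]
    rw [e]
    have := (du.hasFDerivAt.neg).exp
    refine this.congr_fderiv ?_
    have e1 : (-u) z = -u z := rfl
    rw [e1, Real.exp_neg]
    refine ContinuousLinearMap.ext fun v => ?_
    simp
  have h1 : P1 σ r z A (fun z => (Real.exp (u z))⁻¹) 1 (Real.exp (u z))⁻¹ := by
    refine P1.nrm hσ hr d.differentiableAt ?_ ?_
    · rw [abs_of_pos (by positivity), pow_one]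
      have : 0 < (Real.exp (u z))⁻¹ := by positivity
      nlinarith
    · rw [d.fderiv, norm_smul, norm_neg, Real.norm_of_nonneg (by positivity), pow_one]
      have : 0 < (Real.exp (u z))⁻¹ := by positivity
      have h0 := norm_nonneg (fderiv ℝ u z)
      calc (Real.exp (u z))⁻¹ * ‖fderiv ℝ u z‖ * r ≤ (Real.exp (u z))⁻¹ * A * 1 := by gcongr
        _ = _ := by ring
  exact (hK.mul h1 hA hr).size hA (by rw [div_eq_mul_inv])

end fb

end Vale.Agent.P088.R2.H983.Fl
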