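import Vale.Agent.P088.R2.H983.Fl.Der
import Vale.Agent.P088.R2.H942.Near4

/-!
# P088, stage 3: the near fields `nf1`, `nf2` are fields `fl` with smooth coefficients

`nf1 θ s e h ν l = fl e (ν e + l h) (α e + β h)` with `α, β` smooth functions of `(s, e·h)`.
-/

open Set
open scoped ContDiff Topology

noncomputable section

namespace Vale.Agent.P088.R2.H983.Fl

open Vale.Agent.P088.R2.H230.W
open Vale.Agent.P088.R2.H961.GW (Sm Sl)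
open Vale.Agent.P088.R2.H942.Iso (Sg dm dp De ar ai br bi Rad)
open Vale.Agent.P088.R2.H942.Iso.Near (gp kp zp nf1 nf2 lee Rad2 rad2_cosh sq_bc)

/-! ### The functions with `c²` as an argument -/

def Sg2 (g k z b q : ℝ) : ℝ := 2 * (g + (k + z * (b ^ 2 + q)) + k)
def dm2 (g k z b q : ℝ) : ℝ := Sg2 g k z b q - 4 * k * b
def dp2 (g k z b q : ℝ) : ℝ := Sg2 g k z b q + 4 * k * b
def De2 (g k z b q : ℝ) : ℝ :=
  4 * (k + z * b ^ 2) * (g + (k + z * q)) - 4 * k ^ 2 * b ^ 2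
def ar2 (g k z b q : ℝ) : ℝ :=
  -De2 g k z b q + 4 * (k + z * q) * ((k + z * b ^ 2) - k * b) + 4 * k * z * b * q
def br2 (g k z b q : ℝ) : ℝ :=
  -De2 g k z b q + 4 * (k + z * q) * ((k + z * b ^ 2) + k * b) - 4 * k * z * b * q

lemma dm_eq (g k z b c : ℝ) : dm g k z b c = dm2 g k z b (c ^ 2) := rfl
lemma dp_eq (g k z b c : ℝ) : dp g k z b c = dp2 g k z b (c ^ 2) := rfl
lemma ar_eq (g k z b c : ℝ) : ar g k z b c = ar2 g k z b (c ^ 2) := rfl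
lemma br_eq (g k z b c : ℝ) : br g k z b c = br2 g k z b (c ^ 2) := rfl

/-! ### The coefficients -/

def aA (θ : ℝ) (p : ℝ × ℝ) : ℝ := (4 * gp θ p.1)⁻¹ *
  (ar2 (gp θ p.1) (kp θ p.1) (zp θ p.1) (p.1 * p.2) (p.1 ^ 2 * (1 - p.2 ^ 2)) /
    dm2 (gp θ p.1) (kp θ p.1) (zp θ p.1) (p.1 * p.2) (p.1 ^ 2 * (1 - p.2 ^ 2)))
def aB (θ : ℝ) (p : ℝ × ℝ) : ℝ := (4 * gp θ p.1)⁻¹ *
  (p.1 * (ai (gp θ p.1) (kp θ p.1) (zp θ p.1) (p.1 * p.2) /
    dm2 (gp θ p.1) (kp θ p.1) (zp θ p.1) (p.1 * p.2) (p.1 ^ 2 * (1 - p.2 ^ 2))))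
def bA (θ : ℝ) (p : ℝ × ℝ) : ℝ := (4 * gp θ p.1)⁻¹ *
  (br2 (gp θ p.1) (kp θ p.1) (zp θ p.1) (p.1 * p.2) (p.1 ^ 2 * (1 - p.2 ^ 2)) /
    dp2 (gp θ p.1) (kp θ p.1) (zp θ p.1) (p.1 * p.2) (p.1 ^ 2 * (1 - p.2 ^ 2)))
def bB (θ : ℝ) (p : ℝ × ℝ) : ℝ := (4 * gp θ p.1)⁻¹ *
  (p.1 * (bi (gp θ p.1) (kp θ p.1) (zp θ p.1) (p.1 * p.2) /
    dp2 (gp θ p.1) (kp θ p.1) (zp θ p.1) (p.1 * p.2) (p.1 ^ 2 * (1 - p.2 ^ 2))))

/-- The coefficients of `e` and `h`, first field. -/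
def c1e (θ : ℝ) (p : ℝ × ℝ) : ℝ := -aA θ p - aB θ p * p.2
def c1h (θ : ℝ) (p : ℝ × ℝ) : ℝ := aB θ p
/-- The coefficients of `e` and `h`, second field. -/
def c2e (θ : ℝ) (p : ℝ × ℝ) : ℝ := -bA θ p - bB θ p * p.2
def c2h (θ : ℝ) (p : ℝ × ℝ) : ℝ := bB θ p

lemma sq_rt {s γ : ℝ} (hγ : γ ^ 2 ≤ 1) : (s * √(1 - γ ^ 2)) ^ 2 = s ^ 2 * (1 - γ ^ 2) := by
  rw [mul_pow, Real.sq_sqrt (by linarith)]

section

variable {ι : Type*} [Fintype ι] {e h : ι → ℝ} (he : dd e e = 1) (hh : dd h h = 1)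
include he hh

lemma lee_fl (v l A B : ℝ) :
    lee e h v l A B = fl e (v1 e h v l) ((-A - B * dd e h) • e + B • h) := by
  have hw := dd_v1 he hh v l
  unfold fl
  rw [hw]
  unfold lee
  congr 1
  simp only [v1, dd_add_left, dd_add_right, dd_smul_left, dd_smul_right, he, hh, dd_comm h e]
  funext i
  simp only [Pi.smul_apply, Pi.add_apply, Pi.sub_apply, smul_eq_mul]
  ring

lemma eh_sq : dd e h ^ 2 ≤ 1 := by
  have := dd_cs e h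
  rwa [he, hh, mul_one] at this

/-- **The first near field.** -/
theorem nf1_fl (θ s v l : ℝ) : nf1 θ s e h v l =
    fl e (v1 e h v l) (c1e θ (s, dd e h) • e + c1h θ (s, dd e h) • h) := by
  unfold nf1
  rw [lee_fl he hh]
  simp only [ar_eq, dm_eq, sq_rt (eh_sq he hh)]
  rfl

/-- **The second near field.** -/
theorem nf2_fl (θ s v l : ℝ) : nf2 θ s e h v l =
    fl e (v2 e h v l) (c2e θ (s, dd e h) • e + c2h θ (s, dd e h) • h) := by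
  unfold nf2
  rw [lee_fl he hh]
  have e2 : v1 e h v (-l) = v2 e h v l := by
    unfold v1 v2; rw [neg_smul, sub_eq_add_neg]
  simp only [br_eq, dp_eq, sq_rt (eh_sq he hh), e2]
  rfl

end

/-! ### Smoothness and bounds -/

/-- The set where the coefficients are smooth. -/
def OO (θ : ℝ) : Set (ℝ × ℝ) := {p | 0 < p.1 ∧
  0 < dm2 (gp θ p.1) (kp θ p.1) (zp θ p.1) (p.1 * p.2) (p.1 ^ 2 * (1 - p.2 ^ 2)) ∧
  0 < dp2 (gp θ p.1) (kp θ p.1) (zp θ p.1) (p.1 * p.2) (p.1 ^ 2 * (1 - p.2 ^ 2))}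

section

variable {θ : ℝ} (hθ : 0 < θ)
include hθ

lemma s_gp : ContDiffOn ℝ ∞ (fun p : ℝ × ℝ => gp θ p.1) {p | 0 < p.1} := by
  unfold gp
  exact ((Real.contDiff_cosh.comp (contDiff_const.mul contDiff_fst)).sub
    contDiff_const).div_const _ |>.contDiffOn

lemma s_kp : ContDiffOn ℝ ∞ (fun p : ℝ × ℝ => kp θ p.1) {p | 0 < p.1} := by
  unfold kp
  refine (Real.contDiff_sinh.comp (contDiff_const.mul contDiff_fst)).contDiffOn.div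
    (contDiff_const.mul contDiff_fst).contDiffOn fun p hp => ?_
  have hp' : 0 < p.1 := hp
  positivity

lemma s_zp : ContDiffOn ℝ ∞ (fun p : ℝ × ℝ => zp θ p.1) {p | 0 < p.1} := by
  unfold zp
  refine ((Real.contDiff_cosh.comp (contDiff_const.mul contDiff_fst)).contDiffOn.sub
    (s_kp hθ)).div (contDiff_fst.pow 2).contDiffOn fun p hp => ?_
  have hp' : 0 < p.1 := hp
  positivity

lemma c1' : ContDiffOn ℝ ∞ (fun p : ℝ × ℝ => p.1 * p.2) {p | 0 < p.1} :=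
  (contDiff_fst.mul contDiff_snd).contDiffOn

lemma c2' : ContDiffOn ℝ ∞ (fun p : ℝ × ℝ => p.1 ^ 2 * (1 - p.2 ^ 2)) {p | 0 < p.1} :=
  ((contDiff_fst.pow 2).mul (contDiff_const.sub (contDiff_snd.pow 2))).contDiffOn

lemma s_dm : ContDiffOn ℝ ∞ (fun p : ℝ × ℝ =>
    dm2 (gp θ p.1) (kp θ p.1) (zp θ p.1) (p.1 * p.2) (p.1 ^ 2 * (1 - p.2 ^ 2))) {p | 0 < p.1} := by
  have hg := s_gp hθ; have hk := s_kp hθ; have hz := s_zp hθ; have hb := c1' hθ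
  have hq := c2' hθ
  unfold dm2 Sg2
  exact (contDiffOn_const.mul ((hg.add (hk.add (hz.mul ((hb.pow 2).add hq)))).add hk)).sub
    ((contDiffOn_const.mul hk).mul hb)

lemma s_dp : ContDiffOn ℝ ∞ (fun p : ℝ × ℝ =>
    dp2 (gp θ p.1) (kp θ p.1) (zp θ p.1) (p.1 * p.2) (p.1 ^ 2 * (1 - p.2 ^ 2))) {p | 0 < p.1} := by
  have hg := s_gp hθ; have hk := s_kp hθ; have hz := s_zp hθ; have hb := c1' hθ
  have hq := c2' hθ
  unfold dp2 Sg2
  exact (contDiffOn_const.mul ((hg.add (hk.add (hz.mul ((hb.pow 2).add hq)))).add hk)).add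
    ((contDiffOn_const.mul hk).mul hb)

lemma s_De : ContDiffOn ℝ ∞ (fun p : ℝ × ℝ =>
    De2 (gp θ p.1) (kp θ p.1) (zp θ p.1) (p.1 * p.2) (p.1 ^ 2 * (1 - p.2 ^ 2))) {p | 0 < p.1} := by
  have hg := s_gp hθ; have hk := s_kp hθ; have hz := s_zp hθ; have hb := c1' hθ
  have hq := c2' hθ
  unfold De2
  exact ((contDiffOn_const.mul (hk.add (hz.mul (hb.pow 2)))).mul (hg.add (hk.add (hz.mul hq)))).sub
    ((contDiffOn_const.mul (hk.pow 2)).mul (hb.pow 2))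

lemma s_ar : ContDiffOn ℝ ∞ (fun p : ℝ × ℝ =>
    ar2 (gp θ p.1) (kp θ p.1) (zp θ p.1) (p.1 * p.2) (p.1 ^ 2 * (1 - p.2 ^ 2))) {p | 0 < p.1} := by
  have hg := s_gp hθ; have hk := s_kp hθ; have hz := s_zp hθ; have hb := c1' hθ
  have hq := c2' hθ; have hD := s_De hθ
  unfold ar2
  exact (hD.neg.add ((contDiffOn_const.mul (hk.add (hz.mul hq))).mul
    ((hk.add (hz.mul (hb.pow 2))).sub (hk.mul hb)))).add
    ((((contDiffOn_const.mul hk).mul hz).mul hb).mul hq)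

lemma s_br : ContDiffOn ℝ ∞ (fun p : ℝ × ℝ =>
    br2 (gp θ p.1) (kp θ p.1) (zp θ p.1) (p.1 * p.2) (p.1 ^ 2 * (1 - p.2 ^ 2))) {p | 0 < p.1} := by
  have hg := s_gp hθ; have hk := s_kp hθ; have hz := s_zp hθ; have hb := c1' hθ
  have hq := c2' hθ; have hD := s_De hθ
  unfold br2
  exact (hD.neg.add ((contDiffOn_const.mul (hk.add (hz.mul hq))).mul
    ((hk.add (hz.mul (hb.pow 2))).add (hk.mul hb)))).sub
    ((((contDiffOn_const.mul hk).mul hz).mul hb).mul hq)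

lemma s_ai : ContDiffOn ℝ ∞ (fun p : ℝ × ℝ =>
    ai (gp θ p.1) (kp θ p.1) (zp θ p.1) (p.1 * p.2)) {p | 0 < p.1} := by
  have hg := s_gp hθ; have hk := s_kp hθ; have hz := s_zp hθ; have hb := c1' hθ
  unfold ai
  exact ((contDiffOn_const.mul hk).mul ((hk.add (hz.mul (hb.pow 2))).sub (hk.mul hb))).add
    (((contDiffOn_const.mul hz).mul hb).mul (hg.sub (hk.mul hb)))

lemma s_bi : ContDiffOn ℝ ∞ (fun p : ℝ × ℝ =>
    bi (gp θ p.1) (kp θ p.1) (zp θ p.1) (p.1 * p.2)) {p | 0 < p.1} := by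
  have hg := s_gp hθ; have hk := s_kp hθ; have hz := s_zp hθ; have hb := c1' hθ
  unfold bi
  exact ((contDiffOn_const.mul hk).mul ((hk.add (hz.mul (hb.pow 2))).add (hk.mul hb))).add
    (((contDiffOn_const.mul hz).mul hb).mul (hg.add (hk.mul hb)))

omit hθ in
lemma OO_sub : OO θ ⊆ {p : ℝ × ℝ | 0 < p.1} := fun _ hp => hp.1

lemma OO_open : IsOpen (OO θ) := by
  have h0 : IsOpen {p : ℝ × ℝ | 0 < p.1} := isOpen_lt continuous_const continuous_fst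
  have h1 := (s_dm hθ).continuousOn.isOpen_inter_preimage h0 (isOpen_Ioi (a := (0:ℝ)))
  have h2 := (s_dp hθ).continuousOn.isOpen_inter_preimage h0 (isOpen_Ioi (a := (0:ℝ)))
  have : OO θ = ({p : ℝ × ℝ | 0 < p.1} ∩ (fun p : ℝ × ℝ =>
    dm2 (gp θ p.1) (kp θ p.1) (zp θ p.1) (p.1 * p.2) (p.1 ^ 2 * (1 - p.2 ^ 2))) ⁻¹' Ioi 0) ∩
    ({p : ℝ × ℝ | 0 < p.1} ∩ (fun p : ℝ × ℝ =>
    dp2 (gp θ p.1) (kp θ p.1) (zp θ p.1) (p.1 * p.2) (p.1 ^ 2 * (1 - p.2 ^ 2))) ⁻¹' Ioi 0) := by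
    ext p
    simp only [OO, mem_setOf_eq, mem_inter_iff, mem_preimage, mem_Ioi]
    tauto
  rw [this]
  exact h1.inter h2

lemma s_g4 : ContDiffOn ℝ ∞ (fun p : ℝ × ℝ => (4 * gp θ p.1)⁻¹) (OO θ) := by
  refine (contDiffOn_const.mul ((s_gp hθ).mono OO_sub)).inv fun p hp => ?_
  have hp' : 0 < p.1 := hp.1
  have : 1 < Real.cosh (θ * p.1) := Real.one_lt_cosh.2 (by positivity)
  have : 0 < gp θ p.1 := by unfold gp; apply div_pos (by linarith) (by positivity)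
  positivity

lemma s_aA : ContDiffOn ℝ ∞ (aA θ) (OO θ) :=
  (s_g4 hθ).mul (((s_ar hθ).mono OO_sub).div ((s_dm hθ).mono OO_sub) fun _ hp => hp.2.1.ne')

lemma s_aB : ContDiffOn ℝ ∞ (aB θ) (OO θ) :=
  (s_g4 hθ).mul (contDiff_fst.contDiffOn.mul
    (((s_ai hθ).mono OO_sub).div ((s_dm hθ).mono OO_sub) fun _ hp => hp.2.1.ne'))

lemma s_bA : ContDiffOn ℝ ∞ (bA θ) (OO θ) :=
  (s_g4 hθ).mul (((s_br hθ).mono OO_sub).div ((s_dp hθ).mono OO_sub) fun _ hp => hp.2.2.ne')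

lemma s_bB : ContDiffOn ℝ ∞ (bB θ) (OO θ) :=
  (s_g4 hθ).mul (contDiff_fst.contDiffOn.mul
    (((s_bi hθ).mono OO_sub).div ((s_dp hθ).mono OO_sub) fun _ hp => hp.2.2.ne'))

theorem s_c1e : ContDiffOn ℝ ∞ (c1e θ) (OO θ) :=
  (s_aA hθ).neg.sub ((s_aB hθ).mul contDiff_snd.contDiffOn)
theorem s_c1h : ContDiffOn ℝ ∞ (c1h θ) (OO θ) := s_aB hθ
theorem s_c2e : ContDiffOn ℝ ∞ (c2e θ) (OO θ) :=
  (s_bA hθ).neg.sub ((s_bB hθ).mul contDiff_snd.contDiffOn)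
theorem s_c2h : ContDiffOn ℝ ∞ (c2h θ) (OO θ) := s_bB hθ

theorem mem_OO (hθ2 : 1 / 2 ≤ θ ^ 2) {p : ℝ × ℝ} (h1 : 0 < p.1) (h2 : p.2 ^ 2 ≤ 1) : p ∈ OO θ := by
  have hγ : p.2 ∈ Icc (-1 : ℝ) 1 := abs_le.1 ((sq_le_one_iff_abs_le_one _).1 h2)
  have hr : Rad2 (gp θ p.1) (kp θ p.1) (zp θ p.1)
      ((p.1 * p.2) ^ 2 + (p.1 * √(1 - p.2 ^ 2)) ^ 2) := by
    rw [← sq_bc hγ]; exact rad2_cosh hθ hθ2 h1
  have h := hr.toRad.dpos
  rw [dm_eq, dp_eq, sq_rt h2] at h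
  exact ⟨h1, h.1, h.2⟩

end

/-! ### Bounds on compact sets and composition -/

/-- A smooth function and its derivative are bounded on a compact set. -/
theorem cpt_bd {O K : Set (ℝ × ℝ)} {F : ℝ × ℝ → ℝ} (hO : IsOpen O) (hF : ContDiffOn ℝ ∞ F O)
    (hK : IsCompact K) (hKO : K ⊆ O) : ∃ C > 0, ∀ p ∈ K, |F p| ≤ C ∧ ‖fderiv ℝ F p‖ ≤ C := by
  have h1 : ContinuousOn F K := hF.continuousOn.mono hKO
  have h2 : ContinuousOn (fderiv ℝ F) K :=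
    (hF.continuousOn_fderiv_of_isOpen hO (by simp)).mono hKO
  obtain ⟨C1, hC1⟩ := hK.exists_bound_of_continuousOn h1
  obtain ⟨C2, hC2⟩ := hK.exists_bound_of_continuousOn h2
  refine ⟨max 1 (max C1 C2), lt_max_of_lt_left one_pos, fun p hp => ⟨?_, ?_⟩⟩
  · exact (hC1 p hp).trans ((le_max_left _ _).trans (le_max_right _ _))
  · exact (hC2 p hp).trans ((le_max_right _ _).trans (le_max_right _ _))

/-- The derivative of a composition. -/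
theorem D_comp_le {E κ : Type*} [NormedAddCommGroup E] [NormedSpace ℝ E] (σ : Sl E κ) (j : κ)
    {F : ℝ × ℝ → ℝ} {f g : E → ℝ} {z : E} (hF : DifferentiableAt ℝ F (f z, g z))
    (hf : DifferentiableAt ℝ f z) (hg : DifferentiableAt ℝ g z) :
    |σ.D j (fun z => F (f z, g z)) z| ≤
      ‖fderiv ℝ F (f z, g z)‖ * (|σ.D j f z| + |σ.D j g z|) := by
  have h1 : HasFDerivAt (fun z => (f z, g z)) ((fderiv ℝ f z).prod (fderiv ℝ g z)) z :=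
    hf.hasFDerivAt.prodMk hg.hasFDerivAt
  have h2 : HasFDerivAt (fun z => F (f z, g z))
      ((fderiv ℝ F (f z, g z)).comp ((fderiv ℝ f z).prod (fderiv ℝ g z))) z :=
    HasFDerivAt.comp z hF.hasFDerivAt h1
  have e1 : σ.D j (fun z => F (f z, g z)) z = fderiv ℝ F (f z, g z) (σ.D j f z, σ.D j g z) := by
    unfold Sl.D
    rw [h2.fderiv]
    have : (σ.ρ z * fderiv ℝ f z (σ.e j), σ.ρ z * fderiv ℝ g z (σ.e j)) =
        σ.ρ z • (fderiv ℝ f z (σ.e j), fderiv ℝ g z (σ.e j)) := rfl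
    rw [this, map_smul]
    rfl
  rw [e1]
  refine ((fderiv ℝ F (f z, g z)).le_opNorm _).trans (mul_le_mul_of_nonneg_left ?_ (norm_nonneg _))
  rw [Prod.norm_def]
  exact max_le (by simp [Real.norm_eq_abs]) (by simp [Real.norm_eq_abs])

end Vale.Agent.P088.R2.H983.Fl
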