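import Vale.Agent.P088.R2.H983.Fl.Fl
import Vale.Agent.P088.R2.H961.W.Sl

/-!
# P088, stage 3: the Lee fields as functions on a slot, smoothness and derivatives
-/

open MeasureTheory Set Filter
open scoped ContDiff Topology

noncomputable section

namespace Vale.Agent.P088.R2.H983.Fl

open Vale.Agent.P088.R2.H230.W
open Vale.Agent.P088.R2.H961.GW (Sm Sl)

variable {E ι κ : Type*} [NormedAddCommGroup E] [NormedSpace ℝ E] [Fintype ι]

/-- The vector of derivatives of a vector of functions. -/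
def dv (σ : Sl E κ) (j : κ) (u : E → ι → ℝ) (z : E) : ι → ℝ := fun l => σ.D j (fun z => u z l) z

/-- Vectors of smooth functions. -/
def Smv (U : Set E) (u : E → ι → ℝ) : Prop := ∀ i, Sm U fun z => u z i

/-- Vectors of functions which are differentiable at `z`. -/
def Dfv (u : E → ι → ℝ) (z : E) : Prop := ∀ i, DifferentiableAt ℝ (fun z => u z i) z

omit [Fintype ι] in
theorem Smv.df {U : Set E} {u : E → ι → ℝ} (hU : IsOpen U) (hu : Smv U u) {z : E} (hz : z ∈ U) :
    Dfv u z := fun i => Vale.Agent.P088.R2.H961.GW.Sm.diff hU (hu i) hz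

omit [Fintype ι] in
theorem Smv.smul {U : Set E} {f : E → ℝ} {u : E → ι → ℝ} (hf : Sm U f) (hu : Smv U u) :
    Smv U fun z => f z • u z := fun i => hf.mul (hu i)

omit [Fintype ι] in
theorem Smv.add {U : Set E} {u v : E → ι → ℝ} (hu : Smv U u) (hv : Smv U v) :
    Smv U fun z => u z + v z := fun i => (hu i).add (hv i)

theorem Smv.dd {U : Set E} {u v : E → ι → ℝ} (hu : Smv U u) (hv : Smv U v) :
    Sm U fun z => dd (u z) (v z) :=
  Vale.Agent.P088.R2.H961.GW.Sm.sum _ fun i _ => (hu i).mul (hv i)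

/-- The field is smooth where `w ≠ 0`. -/
theorem Smv.fl {U : Set E} {e w g : E → ι → ℝ} (he : Smv U e) (hw : Smv U w) (hg : Smv U g)
    (h0 : ∀ z ∈ U, 0 < H230.W.dd (w z) (w z)) : Smv U fun z => fl (e z) (w z) (g z) := by
  intro i
  have h := (hw.dd hw).inv fun z hz => (h0 z hz).ne'
  exact h.mul ((((hw.dd he).mul (hg i)).sub ((hg.dd he).mul (hw i))).add ((hg.dd hw).mul (he i)))

section

variable {e w g u v : E → ι → ℝ} {z : E}

theorem Dfv.dd (hu : Dfv u z) (hv : Dfv v z) :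
    DifferentiableAt ℝ (fun z => H230.W.dd (u z) (v z)) z :=
  DifferentiableAt.fun_sum fun i _ => (hu i).mul (hv i)

theorem fderiv_dd (hu : Dfv u z) (hv : Dfv v z) (t : E) :
    fderiv ℝ (fun z => dd (u z) (v z)) z t =
      dd (u z) (fun i => fderiv ℝ (fun z => v z i) z t) +
        dd (fun i => fderiv ℝ (fun z => u z i) z t) (v z) := by
  have h : HasFDerivAt (fun z => dd (u z) (v z))
      (∑ i, (u z i • fderiv ℝ (fun z => v z i) z + v z i • fderiv ℝ (fun z => u z i) z)) z :=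
    HasFDerivAt.fun_sum fun i _ => (hu i).hasFDerivAt.mul (hv i).hasFDerivAt
  rw [h.fderiv]
  simp only [_root_.sum_apply, _root_.add_apply, _root_.smul_apply, smul_eq_mul, dd,
    ← Finset.sum_add_distrib]
  exact Finset.sum_congr rfl fun i _ => by ring

theorem Dfv.fl (he : Dfv e z) (hw : Dfv w z) (hg : Dfv g z) (h0 : 0 < H230.W.dd (w z) (w z)) :
    Dfv (fun z => fl (e z) (w z) (g z)) z := fun i =>
  (DifferentiableAt.fun_inv (hw.dd hw) h0.ne').mul
    ((((hw.dd he).mul (hg i)).sub ((hg.dd he).mul (hw i))).add ((hg.dd hw).mul (he i)))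

theorem fderiv_fl (he : Dfv e z) (hw : Dfv w z) (hg : Dfv g z) (h0 : 0 < dd (w z) (w z)) (t : E)
    (i : ι) : fderiv ℝ (fun z => fl (e z) (w z) (g z) i) z t =
      flD (e z) (w z) (g z) (fun i => fderiv ℝ (fun z => e z i) z t)
        (fun i => fderiv ℝ (fun z => w z i) z t) (fun i => fderiv ℝ (fun z => g z i) z t) i := by
  have hww := (hw.dd hw).hasFDerivAt
  have hinv : HasFDerivAt (fun z => (dd (w z) (w z))⁻¹)
      (-(dd (w z) (w z) ^ 2)⁻¹ • fderiv ℝ (fun z => dd (w z) (w z)) z) z :=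
    hasFDerivAt_inv' h0.ne' hww
  have h := hinv.mul ((((hw.dd he).hasFDerivAt.mul (hg i).hasFDerivAt).sub
    ((hg.dd he).hasFDerivAt.mul (hw i).hasFDerivAt)).add
    ((hg.dd hw).hasFDerivAt.mul (he i).hasFDerivAt))
  have h2 : fderiv ℝ (fun z => fl (e z) (w z) (g z) i) z = _ := h.fderiv
  rw [h2]
  simp only [_root_.add_apply, _root_.sub_apply, _root_.smul_apply, smul_eq_mul,
    fderiv_dd hw hw, fderiv_dd hw he, fderiv_dd hg he, fderiv_dd hg hw]
  have hww' : dd (w z) (w z) ≠ 0 := h0.ne'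
  simp only [flD, fnD, fn, Pi.smul_apply, Pi.add_apply, Pi.sub_apply, Pi.mul_apply, smul_eq_mul]
  rw [dd_comm (fun i => fderiv ℝ (fun z => w z i) z t) (w z)]
  field_simp
  ring
where
  hasFDerivAt_inv' {f : E → ℝ} {f' : E →L[ℝ] ℝ} {z : E} (h0 : f z ≠ 0) (h : HasFDerivAt f f' z) :
      HasFDerivAt (fun z => (f z)⁻¹) (-(f z ^ 2)⁻¹ • f') z :=
    (hasDerivAt_inv h0).comp_hasFDerivAt z h

theorem D_fl (σ : Sl E κ) (j : κ) (he : Dfv e z) (hw : Dfv w z) (hg : Dfv g z)
    (h0 : 0 < dd (w z) (w z)) :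
    dv σ j (fun z => fl (e z) (w z) (g z)) z =
      flD (e z) (w z) (g z) (dv σ j e z) (dv σ j w z) (dv σ j g z) := by
  have h := flD_smul (σ.ρ z) (e z) (w z) (g z) (fun i => fderiv ℝ (fun z => e z i) z (σ.e j))
    (fun i => fderiv ℝ (fun z => w z i) z (σ.e j)) (fun i => fderiv ℝ (fun z => g z i) z (σ.e j))
  have e1 : ∀ u : E → ι → ℝ, dv σ j u z = σ.ρ z • fun i => fderiv ℝ (fun z => u z i) z (σ.e j) :=
    fun u => rfl
  rw [e1 e, e1 w, e1 g, h, e1]
  congr 1
  funext i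
  exact fderiv_fl he hw hg h0 _ i

/-- **First derivatives of the Lee fields.** -/
theorem D_fl_nn (σ : Sl E κ) (j : κ) (he : Dfv e z) (hw : Dfv w z) (hg : Dfv g z)
    (h0 : 0 < dd (w z) (w z)) :
    nn (dv σ j (fun z => fl (e z) (w z) (g z)) z) ≤
      3 * (nn (dv σ j e z) * nn (g z) + nn (e z) * nn (dv σ j g z)) / nn (w z) +
        9 * (nn (e z) * nn (g z) * nn (dv σ j w z)) / nn (w z) ^ 2 := by
  rw [D_fl σ j he hw hg h0]
  exact flD_nn _ _ _ _ h0

omit [Fintype ι] in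
theorem dv_smul (σ : Sl E κ) (j : κ) {f : E → ℝ} (hf : DifferentiableAt ℝ f z) (hu : Dfv u z) :
    dv σ j (fun z => f z • u z) z = f z • dv σ j u z + σ.D j f z • u z := by
  funext i
  simp only [dv, Sl.D, Pi.smul_apply, Pi.add_apply, smul_eq_mul]
  rw [fderiv_fun_mul hf (hu i)]
  simp only [_root_.add_apply, _root_.smul_apply, smul_eq_mul]
  ring

omit [Fintype ι] in
theorem dv_add (σ : Sl E κ) (j : κ) (hu : Dfv u z) (hv : Dfv v z) :
    dv σ j (fun z => u z + v z) z = dv σ j u z + dv σ j v z := by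
  funext i
  simp only [dv, Sl.D, Pi.add_apply]
  rw [fderiv_fun_add (hu i) (hv i)]
  simp only [_root_.add_apply]
  ring

theorem D_dd (σ : Sl E κ) (j : κ) (hu : Dfv u z) (hv : Dfv v z) :
    σ.D j (fun z => dd (u z) (v z)) z = dd (u z) (dv σ j v z) + dd (dv σ j u z) (v z) := by
  have e1 : ∀ u : E → ι → ℝ, dv σ j u z = σ.ρ z • fun i => fderiv ℝ (fun z => u z i) z (σ.e j) :=
    fun u => rfl
  rw [e1 u, e1 v, dd_smul_left, dd_smul_right, ← mul_add, ← fderiv_dd hu hv]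
  rfl

end

end Vale.Agent.P088.R2.H983.Fl
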