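import Vale.Agent.P088.R2.H983.Fl.Err

/-!
# P088, stage 3: fields `fl e w (k (α(s, γ) e + β(s, γ) h))`, general (curved) form

`e`, `h` need not be unit vectors (`|e|, |h| ≤ 2`) and `γ` (in the flat case `e·h`) is any function;
`|De|, |Dh|, |Ds|, |Dγ| ≤ b`, `|Dk| ≤ k b`.  Then `|c| ≤ 24 C k/|w|`,
`|Dc| ≤ 126 C k b/|w| + 72 C k |Dw|/|w|²`, with `w = D W` : `|div (F c)| ≤ ...`, and the errors of the
multiplier identity are small when `k`, `|w|`, `|Dw|` are small against `|w|²`.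
-/

open Set
open scoped ContDiff Topology

noncomputable section

namespace Vale.Agent.P088.R2.H983.Fl

open Vale.Agent.P088.R2.H230.W
open Vale.Agent.P088.R2.H960.W (dF eC cY cY_bd cY_sq eC_bd abs_sum2_le L1_sq eta YY)
open Vale.Agent.P088.R2.H961.GW (Sm Sl)

variable {E ι κ' : Type*} [NormedAddCommGroup E] [NormedSpace ℝ E] [Fintype ι]

omit [Fintype ι] in
/-- The covector `α e + β h`. -/
def gG (α β : ℝ × ℝ → ℝ) (s γ : E → ℝ) (e h : E → ι → ℝ) (z : E) : ι → ℝ :=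
  α (s z, γ z) • e z + β (s z, γ z) • h z

/-- The field. -/
def cG (α β : ℝ × ℝ → ℝ) (k s γ : E → ℝ) (e h w : E → ι → ℝ) (z : E) : ι → ℝ :=
  fl (e z) (w z) (k z • gG α β s γ e h z)

/-- The data of the field at a point. -/
structure AtG (σ : Sl E κ') (K : Set (ℝ × ℝ)) (k s γ : E → ℝ) (e h : E → ι → ℝ) (b : ℝ) (z : E) :
    Prop where
  dk : DifferentiableAt ℝ k z
  ds : DifferentiableAt ℝ s z
  dg : DifferentiableAt ℝ γ z
  de : Dfv e z
  dh : Dfv h z
  ee : nn (e z) ≤ 2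
  hh : nn (h z) ≤ 2
  mem : (s z, γ z) ∈ K
  k0 : 0 ≤ k z
  bk : ∀ j, |σ.D j k z| ≤ k z * b
  bs : ∀ j, |σ.D j s z| ≤ b
  bg : ∀ j, |σ.D j γ z| ≤ b
  be : ∀ j, nn (dv σ j e z) ≤ b
  bh : ∀ j, nn (dv σ j h z) ≤ b

section

variable {α β : ℝ × ℝ → ℝ} {K O : Set (ℝ × ℝ)} {C b : ℝ} {k s γ : E → ℝ} {e h w : E → ι → ℝ}
  {z : E} {U : Set E} {σ : Sl E κ'}

/-- Smoothness. -/
theorem cG_sm (hα : ContDiffOn ℝ ∞ α O) (hβ : ContDiffOn ℝ ∞ β O) (hk : Sm U k) (hs : Sm U s)
    (hγ : Sm U γ) (he : Smv U e) (hh : Smv U h) (hw : Smv U w) (hO : ∀ z ∈ U, (s z, γ z) ∈ O)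
    (h0 : ∀ z ∈ U, 0 < dd (w z) (w z)) : Smv U (cG α β k s γ e h w) := by
  have hp : ContDiffOn ℝ ∞ (fun z => (s z, γ z)) U := hs.prodMk hγ
  have h1 : Sm U fun z => α (s z, γ z) := hα.comp hp hO
  have h2 : Sm U fun z => β (s z, γ z) := hβ.comp hp hO
  exact Smv.fl he hw (Smv.smul hk ((Smv.smul h1 he).add (Smv.smul h2 hh))) h0

theorem gG_bd (c : Cf α β K C) (a : AtG σ K k s γ e h b z) : nn (gG α β s γ e h z) ≤ 4 * C := by
  unfold gG
  refine (nn_add_le _ _).trans ?_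
  rw [nn_smul, nn_smul]
  have h1 := mul_le_mul (c.ba _ a.mem) a.ee (nn_nonneg _) c.C0.le
  have h2 := mul_le_mul (c.bb _ a.mem) a.hh (nn_nonneg _) c.C0.le
  linarith

theorem gG_df (c : Cf α β K C) (a : AtG σ K k s γ e h b z) : Dfv (gG α β s γ e h) z := by
  have h1 : DifferentiableAt ℝ (fun z => (s z, γ z)) z := a.ds.prodMk a.dg
  have h2 : DifferentiableAt ℝ (fun z => α (s z, γ z)) z :=
    DifferentiableAt.comp z (c.da _ a.mem) h1
  have h3 : DifferentiableAt ℝ (fun z => β (s z, γ z)) z :=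
    DifferentiableAt.comp z (c.db _ a.mem) h1
  exact fun i => (h2.mul (a.de i)).add (h3.mul (a.dh i))

theorem gG_D (c : Cf α β K C) (a : AtG σ K k s γ e h b z) (j : κ') :
    nn (dv σ j (gG α β s γ e h) z) ≤ 10 * C * b := by
  have h1 : DifferentiableAt ℝ (fun z => (s z, γ z)) z := a.ds.prodMk a.dg
  have h2 : DifferentiableAt ℝ (fun z => α (s z, γ z)) z :=
    DifferentiableAt.comp z (c.da _ a.mem) h1
  have h3 : DifferentiableAt ℝ (fun z => β (s z, γ z)) z :=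
    DifferentiableAt.comp z (c.db _ a.mem) h1
  have hb : 0 ≤ b := (abs_nonneg _).trans (a.bs j)
  have hC := c.C0
  have d : ∀ {F : ℝ × ℝ → ℝ}, DifferentiableAt ℝ F (s z, γ z) →
      ‖fderiv ℝ F (s z, γ z)‖ ≤ C → |σ.D j (fun z => F (s z, γ z)) z| ≤ 2 * C * b := by
    intro F hF hF'
    refine (D_comp_le σ j hF a.ds a.dg).trans ?_
    have := mul_le_mul hF' (add_le_add (a.bs j) (a.bg j)) (by positivity) hC.le
    linarith
  have d1 := d (c.da _ a.mem) (c.fa _ a.mem)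
  have d2 := d (c.db _ a.mem) (c.fb _ a.mem)
  have e1 : Dfv (fun z => α (s z, γ z) • e z) z := fun i => h2.mul (a.de i)
  have e2 : Dfv (fun z => β (s z, γ z) • h z) z := fun i => h3.mul (a.dh i)
  have e3 : dv σ j (gG α β s γ e h) z = dv σ j (fun z => α (s z, γ z) • e z) z +
      dv σ j (fun z => β (s z, γ z) • h z) z := dv_add σ j e1 e2
  rw [e3, dv_smul σ j h2 a.de, dv_smul σ j h3 a.dh]
  refine (nn_add_le _ _).trans ?_
  have t1 := nn_add_le (α (s z, γ z) • dv σ j e z) (σ.D j (fun z => α (s z, γ z)) z • e z)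
  have t2 := nn_add_le (β (s z, γ z) • dv σ j h z) (σ.D j (fun z => β (s z, γ z)) z • h z)
  rw [nn_smul, nn_smul] at t1 t2
  have m1 := mul_le_mul (c.ba _ a.mem) (a.be j) (nn_nonneg _) hC.le
  have m2 := mul_le_mul (c.bb _ a.mem) (a.bh j) (nn_nonneg _) hC.le
  have m3 := mul_le_mul d1 a.ee (nn_nonneg _) (by positivity)
  have m4 := mul_le_mul d2 a.hh (nn_nonneg _) (by positivity)
  linarith

/-- **Size of the field.** -/
theorem cG_nn (c : Cf α β K C) (a : AtG σ K k s γ e h b z) (hw : 0 < dd (w z) (w z)) :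
    nn (cG α β k s γ e h w z) ≤ 24 * C * k z / nn (w z) := by
  refine (fl_nn _ hw).trans (div_le_div_of_nonneg_right ?_ (nn_nonneg _))
  rw [nn_smul, abs_of_nonneg a.k0]
  have h1 := mul_le_mul_of_nonneg_left (gG_bd c a) a.k0
  have h2 := mul_le_mul a.ee h1 (mul_nonneg a.k0 (nn_nonneg _)) (by norm_num)
  linarith

/-- **First derivatives of the field.** -/
theorem cG_D (c : Cf α β K C) (a : AtG σ K k s γ e h b z) (dw : Dfv w z)
    (hw : 0 < dd (w z) (w z)) (j : κ') : nn (dv σ j (cG α β k s γ e h w) z) ≤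
      96 * C * (k z * b) / nn (w z) + 72 * C * (k z * nn (dv σ j w z)) / nn (w z) ^ 2 := by
  have hg := gG_df c a
  have hkg : Dfv (fun z => k z • gG α β s γ e h z) z := fun i => a.dk.mul (hg i)
  have h1 := D_fl_nn σ j a.de dw hkg hw
  have hb : 0 ≤ b := (abs_nonneg _).trans (a.bs j)
  have hC := c.C0
  have hk := a.k0
  have g0 := gG_bd c a
  have g1 := gG_D c a j
  have n0 : nn (k z • gG α β s γ e h z) ≤ 4 * C * k z := by
    rw [nn_smul, abs_of_nonneg hk]
    have := mul_le_mul_of_nonneg_left g0 hk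
    linarith
  have n1 : nn (dv σ j (fun z => k z • gG α β s γ e h z) z) ≤ 14 * C * (k z * b) := by
    rw [dv_smul σ j a.dk hg]
    refine (nn_add_le _ _).trans ?_
    rw [nn_smul, nn_smul, abs_of_nonneg hk]
    have q1 := mul_le_mul_of_nonneg_left g1 hk
    have q2 := mul_le_mul (a.bk j) g0 (nn_nonneg _) (by positivity)
    linarith
  refine h1.trans (add_le_add (div_le_div_of_nonneg_right ?_ (nn_nonneg _))
    (div_le_div_of_nonneg_right ?_ (by positivity)))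
  · have q1 := mul_le_mul (a.be j) n0 (nn_nonneg _) hb
    have q2 := mul_le_mul a.ee n1 (nn_nonneg _) (by norm_num)
    linarith
  · have q1 := mul_le_mul_of_nonneg_right n0 (nn_nonneg (dv σ j w z))
    have q2 := mul_le_mul a.ee q1 (by have := nn_nonneg (k z • gG α β s γ e h z); have := nn_nonneg (dv σ j w z); positivity) (by norm_num)
    linarith

end

end Vale.Agent.P088.R2.H983.Fl
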