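import Vale.Agent.P088.R2.H230.W.Far3

/-!
# P088, stage 3: size and first derivatives of the Lee fields `fl e w g`

`fl e w g = ((w·e) g - (g·e) w + (g·w) e) / |w|²` is homogeneous of degree `-1` in `w`.
-/

noncomputable section

namespace Vale.Agent.P088.R2.H983.Fl

open Vale.Agent.P088.R2.H230.W

variable {ι : Type*} [Fintype ι]

/-- The length. -/
def nn (u : ι → ℝ) : ℝ := √(dd u u)

lemma nn_nonneg (u : ι → ℝ) : 0 ≤ nn u := Real.sqrt_nonneg _

lemma nn_sq (u : ι → ℝ) : nn u ^ 2 = dd u u := Real.sq_sqrt (dd_self_nonneg u)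

lemma nn_pos {u : ι → ℝ} (h : 0 < dd u u) : 0 < nn u := Real.sqrt_pos.2 h

lemma abs_dd_le (u v : ι → ℝ) : |dd u v| ≤ nn u * nn v := by
  have h := dd_cs u v
  rw [← nn_sq u, ← nn_sq v, ← mul_pow] at h
  exact abs_le_of_sq_le_sq h (mul_nonneg (nn_nonneg u) (nn_nonneg v))

lemma abs_le_nn (u : ι → ℝ) (i : ι) : |u i| ≤ nn u := by
  unfold nn
  rw [← Real.sqrt_sq_eq_abs]
  refine Real.sqrt_le_sqrt ?_
  unfold dd
  have := Finset.single_le_sum (f := fun j => u j * u j) (fun j _ => mul_self_nonneg (u j))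
    (Finset.mem_univ i)
  simpa [sq] using this

lemma nn_smul (a : ℝ) (u : ι → ℝ) : nn (a • u) = |a| * nn u := by
  unfold nn
  rw [dd_smul_left, dd_smul_right, ← mul_assoc, Real.sqrt_mul (mul_self_nonneg a),
    Real.sqrt_mul_self_eq_abs]

lemma nn_add_le (u v : ι → ℝ) : nn (u + v) ≤ nn u + nn v := by
  have h1 : nn (u + v) ^ 2 ≤ (nn u + nn v) ^ 2 := by
    rw [nn_sq, dd_add_left, dd_add_right, dd_add_right, dd_comm v u, add_sq, nn_sq, nn_sq]
    have := (abs_le.1 (abs_dd_le u v)).2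
    linarith
  exact le_of_sq_le_sq' h1 (add_nonneg (nn_nonneg u) (nn_nonneg v))
where
  le_of_sq_le_sq' {a b : ℝ} (h : a ^ 2 ≤ b ^ 2) (hb : 0 ≤ b) : a ≤ b :=
    (abs_le_of_sq_le_sq' h hb).2

lemma nn_neg (u : ι → ℝ) : nn (-u) = nn u := by
  have := nn_smul (-1) u
  simpa using this

lemma nn_sub_le (u v : ι → ℝ) : nn (u - v) ≤ nn u + nn v := by
  rw [sub_eq_add_neg]
  exact (nn_add_le u (-v)).trans (by rw [nn_neg])

/-- Bound by the entries. -/
lemma nn_le_of {u : ι → ℝ} {B : ℝ} (hB : 0 ≤ B) (h : ∀ i, |u i| ≤ B) :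
    nn u ≤ √(Fintype.card ι) * B := by
  unfold nn
  refine Real.sqrt_le_iff.2 ⟨by positivity, ?_⟩
  rw [mul_pow, Real.sq_sqrt (by positivity)]
  unfold dd
  calc ∑ i, u i * u i ≤ ∑ _i : ι, B ^ 2 := Finset.sum_le_sum fun i _ => by
        have := pow_le_pow_left₀ (abs_nonneg _) (h i) 2
        rw [sq_abs] at this; nlinarith
    _ = Fintype.card ι * B ^ 2 := by simp [Finset.card_univ]

/-- The numerator. -/
def fn (e w g : ι → ℝ) : ι → ℝ := dd w e • g - dd g e • w + dd g w • e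

lemma fl_def (e w g : ι → ℝ) : fl e w g = (dd w w)⁻¹ • fn e w g := rfl

lemma fn_nn (e w g : ι → ℝ) : nn (fn e w g) ≤ 3 * (nn e * nn w * nn g) := by
  unfold fn
  have h1 := abs_dd_le w e
  have h2 := abs_dd_le g e
  have h3 := abs_dd_le g w
  have a1 := nn_smul (dd w e) g
  have a2 := nn_smul (dd g e) w
  have a3 := nn_smul (dd g w) e
  have b1 : |dd w e| * nn g ≤ nn e * nn w * nn g := by
    have := mul_le_mul_of_nonneg_right h1 (nn_nonneg g)
    linarith [mul_comm (nn w) (nn e), this, show nn w * nn e * nn g = nn e * nn w * nn g by ring]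
  have b2 : |dd g e| * nn w ≤ nn e * nn w * nn g := by
    have := mul_le_mul_of_nonneg_right h2 (nn_nonneg w)
    linarith [this, show nn g * nn e * nn w = nn e * nn w * nn g by ring]
  have b3 : |dd g w| * nn e ≤ nn e * nn w * nn g := by
    have := mul_le_mul_of_nonneg_right h3 (nn_nonneg e)
    linarith [this, show nn g * nn w * nn e = nn e * nn w * nn g by ring]
  have := nn_add_le (dd w e • g - dd g e • w) (dd g w • e)
  have := nn_sub_le (dd w e • g) (dd g e • w)
  linarith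

/-- Size of the field. -/
lemma fl_nn {e w : ι → ℝ} (g : ι → ℝ) (hw : 0 < dd w w) :
    nn (fl e w g) ≤ 3 * (nn e * nn g) / nn w := by
  have hw' := nn_pos hw
  rw [fl_def, nn_smul, abs_of_pos (inv_pos.2 hw), ← nn_sq w, le_div_iff₀ hw',
    inv_mul_eq_div, div_mul_eq_mul_div, div_le_iff₀ (by positivity)]
  have := mul_le_mul_of_nonneg_right (fn_nn e w g) hw'.le
  nlinarith

/-- The derivative of the numerator. -/
def fnD (e w g e' w' g' : ι → ℝ) : ι → ℝ := fn e' w g + fn e w' g + fn e w g'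

lemma fn_smul3 (a b c : ℝ) (e w g : ι → ℝ) : fn (a • e) (b • w) (c • g) = (a * b * c) • fn e w g := by
  simp only [fn, dd_smul_left, dd_smul_right]
  funext i
  simp only [Pi.smul_apply, Pi.add_apply, Pi.sub_apply, smul_eq_mul]
  ring

/-- The derivative of the field. -/
def flD (e w g e' w' g' : ι → ℝ) : ι → ℝ :=
  (dd w w)⁻¹ • fnD e w g e' w' g' - (2 * dd w w' * (dd w w)⁻¹ ^ 2) • fn e w g

lemma flD_smul (a : ℝ) (e w g e' w' g' : ι → ℝ) :
    flD e w g (a • e') (a • w') (a • g') = a • flD e w g e' w' g' := by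
  have h1 := fn_smul3 a 1 1 e' w g
  have h2 := fn_smul3 1 a 1 e w' g
  have h3 := fn_smul3 1 1 a e w g'
  simp only [one_smul, mul_one, one_mul] at h1 h2 h3
  simp only [flD, fnD, h1, h2, h3, dd_smul_right]
  funext i
  simp only [Pi.smul_apply, Pi.add_apply, Pi.sub_apply, smul_eq_mul]
  ring

/-- Size of the derivative. -/
lemma flD_nn {e w : ι → ℝ} (g e' w' g' : ι → ℝ) (hw : 0 < dd w w) :
    nn (flD e w g e' w' g') ≤
      3 * (nn e' * nn g + nn e * nn g') / nn w + 9 * (nn e * nn g * nn w') / nn w ^ 2 := by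
  have hw' := nn_pos hw
  have h0 := nn_sub_le ((dd w w)⁻¹ • fnD e w g e' w' g')
    ((2 * dd w w' * (dd w w)⁻¹ ^ 2) • fn e w g)
  have h1 : nn (fnD e w g e' w' g') ≤
      3 * (nn e' * nn w * nn g) + 3 * (nn e * nn w' * nn g) + 3 * (nn e * nn w * nn g') := by
    unfold fnD
    have := nn_add_le (fn e' w g + fn e w' g) (fn e w g')
    have := nn_add_le (fn e' w g) (fn e w' g)
    have := fn_nn e' w g
    have := fn_nn e w' g
    have := fn_nn e w g'
    linarith
  have h2 : nn ((dd w w)⁻¹ • fnD e w g e' w' g') ≤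
      (3 * (nn e' * nn w * nn g) + 3 * (nn e * nn w' * nn g) + 3 * (nn e * nn w * nn g')) /
        nn w ^ 2 := by
    rw [nn_smul, abs_of_pos (inv_pos.2 hw), ← nn_sq w, inv_mul_eq_div]
    exact div_le_div_of_nonneg_right h1 (by positivity)
  have h3 : nn ((2 * dd w w' * (dd w w)⁻¹ ^ 2) • fn e w g) ≤
      2 * (nn w * nn w') * (3 * (nn e * nn w * nn g)) / nn w ^ 4 := by
    rw [nn_smul, abs_mul, abs_mul, abs_of_pos (by norm_num : (0:ℝ) < 2),
      abs_of_pos (pow_pos (inv_pos.2 hw) 2), ← nn_sq w]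
    have e1 : ((nn w ^ 2)⁻¹) ^ 2 = 1 / nn w ^ 4 := by field_simp
    rw [e1]
    have h4 := abs_dd_le w w'
    have h5 := fn_nn e w g
    calc 2 * |dd w w'| * (1 / nn w ^ 4) * nn (fn e w g)
        = 2 * |dd w w'| * nn (fn e w g) / nn w ^ 4 := by ring
      _ ≤ _ := by
        refine div_le_div_of_nonneg_right ?_ (by positivity)
        refine mul_le_mul (by linarith) h5 (nn_nonneg _) ?_
        exact mul_nonneg (by norm_num) (mul_nonneg (nn_nonneg _) (nn_nonneg _))
  refine h0.trans ((add_le_add h2 h3).trans (le_of_eq ?_))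
  field_simp
  ring

end Vale.Agent.P088.R2.H983.Fl
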