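import Vale.Agent.P088.R2.H983.Fl.Der

/-!
# P088, stage 3: first order symbols at a point

`P1 σ r z A f m x`: `|f z| ≤ A^m x` and `|D_j f z| r ≤ A^m x`.  The constant `A ≥ 2` is fixed, the
exponents are counted.
-/

open Set Filter
open scoped ContDiff Topology

noncomputable section

namespace Vale.Agent.P088.R2.H983.Fl

open Vale.Agent.P088.R2.H961.GW (Sl)

variable {E κ : Type*} [NormedAddCommGroup E] [NormedSpace ℝ E]

/-- First order symbols at a point. -/
structure P1 (σ : Sl E κ) (r : ℝ) (z : E) (A : ℝ) (f : E → ℝ) (m : ℕ) (x : ℝ) : Prop where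
  d : DifferentiableAt ℝ f z
  v : |f z| ≤ A ^ m * x
  D : ∀ j, |σ.D j f z| * r ≤ A ^ m * x

section

variable {σ : Sl E κ} {r : ℝ} {z : E} {A : ℝ} {f g : E → ℝ} {m n : ℕ} {x y : ℝ}

theorem P1.congr (h : P1 σ r z A f m x) (e : g =ᶠ[𝓝 z] f) : P1 σ r z A g m x where
  d := h.d.congr_of_eventuallyEq e
  v := by rw [e.eq_of_nhds]; exact h.v
  D j := by
    have : σ.D j g z = σ.D j f z := by simp only [Sl.D, e.fderiv_eq]
    rw [this]; exact h.D j

theorem P1.x0 (h : P1 σ r z A f m x) (hA : 2 ≤ A) : 0 ≤ x := by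
  have h1 : 0 ≤ A ^ m * x := (abs_nonneg _).trans h.v
  have h2 : 0 < A ^ m := pow_pos (by linarith) m
  exact nonneg_of_mul_nonneg_right h1 h2

theorem P1.up (h : P1 σ r z A f m x) (hA : 2 ≤ A) (hm : m ≤ n) : P1 σ r z A f n x := by
  have hx := h.x0 hA
  have h1 : A ^ m * x ≤ A ^ n * x :=
    mul_le_mul_of_nonneg_right (pow_le_pow_right₀ (by linarith) hm) hx
  exact ⟨h.d, h.v.trans h1, fun j => (h.D j).trans h1⟩

theorem P1.size (h : P1 σ r z A f m x) (hA : 2 ≤ A) (hx : x ≤ y) : P1 σ r z A f m y := by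
  have h1 : A ^ m * x ≤ A ^ m * y :=
    mul_le_mul_of_nonneg_left hx (pow_nonneg (by linarith) m)
  exact ⟨h.d, h.v.trans h1, fun j => (h.D j).trans h1⟩

/-- Size with a constant. -/
theorem P1.sizeA (h : P1 σ r z A f m x) (hA : 2 ≤ A) (hx : x ≤ A ^ n * y) :
    P1 σ r z A f (m + n) y := by
  have h1 : A ^ m * x ≤ A ^ (m + n) * y := by
    rw [pow_add, mul_assoc]
    exact mul_le_mul_of_nonneg_left hx (pow_nonneg (by linarith) m)
  exact ⟨h.d, h.v.trans h1, fun j => (h.D j).trans h1⟩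

theorem P1.mul (h : P1 σ r z A f m x) (h' : P1 σ r z A g n y) (hA : 2 ≤ A) (hr : 0 ≤ r) :
    P1 σ r z A (fun z => f z * g z) (m + n + 1) (x * y) := by
  have hx := h.x0 hA
  have hy := h'.x0 hA
  have a1 : 0 ≤ A ^ m * x := (abs_nonneg _).trans h.v
  have a2 : 0 ≤ A ^ n * y := (abs_nonneg _).trans h'.v
  have e : A ^ (m + n + 1) * (x * y) = A * ((A ^ m * x) * (A ^ n * y)) := by
    rw [pow_succ, pow_add]; ring
  have h2 : 2 * ((A ^ m * x) * (A ^ n * y)) ≤ A ^ (m + n + 1) * (x * y) := by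
    rw [e]
    exact mul_le_mul_of_nonneg_right hA (mul_nonneg a1 a2)
  have h3 : 0 ≤ (A ^ m * x) * (A ^ n * y) := mul_nonneg a1 a2
  refine ⟨h.d.mul h'.d, ?_, fun j => ?_⟩
  · rw [abs_mul]
    have := mul_le_mul h.v h'.v (abs_nonneg _) a1
    linarith
  · have e1 : σ.D j (fun z => f z * g z) z = f z * σ.D j g z + g z * σ.D j f z := by
      simp only [Sl.D]
      rw [fderiv_fun_mul h.d h'.d]
      simp only [_root_.add_apply, _root_.smul_apply, smul_eq_mul]; ring
    rw [e1]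
    have t1 := mul_le_mul h.v (h'.D j) (mul_nonneg (abs_nonneg _) hr) a1
    have t2 := mul_le_mul h'.v (h.D j) (mul_nonneg (abs_nonneg _) hr) a2
    calc |f z * σ.D j g z + g z * σ.D j f z| * r
        ≤ (|f z| * |σ.D j g z| + |g z| * |σ.D j f z|) * r := by
          refine mul_le_mul_of_nonneg_right ?_ hr
          rw [← abs_mul, ← abs_mul]; exact abs_add_le _ _
      _ = |f z| * (|σ.D j g z| * r) + |g z| * (|σ.D j f z| * r) := by ring
      _ ≤ _ := by linarith

theorem P1.add (h : P1 σ r z A f m x) (h' : P1 σ r z A g n x) (hA : 2 ≤ A) (hr : 0 ≤ r) :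
    P1 σ r z A (fun z => f z + g z) (max m n + 1) x := by
  have u1 := h.up hA (le_max_left m n)
  have u2 := h'.up hA (le_max_right m n)
  have a1 : 0 ≤ A ^ (max m n) * x := (abs_nonneg _).trans u1.v
  have h2 : 2 * (A ^ (max m n) * x) ≤ A ^ (max m n + 1) * x := by
    rw [pow_succ]
    have := mul_le_mul_of_nonneg_right hA a1
    linarith
  refine ⟨h.d.add h'.d, ?_, fun j => ?_⟩
  · have := abs_add_le (f z) (g z)
    linarith [u1.v, u2.v]
  · have e1 : σ.D j (fun z => f z + g z) z = σ.D j f z + σ.D j g z := by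
      simp only [Sl.D]
      rw [fderiv_fun_add h.d h'.d]
      simp only [_root_.add_apply]; ring
    rw [e1]
    have := mul_le_mul_of_nonneg_right (abs_add_le (σ.D j f z) (σ.D j g z)) hr
    linarith [u1.D j, u2.D j]

theorem P1.neg (h : P1 σ r z A f m x) : P1 σ r z A (fun z => -f z) m x := by
  refine ⟨h.d.neg, by rw [abs_neg]; exact h.v, fun j => ?_⟩
  have e1 : σ.D j (fun z => -f z) z = -σ.D j f z := by
    simp only [Sl.D]
    rw [fderiv_fun_neg]
    simp only [_root_.neg_apply]; ring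
  rw [e1, abs_neg]; exact h.D j

theorem P1.sub (h : P1 σ r z A f m x) (h' : P1 σ r z A g n x) (hA : 2 ≤ A) (hr : 0 ≤ r) :
    P1 σ r z A (fun z => f z - g z) (max m n + 1) x := by
  have := h.add h'.neg hA hr
  simpa only [sub_eq_add_neg] using this

theorem P1.const {c : ℝ} (hc : |c| ≤ A ^ m) : P1 σ r z A (fun _ => c) m 1 := by
  refine ⟨differentiableAt_const _, by rwa [mul_one], fun j => ?_⟩
  have e1 : σ.D j (fun _ : E => c) z = 0 := by simp [Sl.D]
  rw [e1, abs_zero, zero_mul, mul_one]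
  exact (abs_nonneg c).trans hc

/-- Constant factors. -/
theorem P1.cmul (h : P1 σ r z A f m x) {c : ℝ} (hA : 2 ≤ A) (hc : |c| ≤ A ^ n) :
    P1 σ r z A (fun z => c * f z) (m + n) x := by
  have a1 : 0 ≤ A ^ m * x := (abs_nonneg _).trans h.v
  have e : A ^ (m + n) * x = A ^ n * (A ^ m * x) := by rw [pow_add]; ring
  refine ⟨h.d.const_mul c, ?_, fun j => ?_⟩
  · rw [abs_mul, e]; exact mul_le_mul hc h.v (abs_nonneg _) (pow_nonneg (by linarith) n)
  · have e1 : σ.D j (fun z => c * f z) z = c * σ.D j f z := by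
      simp only [Sl.D]
      rw [fderiv_const_mul h.d]
      simp only [_root_.smul_apply, smul_eq_mul]; ring
    rw [e1, abs_mul, mul_assoc, e]
    have h3 : 0 ≤ |σ.D j f z| * r ∨ |σ.D j f z| * r < 0 := le_or_gt _ _
    rcases h3 with h3 | h3
    · exact mul_le_mul hc (h.D j) h3 (pow_nonneg (by linarith) n)
    · have : |c| * (|σ.D j f z| * r) ≤ 0 :=
        mul_nonpos_of_nonneg_of_nonpos (abs_nonneg _) h3.le
      exact this.trans (mul_nonneg (pow_nonneg (by linarith) n) a1)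

theorem P1.sq (h : P1 σ r z A f m x) (hA : 2 ≤ A) (hr : 0 ≤ r) :
    P1 σ r z A (fun z => f z ^ 2) (m + m + 1) (x ^ 2) := by
  have := h.mul h hA hr
  simpa only [pow_two] using this

theorem P1.sum {ι : Type*} [Fintype ι] {F : ι → E → ℝ} (h : ∀ i, P1 σ r z A (F i) m x)
    (hA : 2 ≤ A) (hx : 0 ≤ x) (hn : (Fintype.card ι : ℝ) ≤ A) (hr : 0 ≤ r) :
    P1 σ r z A (fun z => ∑ i, F i z) (m + 1) x := by
  have a1 : 0 ≤ A ^ m * x := mul_nonneg (pow_nonneg (by linarith) m) hx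
  have h2 : (Fintype.card ι : ℝ) * (A ^ m * x) ≤ A ^ (m + 1) * x := by
    rw [pow_succ]
    have := mul_le_mul_of_nonneg_right hn a1
    linarith
  refine ⟨DifferentiableAt.fun_sum fun i _ => (h i).d, ?_, fun j => ?_⟩
  · refine (Finset.abs_sum_le_sum_abs _ _).trans ((Finset.sum_le_sum fun i _ => (h i).v).trans ?_)
    rw [Finset.sum_const, Finset.card_univ, nsmul_eq_mul]; exact h2
  · have e1 : σ.D j (fun z => ∑ i, F i z) z = ∑ i, σ.D j (F i) z := by
      simp only [Sl.D]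
      rw [fderiv_fun_sum fun i _ => (h i).d]
      simp only [_root_.sum_apply, Finset.mul_sum]
    rw [e1]
    calc |∑ i, σ.D j (F i) z| * r ≤ (∑ i, |σ.D j (F i) z|) * r :=
          mul_le_mul_of_nonneg_right (Finset.abs_sum_le_sum_abs _ _) hr
      _ = ∑ i, |σ.D j (F i) z| * r := by rw [Finset.sum_mul]
      _ ≤ ∑ _i : ι, A ^ m * x := Finset.sum_le_sum fun i _ => (h i).D j
      _ ≤ _ := by rw [Finset.sum_const, Finset.card_univ, nsmul_eq_mul]; exact h2

/-- Inverses. -/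
theorem P1.inv (h : P1 σ r z A f m x) (hA : 2 ≤ A) (hx : 0 < x) (hf : x ≤ A ^ n * |f z|)
    (hr : 0 ≤ r) : P1 σ r z A (fun z => (f z)⁻¹) (m + n + n) x⁻¹ := by
  have An : 0 < A ^ n := pow_pos (by linarith) n
  have Am : 1 ≤ A ^ m := one_le_pow₀ (by linarith)
  have An1 : 1 ≤ A ^ n := one_le_pow₀ (by linarith)
  have hf0 : 0 < |f z| := by
    by_contra hc
    have : |f z| = 0 := le_antisymm (not_lt.1 hc) (abs_nonneg _)
    rw [this, mul_zero] at hf; linarith
  have hfz : f z ≠ 0 := abs_pos.1 hf0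
  have h1 : |f z|⁻¹ ≤ A ^ n * x⁻¹ := by
    rw [← div_eq_mul_inv, le_div_iff₀ hx, inv_mul_le_iff₀ hf0, mul_comm]; exact hf
  have e : A ^ (m + n + n) * x⁻¹ = A ^ m * A ^ n * (A ^ n * x⁻¹) := by
    rw [pow_add, pow_add]; ring
  have hxi : 0 < x⁻¹ := inv_pos.2 hx
  refine ⟨h.d.inv hfz, ?_, fun j => ?_⟩
  · rw [abs_inv, e]
    have : A ^ n * x⁻¹ ≤ A ^ m * A ^ n * (A ^ n * x⁻¹) := by
      have h3 : 1 ≤ A ^ m * A ^ n := by nlinarith
      nlinarith [mul_pos An hxi]
    linarith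
  · have e1 : σ.D j (fun z => (f z)⁻¹) z = -(f z ^ 2)⁻¹ * σ.D j f z := by
      have h2 : HasFDerivAt (fun z => (f z)⁻¹) (-(f z ^ 2)⁻¹ • fderiv ℝ f z) z :=
        (hasDerivAt_inv hfz).comp_hasFDerivAt z h.d.hasFDerivAt
      simp only [Sl.D]
      rw [h2.fderiv]
      simp only [_root_.smul_apply, smul_eq_mul]; ring
    rw [e1, abs_mul, abs_neg, abs_inv, abs_pow, mul_assoc, e]
    have h4 : (|f z| ^ 2)⁻¹ ≤ (A ^ n * x⁻¹) ^ 2 := by
      rw [← inv_pow]
      exact pow_le_pow_left₀ (inv_nonneg.2 (abs_nonneg _)) h1 2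
    have h5 := mul_le_mul h4 (h.D j) (mul_nonneg (abs_nonneg _) hr) (by positivity)
    refine h5.trans (le_of_eq ?_)
    field_simp

end

end Vale.Agent.P088.R2.H983.Fl
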