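import Vale.Agent.P088.R2.H983.Fl.Fg

/-!
# P088, stage 3: the errors of the Lee fields are small against the margin `m ≥ μ k`

Regime: `k ≤ ε |w|²`, `b + 1 ≤ ε |w|`, `|Dw| ≤ ε |w|²`, `w = D W`.
-/

open Set
open scoped ContDiff Topology

noncomputable section

namespace Vale.Agent.P088.R2.H983.Fl

open Vale.Agent.P088.R2.H230.W
open Vale.Agent.P088.R2.H960.W (dF eC cY cY_bd cY_sq eC_bd abs_sum2_le L1_sq eta YY)
open Vale.Agent.P088.R2.H961.GW (Sm Sl)

variable {E ι : Type*} [NormedAddCommGroup E] [NormedSpace ℝ E] [Fintype ι]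

/-- The slot at a point: coefficients at most `2`, first derivatives at most `1`. -/
structure Mt (σ : Sl E ι) (z : E) : Prop where
  ds : ∀ i j, DifferentiableAt ℝ (σ.s i j) z
  s2 : ∀ i j, |σ.s i j z| ≤ 2
  D1 : ∀ l i j, |σ.D l (σ.s i j) z| ≤ 1
  k1 : ∀ l, |σ.k l z| ≤ 1
  e1 : ∀ l, |eta σ l z| ≤ 1

/-- The regime. -/
structure Rg (σ : Sl E ι) (W k : E → ℝ) (b ε : ℝ) (z : E) : Prop where
  dw : Dfv (gw σ W) z
  pos : 0 < dd (gw σ W z) (gw σ W z)
  hk : k z ≤ ε * nn (gw σ W z) ^ 2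
  hb : b + 1 ≤ ε * nn (gw σ W z)
  hM : ∀ j, nn (dv σ j (gw σ W) z) ≤ ε * nn (gw σ W z) ^ 2

section

variable {α β : ℝ × ℝ → ℝ} {K : Set (ℝ × ℝ)} {C b ε : ℝ} {k s γ W v : E → ℝ} {e h : E → ι → ℝ}
  {z : E} {σ : Sl E ι}

/-- The field with `w = D W`. -/
def cW (σ : Sl E ι) (α β : ℝ × ℝ → ℝ) (k s γ W : E → ℝ) (e h : E → ι → ℝ) (l : ι) (z : E) : ℝ :=
  cG α β k s γ e h (gw σ W) z l

theorem cW_le [Nonempty ι] (c : Cf α β K C) (a : AtG σ K k s γ e h b z) (r : Rg σ W k b ε z)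
    (l : ι) : |cW σ α β k s γ W e h l z| ≤ 24 * C * k z / nn (gw σ W z) :=
  (abs_le_nn _ l).trans (cG_nn c a r.pos)

theorem inv_w (r : Rg σ W k b ε z) (hb : 0 ≤ b) : 1 / nn (gw σ W z) ≤ ε := by
  have h := nn_pos r.pos
  rw [div_le_iff₀ h]
  linarith [r.hb]

theorem A0_le [Nonempty ι] (c : Cf α β K C) (a : AtG σ K k s γ e h b z) (r : Rg σ W k b ε z)
    (hb : 0 ≤ b) : 24 * C * k z / nn (gw σ W z) ≤ 24 * C * k z * ε := by
  have := mul_le_mul_of_nonneg_left (inv_w r hb)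
    (show 0 ≤ 24 * C * k z from mul_nonneg (mul_nonneg (by norm_num) c.C0.le) a.k0)
  rwa [mul_one_div] at this

theorem D_cW_le (c : Cf α β K C) (a : AtG σ K k s γ e h b z) (r : Rg σ W k b ε z)
    (j l : ι) : |σ.D j (cW σ α β k s γ W e h l) z| ≤ 168 * C * k z * ε := by
  have hb : 0 ≤ b := (abs_nonneg _).trans (a.bs j)
  have h0 := abs_le_nn (dv σ j (cG α β k s γ e h (gw σ W)) z) l
  have h1 := cG_D c a r.dw r.pos j
  have hw := nn_pos r.pos
  have hC := c.C0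
  have hk := a.k0
  have t1 : 96 * C * (k z * b) / nn (gw σ W z) ≤ 96 * C * k z * ε := by
    rw [div_le_iff₀ hw]
    have : b ≤ ε * nn (gw σ W z) := by linarith [r.hb]
    have := mul_le_mul_of_nonneg_left this (show 0 ≤ 96 * C * k z by positivity)
    linarith
  have t2 : 72 * C * (k z * nn (dv σ j (gw σ W) z)) / nn (gw σ W z) ^ 2 ≤ 72 * C * k z * ε := by
    rw [div_le_iff₀ (by positivity)]
    have := mul_le_mul_of_nonneg_left (r.hM j) (show 0 ≤ 72 * C * k z by positivity)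
    linarith
  exact h0.trans (h1.trans (by linarith))

/-- `(c·Y a)²`. -/
theorem cW_Y [Nonempty ι] (c : Cf α β K C) (a : AtG σ K k s γ e h b z) (r : Rg σ W k b ε z)
    (f : E → ℝ) : cY σ (cW σ α β k s γ W e h) W f z ^ 2 ≤
      (576 * C ^ 2 * Fintype.card ι * ε) * (k z * ∑ i, YY σ W f i z ^ 2) := by
  have h := cY_sq (σ := σ) (W := W) (a := f) (fun l => cW_le c a r l)
  refine h.trans ?_
  have hw := nn_pos r.pos
  have hC := c.C0
  have hk := a.k0
  have hY : 0 ≤ ∑ i, YY σ W f i z ^ 2 := Finset.sum_nonneg fun i _ => sq_nonneg _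
  have t : (24 * C * k z / nn (gw σ W z)) ^ 2 ≤ 576 * C ^ 2 * ε * k z := by
    rw [div_pow, div_le_iff₀ (by positivity)]
    have := mul_le_mul_of_nonneg_left r.hk (show 0 ≤ 576 * C ^ 2 * k z by positivity)
    nlinarith
  have := mul_le_mul_of_nonneg_right t
    (show 0 ≤ (Fintype.card ι : ℝ) * ∑ i, YY σ W f i z ^ 2 by positivity)
  refine this.trans (le_of_eq ?_)
  ring

/-- The error density of the multiplier identity. -/
theorem cW_eC [Nonempty ι] (c : Cf α β K C) (a : AtG σ K k s γ e h b z) (r : Rg σ W k b ε z)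
    (m : Mt σ z) (hv : v z = 0) (f : E → ℝ) :
    |eC σ (cW σ α β k s γ W e h) v W f z| ≤
      (648 * C * Fintype.card ι ^ 2 * ε) * (k z * ∑ i, YY σ W f i z ^ 2) := by
  obtain ⟨j⟩ := ‹Nonempty ι›
  have hb : 0 ≤ b := (abs_nonneg _).trans (a.bs j)
  have hC := c.C0
  have hk := a.k0
  have hw := nn_pos r.pos
  have hε : 0 ≤ ε := (by positivity : (0:ℝ) ≤ 1 / nn (gw σ W z)).trans (inv_w r hb)
  have h0 : ∀ l, |cW σ α β k s γ W e h l z| ≤ 24 * C * k z * ε := fun l =>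
    (cW_le c a r l).trans (A0_le c a r hb)
  have h := eC_bd (σ := σ) (v := v) (W := W) (a := f) (S := 2) (B := 1) m.s2 m.D1 m.k1 m.e1 h0
    (fun i l => D_cW_le c a r i l) (by norm_num) (by norm_num) (by positivity) (by positivity)
  refine h.trans ?_
  rw [hv]
  have hY : 0 ≤ ∑ i, YY σ W f i z ^ 2 := Finset.sum_nonneg fun i _ => sq_nonneg _
  have hn : (1 : ℝ) ≤ Fintype.card ι := by exact_mod_cast Fintype.card_pos
  have hn2 : (Fintype.card ι : ℝ) ≤ Fintype.card ι ^ 2 := by nlinarith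
  have q : 0 ≤ C * k z * ε * ∑ i, YY σ W f i z ^ 2 := by positivity
  have q2 := mul_le_mul_of_nonneg_left hn2 q
  nlinarith

/-- The divergence of `F c`. -/
theorem cW_dF [Nonempty ι] (c : Cf α β K C) (a : AtG σ K k s γ e h b z) (r : Rg σ W k b ε z)
    (m : Mt σ z) : |dF σ (cW σ α β k s γ W e h) W z| ≤
      (504 * C * Fintype.card ι ^ 2 * ε) * (k z * nn (gw σ W z) ^ 2) := by
  obtain ⟨j⟩ := ‹Nonempty ι›
  have hb : 0 ≤ b := (abs_nonneg _).trans (a.bs j)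
  have hC := c.C0
  have hk := a.k0
  have hw := nn_pos r.pos
  have hε : 0 ≤ ε := (by positivity : (0:ℝ) ≤ 1 / nn (gw σ W z)).trans (inv_w r hb)
  have hkg : Dfv (fun z => k z • gG α β s γ e h z) z := fun i => a.dk.mul (gG_df c a i)
  have dc : ∀ l, DifferentiableAt ℝ (cW σ α β k s γ W e h l) z := fun l =>
    Dfv.fl a.de r.dw hkg r.pos l
  have h := dF_le (σ := σ) (W := W) (c := cW σ α β k s γ W e h) m.ds r.dw dc m.s2 m.D1 m.k1 r.hM
    (fun l => cW_le c a r l) (fun i l => D_cW_le c a r i l)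
  refine h.trans ?_
  set w := nn (gw σ W z) with hwd
  have e1 : w ^ 2 * (24 * C * k z / w) = 24 * C * k z * w := by field_simp
  have e2 : (2 * 2 * (ε * w ^ 2 * w)) * (24 * C * k z / w) = 96 * C * k z * (ε * w ^ 2) := by
    field_simp; ring
  have e3 : (1 * w ^ 2 + 2 * 2 * (ε * w ^ 2 * w)) * (24 * C * k z / w) +
      2 * w ^ 2 * (168 * C * k z * ε) + 1 * 2 * w ^ 2 * (24 * C * k z / w) =
      3 * (24 * C * k z * w) + 96 * C * k z * (ε * w ^ 2) + 336 * C * k z * ε * w ^ 2 := by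
    rw [add_mul, e2, one_mul, e1, mul_assoc (1 * 2) (w ^ 2), e1]; ring
  rw [e3]
  have q1 : w ≤ ε * w ^ 2 := by
    have : 1 ≤ ε * w := by linarith [r.hb]
    nlinarith
  have q2 := mul_le_mul_of_nonneg_left q1 (show 0 ≤ 72 * C * k z by positivity)
  have q3 : 3 * (24 * C * k z * w) + 96 * C * k z * (ε * w ^ 2) + 336 * C * k z * ε * w ^ 2 ≤
      504 * C * ε * (k z * w ^ 2) := by linarith
  have := mul_le_mul_of_nonneg_left q3 (show (0:ℝ) ≤ Fintype.card ι ^ 2 by positivity)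
  refine this.trans (le_of_eq ?_)
  ring

end

end Vale.Agent.P088.R2.H983.Fl
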