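import Vale.Agent.P088.R2.H983.Fl.P1
import Vale.Agent.P088.R2.H942.Near10

/-!
# P088, stage 3: the near fields near the diagonal, value and first derivatives

For `r ≤ 1`, `0 ≤ ν ≤ r`: `c - e` is a first order symbol of size `ν/r + r` at the scale `r`, so
`|c - e| ≤ C (ν/r + r)` and `|D c| ≤ |D e| + C (ν/r² + 1)`; the field `κ (2(w·e)e - w)/|w|²` is one of
size `κ / r`.
-/

open Set Filter
open scoped ContDiff Topology

noncomputable section

namespace Vale.Agent.P088.R2.H983.Fl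

open Vale.Agent.P088.R2.H230.W (dd)
open Vale.Agent.P088.R2.H961.GW (Sl)
open Vale.Agent.P088.R2.H942.Iso.Near (cn dq wq aa kf)

variable {E κ : Type*} [NormedAddCommGroup E] [NormedSpace ℝ E]

/-- The data near the diagonal at a point. -/
structure Nd (σ : Sl E κ) (r ν : ℝ) (z : E) (A : ℝ) (g k y b s p : E → ℝ) : Prop where
  A8 : 8 ≤ A
  r0 : 0 < r
  r1 : r ≤ 1
  n0 : 0 ≤ ν
  n1 : ν ≤ r
  hg : P1 σ r z A g 1 (r ^ 2)
  hk : P1 σ r z A k 1 1
  hy : P1 σ r z A y 1 1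
  hb : P1 σ r z A b 1 r
  hs : P1 σ r z A s 1 (r ^ 2)
  hp : P1 σ r z A p 1 (ν + r ^ 2)
  dql : 1 ≤ dq (g z) (k z) (y z) (b z) (s z)
  wql : r ^ 2 ≤ A * wq (k z) (b z) (s z) (p z) 1

section

variable {σ : Sl E κ} {r ν : ℝ} {z : E} {A : ℝ} {g k y b s p : E → ℝ}

theorem Nd.A2 (h : Nd σ r ν z A g k y b s p) : 2 ≤ A := by linarith [h.A8]

theorem Nd.dq8 (h : Nd σ r ν z A g k y b s p) :
    P1 σ r z A (fun z => dq (g z) (k z) (y z) (b z) (s z)) 8 1 := by
  have A2 := h.A2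
  have r0 := h.r0.le
  have rr : r ^ 2 ≤ 1 := pow_le_one₀ r0 h.r1
  have a1 : P1 σ r z A (fun z => y z * s z) 3 1 :=
    (h.hy.mul h.hs A2 r0).size A2 (by linarith)
  have a2 : P1 σ r z A (fun z => k z + y z * s z) 4 1 := h.hk.add a1 A2 r0
  have a3 : P1 σ r z A (fun z => g z + (k z + y z * s z)) 5 1 := (h.hg.size A2 rr).add a2 A2 r0
  have a4 : P1 σ r z A (fun z => g z + (k z + y z * s z) + k z) 6 1 := a3.add h.hk A2 r0
  have a5 : P1 σ r z A (fun z => 2 * (g z + (k z + y z * s z) + k z)) 7 1 :=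
    a4.cmul (n := 1) A2 (by rw [pow_one, abs_of_pos (by norm_num)]; linarith)
  have b1 : P1 σ r z A (fun z => 4 * k z) 2 1 :=
    h.hk.cmul (n := 1) A2 (by rw [pow_one, abs_of_pos (by norm_num)]; linarith [h.A8])
  have b2 : P1 σ r z A (fun z => 4 * k z * b z) 4 1 :=
    (b1.mul h.hb A2 r0).size A2 (by linarith [h.r1])
  exact a5.sub b2 A2 r0

theorem Nd.psq (h : Nd σ r ν z A g k y b s p) :
    P1 σ r z A (fun z => p z ^ 2) 3 ((ν + r ^ 2) ^ 2) := h.hp.sq h.A2 h.r0.le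

theorem Nd.pkb (h : Nd σ r ν z A g k y b s p) :
    P1 σ r z A (fun z => 2 * p z * k z * b z) 6 (r * (ν + r ^ 2)) := by
  have A2 := h.A2
  have r0 := h.r0.le
  have a1 : P1 σ r z A (fun z => 2 * p z) 2 (ν + r ^ 2) :=
    h.hp.cmul (n := 1) A2 (by rw [pow_one, abs_of_pos (by norm_num)]; linarith)
  have a2 : P1 σ r z A (fun z => 2 * p z * k z) 4 ((ν + r ^ 2) * 1) := a1.mul h.hk A2 r0
  have a3 : P1 σ r z A (fun z => 2 * p z * k z * b z) 6 ((ν + r ^ 2) * 1 * r) := a2.mul h.hb A2 r0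
  exact a3.size A2 (le_of_eq (by ring))

theorem Nd.ksq (h : Nd σ r ν z A g k y b s p) : P1 σ r z A (fun z => k z ^ 2) 3 1 :=
  (h.hk.sq h.A2 h.r0.le).size h.A2 (by norm_num)

theorem Nd.wq9 (h : Nd σ r ν z A g k y b s p) :
    P1 σ r z A (fun z => wq (k z) (b z) (s z) (p z) 1) 9 (r ^ 2) := by
  have A2 := h.A2
  have r0 := h.r0.le
  have r1 := h.r1
  have n0 := h.n0
  have n1 := h.n1
  have rr : r ^ 2 ≤ r := by nlinarith
  have q2 : ν + r ^ 2 ≤ 2 * r := by linarith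
  have q0 : 0 ≤ ν + r ^ 2 := by positivity
  have a1 : P1 σ r z A (fun z => p z ^ 2) 4 (r ^ 2) := by
    refine h.psq.sizeA (n := 1) A2 ?_
    rw [pow_one]
    have : (ν + r ^ 2) ^ 2 ≤ (2 * r) ^ 2 := pow_le_pow_left₀ q0 q2 2
    nlinarith [h.A8, sq_nonneg r]
  have a2 : P1 σ r z A (fun z => 2 * p z * k z * b z) 7 (r ^ 2) := by
    refine h.pkb.sizeA (n := 1) A2 ?_
    rw [pow_one]
    have : r * (ν + r ^ 2) ≤ r * (2 * r) := mul_le_mul_of_nonneg_left q2 r0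
    nlinarith [h.A8, sq_nonneg r]
  have a3 : P1 σ r z A (fun z => k z ^ 2 * s z) 5 (r ^ 2) :=
    (h.ksq.mul h.hs A2 r0).size A2 (by linarith)
  have a4 : P1 σ r z A (fun z => p z ^ 2 + 2 * p z * k z * b z) 8 (r ^ 2) := a1.add a2 A2 r0
  have a5 : P1 σ r z A (fun z => p z ^ 2 + 2 * p z * k z * b z + k z ^ 2 * s z) 9 (r ^ 2) :=
    a4.add a3 A2 r0
  have e : (fun z => wq (k z) (b z) (s z) (p z) 1) =
      fun z => p z ^ 2 + 2 * p z * k z * b z + k z ^ 2 * s z := by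
    funext z; unfold wq; ring
  rw [e]; exact a5

theorem Nd.inv20 (h : Nd σ r ν z A g k y b s p) :
    P1 σ r z A (fun z => (dq (g z) (k z) (y z) (b z) (s z) * wq (k z) (b z) (s z) (p z) 1)⁻¹) 20
      (r ^ 2)⁻¹ := by
  have A2 := h.A2
  have r0 := h.r0.le
  have a1 : P1 σ r z A (fun z => dq (g z) (k z) (y z) (b z) (s z) *
      wq (k z) (b z) (s z) (p z) 1) 18 (r ^ 2) :=
    (h.dq8.mul h.wq9 A2 r0).size A2 (by linarith)
  refine a1.inv (n := 1) A2 (by have := h.r0; positivity) ?_ r0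
  have h1 := h.dql
  have h2 := h.wql
  have w0 : 0 ≤ wq (k z) (b z) (s z) (p z) 1 := by
    have : 0 ≤ A * wq (k z) (b z) (s z) (p z) 1 := (sq_nonneg r).trans h2
    exact nonneg_of_mul_nonneg_right this (by linarith)
  rw [pow_one, abs_of_nonneg (mul_nonneg (by linarith) w0)]
  have h3 : wq (k z) (b z) (s z) (p z) 1 ≤ dq (g z) (k z) (y z) (b z) (s z) *
      wq (k z) (b z) (s z) (p z) 1 := by
    have := mul_le_mul_of_nonneg_right h1 w0
    linarith
  exact h2.trans (mul_le_mul_of_nonneg_left h3 (by linarith))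

/-- The coefficient of `e` in `c - e` (times `dq wq`). -/
def d1 (g k y b s p : ℝ) : ℝ :=
  4 * g * k * p + 8 * g * k ^ 2 * b - dq g k y b s * (p ^ 2 + 2 * p * k * b) +
    k * s * (4 * g * y * b - 2 * k * (g + y * s))

theorem Nd.d18 (h : Nd σ r ν z A g k y b s p) :
    P1 σ r z A (fun z => d1 (g z) (k z) (y z) (b z) (s z) (p z)) 18 (r * (ν + r ^ 2)) := by
  have A2 := h.A2
  have r0 := h.r0.le
  have r1 := h.r1
  have n0 := h.n0
  have n1 := h.n1
  have rr : r ^ 2 ≤ r := by nlinarith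
  have q0 : 0 ≤ ν + r ^ 2 := by positivity
  have q2 : ν + r ^ 2 ≤ 2 * r := by linarith
  have a1 : P1 σ r z A (fun z => 4 * g z) 2 (r ^ 2) :=
    h.hg.cmul (n := 1) A2 (by rw [pow_one, abs_of_pos (by norm_num)]; linarith [h.A8])
  have a2 : P1 σ r z A (fun z => 4 * g z * k z) 4 (r ^ 2 * 1) := a1.mul h.hk A2 r0
  have a3 : P1 σ r z A (fun z => 4 * g z * k z * p z) 6 (r * (ν + r ^ 2)) := by
    refine (a2.mul h.hp A2 r0).size A2 ?_
    rw [mul_one]; exact mul_le_mul_of_nonneg_right rr q0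
  have b1 : P1 σ r z A (fun z => 8 * g z) 2 (r ^ 2) :=
    h.hg.cmul (n := 1) A2 (by rw [pow_one, abs_of_pos (by norm_num)]; linarith [h.A8])
  have b2 : P1 σ r z A (fun z => 8 * g z * k z ^ 2) 6 (r ^ 2 * 1) := b1.mul h.ksq A2 r0
  have b3 : P1 σ r z A (fun z => 8 * g z * k z ^ 2 * b z) 8 (r * (ν + r ^ 2)) := by
    refine (b2.mul h.hb A2 r0).size A2 ?_
    nlinarith [mul_nonneg r0 n0]
  have c1 : P1 σ r z A (fun z => p z ^ 2) 4 (r * (ν + r ^ 2)) := by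
    refine h.psq.sizeA (n := 1) A2 ?_
    rw [pow_one]
    have : (ν + r ^ 2) ^ 2 ≤ 2 * r * (ν + r ^ 2) := by
      rw [pow_two]; exact mul_le_mul_of_nonneg_right q2 q0
    nlinarith [h.A8, mul_nonneg r0 q0]
  have c2 : P1 σ r z A (fun z => p z ^ 2 + 2 * p z * k z * b z) 7 (r * (ν + r ^ 2)) :=
    c1.add h.pkb A2 r0
  have c3 : P1 σ r z A (fun z => dq (g z) (k z) (y z) (b z) (s z) *
      (p z ^ 2 + 2 * p z * k z * b z)) 16 (r * (ν + r ^ 2)) :=
    (h.dq8.mul c2 A2 r0).size A2 (by linarith)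
  have d1' : P1 σ r z A (fun z => 4 * g z * y z) 4 (r ^ 2 * 1) := a1.mul h.hy A2 r0
  have d2 : P1 σ r z A (fun z => 4 * g z * y z * b z) 6 (r ^ 2) := by
    refine (d1'.mul h.hb A2 r0).size A2 ?_
    nlinarith [sq_nonneg r]
  have d3 : P1 σ r z A (fun z => 2 * k z) 2 1 :=
    h.hk.cmul (n := 1) A2 (by rw [pow_one, abs_of_pos (by norm_num)]; linarith)
  have d4 : P1 σ r z A (fun z => y z * s z) 3 (r ^ 2) :=
    (h.hy.mul h.hs A2 r0).size A2 (by linarith)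
  have d5 : P1 σ r z A (fun z => g z + y z * s z) 4 (r ^ 2) := h.hg.add d4 A2 r0
  have d6 : P1 σ r z A (fun z => 2 * k z * (g z + y z * s z)) 7 (r ^ 2) :=
    (d3.mul d5 A2 r0).size A2 (by linarith)
  have d7 : P1 σ r z A (fun z => 4 * g z * y z * b z - 2 * k z * (g z + y z * s z)) 8 (r ^ 2) :=
    d2.sub d6 A2 r0
  have d8 : P1 σ r z A (fun z => k z * s z) 3 (1 * r ^ 2) := h.hk.mul h.hs A2 r0
  have d9 : P1 σ r z A (fun z => k z * s z * (4 * g z * y z * b z -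
      2 * k z * (g z + y z * s z))) 12 (r * (ν + r ^ 2)) := by
    refine (d8.mul d7 A2 r0).size A2 ?_
    have : r ^ 2 * r ^ 2 ≤ r * r ^ 2 := mul_le_mul_of_nonneg_right rr (sq_nonneg r)
    nlinarith [mul_nonneg r0 n0]
  have f1 : P1 σ r z A (fun z => 4 * g z * k z * p z + 8 * g z * k z ^ 2 * b z) 9
      (r * (ν + r ^ 2)) := a3.add b3 A2 r0
  have f2 := f1.sub c3 A2 r0
  exact f2.add d9 A2 r0

theorem Nd.aa8 (h : Nd σ r ν z A g k y b s p) :
    P1 σ r z A (fun z => aa (g z) (k z) (y z) (b z)) 8 1 := by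
  have A2 := h.A2
  have r0 := h.r0.le
  have r1 := h.r1
  have rr : r ^ 2 ≤ 1 := pow_le_one₀ r0 h.r1
  have a1 : P1 σ r z A (fun _ => (1 : ℝ)) 1 1 :=
    P1.const (by rw [pow_one, abs_one]; linarith)
  have a2 : P1 σ r z A (fun z => 1 - b z) 2 1 := a1.sub (h.hb.size A2 r1) A2 r0
  have a3 : P1 σ r z A (fun z => 4 * k z ^ 2) 4 1 :=
    h.ksq.cmul (n := 1) A2 (by rw [pow_one, abs_of_pos (by norm_num)]; linarith [h.A8])
  have a4 : P1 σ r z A (fun z => 4 * k z ^ 2 * (1 - b z)) 7 1 :=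
    (a3.mul a2 A2 r0).size A2 (by norm_num)
  have b1 : P1 σ r z A (fun z => 4 * g z) 2 1 :=
    (h.hg.size A2 rr).cmul (n := 1) A2 (by rw [pow_one, abs_of_pos (by norm_num)]; linarith [h.A8])
  have b2 : P1 σ r z A (fun z => 4 * g z * y z) 4 (1 * 1) := b1.mul h.hy A2 r0
  have b3 : P1 σ r z A (fun z => 4 * g z * y z * b z) 6 1 :=
    (b2.mul h.hb A2 r0).size A2 (by linarith)
  exact a4.add b3 A2 r0

theorem Nd.q11 (h : Nd σ r ν z A g k y b s p) :
    P1 σ r z A (fun z => p z * aa (g z) (k z) (y z) (b z) - 4 * g z * k z ^ 2) 11 (ν + r ^ 2) := by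
  have A2 := h.A2
  have r0 := h.r0.le
  have a1 : P1 σ r z A (fun z => p z * aa (g z) (k z) (y z) (b z)) 10 (ν + r ^ 2) :=
    (h.hp.mul h.aa8 A2 r0).size A2 (by linarith)
  have b1 : P1 σ r z A (fun z => 4 * g z) 2 (r ^ 2) :=
    h.hg.cmul (n := 1) A2 (by rw [pow_one, abs_of_pos (by norm_num)]; linarith [h.A8])
  have b2 : P1 σ r z A (fun z => 4 * g z * k z ^ 2) 6 (ν + r ^ 2) :=
    (b1.mul h.ksq A2 r0).size A2 (by linarith [h.n0])
  exact a1.sub b2 A2 r0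

variable {ι : Type*} [Fintype ι]

lemma cn_id {e q : ι → ℝ} {g k y b s p : ℝ} (h0 : dq g k y b s * wq k b s p 1 ≠ 0) (i : ι) :
    cn e q g k y b s p 1 i - e i = (dq g k y b s * wq k b s p 1)⁻¹ *
      (d1 g k y b s p * e i + (p * aa g k y b - 4 * g * k ^ 2) * q i) := by
  unfold cn
  simp only [Pi.smul_apply, Pi.add_apply, smul_eq_mul]
  rw [inv_mul_eq_div, inv_mul_eq_div, sub_eq_iff_eq_add, div_add' _ _ _ h0]
  congr 1
  unfold d1 aa dq wq
  ring

/-- **(T1)** the near fields near the diagonal. -/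
theorem Nd.cn42 (h : Nd σ r ν z A g k y b s p) {e q : E → ι → ℝ} {i : ι}
    (he : P1 σ r z A (fun z => e z i) 1 1) (hq : P1 σ r z A (fun z => q z i) 1 r) :
    P1 σ r z A (fun z => cn (e z) (q z) (g z) (k z) (y z) (b z) (s z) (p z) 1 i - e z i) 42
      (ν / r + r) := by
  have A2 := h.A2
  have r0 := h.r0.le
  have hr := h.r0
  have a1 : P1 σ r z A (fun z => d1 (g z) (k z) (y z) (b z) (s z) (p z) * e z i) 20
      (r * (ν + r ^ 2)) := (h.d18.mul he A2 r0).size A2 (le_of_eq (by ring))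
  have a2 : P1 σ r z A (fun z => (p z * aa (g z) (k z) (y z) (b z) - 4 * g z * k z ^ 2) *
      q z i) 13 (r * (ν + r ^ 2)) :=
    (h.q11.mul hq A2 r0).size A2 (le_of_eq (by ring))
  have a3 : P1 σ r z A (fun z => d1 (g z) (k z) (y z) (b z) (s z) (p z) * e z i +
      (p z * aa (g z) (k z) (y z) (b z) - 4 * g z * k z ^ 2) * q z i) 21 (r * (ν + r ^ 2)) :=
    a1.add a2 A2 r0
  have a4 := h.inv20.mul a3 A2 r0
  have a5 := a4.size (y := ν / r + r) A2 (le_of_eq (by field_simp))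
  refine a5.congr ?_
  have hw0 : 0 < wq (k z) (b z) (s z) (p z) 1 := by
    have h2 := h.wql
    have : 0 < A * wq (k z) (b z) (s z) (p z) 1 := lt_of_lt_of_le (by positivity) h2
    exact pos_of_mul_pos_right this (by linarith)
  have hd0 : 0 < dq (g z) (k z) (y z) (b z) (s z) := by linarith [h.dql]
  have hc : ContinuousAt (fun z => dq (g z) (k z) (y z) (b z) (s z) *
      wq (k z) (b z) (s z) (p z) 1) z := (h.dq8.d.mul h.wq9.d).continuousAt
  filter_upwards [hc.eventually_ne (mul_pos hd0 hw0).ne'] with z' hz'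
  exact cn_id hz' i

/-- The field `κ (2 (w·e) e - w) / |w|²`. -/
theorem P1.kf {e w : E → ι → ℝ} {kap : E → ℝ} {x : ℝ} {m : ℕ} (A8 : 8 ≤ A) (hr : 0 < r)
    (hn : (Fintype.card ι : ℝ) ≤ A) (he : ∀ i, P1 σ r z A (fun z => e z i) 1 1)
    (hw : ∀ i, P1 σ r z A (fun z => w z i) m r) (hlow : r ^ 2 ≤ A * dd (w z) (w z))
    (hk : P1 σ r z A kap 1 x) (i : ι) :
    P1 σ r z A (fun z => kap z * kf (e z) (w z) i) (3 * m + 15) (x / r) := by
  have A2 : 2 ≤ A := by linarith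
  have r0 := hr.le
  have ww : P1 σ r z A (fun z => dd (w z) (w z)) (m + m + 1 + 1) (r ^ 2) :=
    P1.sum (fun i => ((hw i).mul (hw i) A2 r0).size A2 (le_of_eq (by ring))) A2 (by positivity) hn r0
  have ew : P1 σ r z A (fun z => dd (e z) (w z)) (1 + m + 1 + 1) r :=
    P1.sum (fun i => ((he i).mul (hw i) A2 r0).size A2 (by linarith)) A2 r0 hn r0
  have hw0 : 0 < dd (w z) (w z) := by
    have : 0 < A * dd (w z) (w z) := lt_of_lt_of_le (by positivity) hlow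
    exact pos_of_mul_pos_right this (by linarith)
  have inv : P1 σ r z A (fun z => (dd (w z) (w z))⁻¹) (m + m + 1 + 1 + 1 + 1) (r ^ 2)⁻¹ := by
    refine ww.inv (n := 1) A2 (by positivity) ?_ r0
    rw [pow_one, abs_of_pos hw0]; exact hlow
  have t1 : P1 σ r z A (fun z => 2 * dd (e z) (w z)) (1 + m + 1 + 1 + 1) r :=
    ew.cmul (n := 1) A2 (by rw [pow_one, abs_of_pos (by norm_num)]; linarith)
  have t2 : P1 σ r z A (fun z => 2 * dd (e z) (w z) * e z i) (1 + m + 1 + 1 + 1 + 1 + 1) r :=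
    (t1.mul (he i) A2 r0).size A2 (by linarith)
  have t3 : P1 σ r z A (fun z => 2 * dd (e z) (w z) * e z i - w z i) (m + 7) r :=
    (t2.sub (hw i) A2 r0).up A2 (by omega)
  have t4 : P1 σ r z A (fun z => (dd (w z) (w z))⁻¹ * (2 * dd (e z) (w z) * e z i - w z i))
      (3 * m + 12) r⁻¹ :=
    ((inv.mul t3 A2 r0).size A2 (le_of_eq (by field_simp))).up A2 (by omega)
  have t5 : P1 σ r z A (fun z => kap z * ((dd (w z) (w z))⁻¹ *
      (2 * dd (e z) (w z) * e z i - w z i))) (3 * m + 15) (x / r) :=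
    ((hk.mul t4 A2 r0).size A2 (le_of_eq (by rw [div_eq_mul_inv]))).up A2 (by omega)
  exact t5

end

end Vale.Agent.P088.R2.H983.Fl
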