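import Vale.Agent.P088.R2.H983.Fl.T1

/-!
# P088, stage 3: the fields of zone II, as `α e + β q`

`al e + be q = cn e q .. + κ kf e (p e + k q)`; the coefficients only depend on scalars.
-/

open Set Filter
open scoped ContDiff Topology

noncomputable section

namespace Vale.Agent.P088.R2.H983.Fl

open Vale.Agent.P088.R2.H230.W (dd)
open Vale.Agent.P088.R2.H961.GW (Sl)
open Vale.Agent.P088.R2.H942.Iso.Near (cn dq wq aa kf)

/-- The coefficient of `e`. -/
def al (g k y b s p ka : ℝ) : ℝ :=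
  (dq g k y b s * wq k b s p 1)⁻¹ * (4 * g * k * (p + 2 * k * b) + k * s * aa g k y b) +
    ka * ((wq k b s p 1)⁻¹ * (p + 2 * k * b))

/-- The coefficient of `q`. -/
def be (g k y b s p ka : ℝ) : ℝ :=
  (dq g k y b s * wq k b s p 1)⁻¹ * (p * aa g k y b - 4 * g * k ^ 2) -
    ka * ((wq k b s p 1)⁻¹ * k)

section frames

variable {ι : Type*} [Fintype ι]

/-- In frames. -/
theorem al_be {e q : ι → ℝ} (he : dd e e = 1) (g k y p ka : ℝ) :
    al g k y (dd e q) (dd q q) p ka • e + be g k y (dd e q) (dd q q) p ka • q =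
      cn e q g k y (dd e q) (dd q q) p 1 + ka • kf e (p • e + k • q) := by
  have h1 : dd e (p • e + k • q) = p + k * dd e q := by
    unfold dd at *
    simp only [Pi.add_apply, Pi.smul_apply, smul_eq_mul, mul_add, Finset.sum_add_distrib,
      mul_left_comm _ p, mul_left_comm _ k, ← Finset.mul_sum, he, mul_one]
  have h2 : dd (p • e + k • q) (p • e + k • q) = wq k (dd e q) (dd q q) p 1 := by
    have c1 : dd q e = dd e q := by unfold dd; exact Finset.sum_congr rfl fun i _ => mul_comm _ _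
    have e1 : dd (p • e + k • q) (p • e + k • q) =
        p ^ 2 * dd e e + p * k * dd e q + p * k * dd q e + k ^ 2 * dd q q := by
      unfold dd
      simp only [Pi.add_apply, Pi.smul_apply, smul_eq_mul, Finset.mul_sum,
        ← Finset.sum_add_distrib]
      exact Finset.sum_congr rfl fun i _ => by ring
    rw [e1, he, c1]; unfold wq; ring
  have h3 : kf e (p • e + k • q) = (wq k (dd e q) (dd q q) p 1)⁻¹ •
      ((p + 2 * k * dd e q) • e - k • q) := by
    unfold kf
    rw [h1, h2]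
    congr 1
    funext i
    simp only [Pi.add_apply, Pi.sub_apply, Pi.smul_apply, smul_eq_mul]
    ring
  rw [h3]
  unfold cn al be
  funext i
  simp only [Pi.add_apply, Pi.sub_apply, Pi.smul_apply, smul_eq_mul]
  ring

end frames

theorem al_sub {g k y b s p ka : ℝ} (h0 : dq g k y b s * wq k b s p 1 ≠ 0) :
    al g k y b s p ka - 1 = (dq g k y b s * wq k b s p 1)⁻¹ * d1 g k y b s p +
      ka * ((wq k b s p 1)⁻¹ * (p + 2 * k * b)) := by
  unfold al
  have : (dq g k y b s * wq k b s p 1)⁻¹ * (4 * g * k * (p + 2 * k * b) + k * s * aa g k y b) - 1 =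
      (dq g k y b s * wq k b s p 1)⁻¹ * d1 g k y b s p := by
    rw [inv_mul_eq_div, inv_mul_eq_div, sub_eq_iff_eq_add, div_add' _ _ _ h0]
    congr 1
    unfold d1 aa dq wq
    ring
  linarith

variable {E κ : Type*} [NormedAddCommGroup E] [NormedSpace ℝ E]
variable {σ : Sl E κ} {r ν : ℝ} {z : E} {A : ℝ} {g k y b s p ka : E → ℝ} {x : ℝ}

theorem Nd.wpos (h : Nd σ r ν z A g k y b s p) : 0 < wq (k z) (b z) (s z) (p z) 1 := by
  have h1 := h.wql
  have h0 := h.r0
  have : 0 < A * wq (k z) (b z) (s z) (p z) 1 := lt_of_lt_of_le (by positivity) h1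
  exact pos_of_mul_pos_right this (by linarith [h.A8])

theorem Nd.dpos (h : Nd σ r ν z A g k y b s p) : 0 < dq (g z) (k z) (y z) (b z) (s z) := by
  linarith [h.dql]

theorem Nd.near (h : Nd σ r ν z A g k y b s p) :
    ∀ᶠ z in 𝓝 z, dq (g z) (k z) (y z) (b z) (s z) * wq (k z) (b z) (s z) (p z) 1 ≠ 0 := by
  have hc : ContinuousAt (fun z => dq (g z) (k z) (y z) (b z) (s z) *
      wq (k z) (b z) (s z) (p z) 1) z := (h.dq8.d.mul h.wq9.d).continuousAt
  exact hc.eventually_ne (mul_pos h.dpos h.wpos).ne'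

theorem Nd.winv (h : Nd σ r ν z A g k y b s p) :
    P1 σ r z A (fun z => (wq (k z) (b z) (s z) (p z) 1)⁻¹) 11 (r ^ 2)⁻¹ := by
  refine h.wq9.inv (n := 1) h.A2 (by have := h.r0; positivity) ?_ h.r0.le
  rw [pow_one, abs_of_pos h.wpos]; exact h.wql

theorem Nd.pb6 (h : Nd σ r ν z A g k y b s p) :
    P1 σ r z A (fun z => p z + 2 * k z * b z) 6 r := by
  have A2 := h.A2
  have r0 := h.r0.le
  have r1 := h.r1
  have n1 := h.n1
  have a1 : P1 σ r z A p 2 r := h.hp.sizeA (n := 1) A2 (by rw [pow_one]; nlinarith [h.A8])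
  have a2 : P1 σ r z A (fun z => 2 * k z) 2 1 :=
    h.hk.cmul (n := 1) A2 (by rw [pow_one, abs_of_pos (by norm_num)]; linarith)
  have a3 : P1 σ r z A (fun z => 2 * k z * b z) 4 r := (a2.mul h.hb A2 r0).size A2 (by linarith)
  exact (a1.add a3 A2 r0).up A2 (by norm_num)

/-- **The coefficient of `e`.** -/
theorem Nd.al40 (h : Nd σ r ν z A g k y b s p) (hk : P1 σ r z A ka 1 x) :
    P1 σ r z A (fun z => al (g z) (k z) (y z) (b z) (s z) (p z) (ka z) - 1) 40
      (ν / r + r + x / r) := by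
  have A2 := h.A2
  have r0 := h.r0.le
  have hr := h.r0
  have x0 := hk.x0 A2
  have n0 := h.n0
  have a1 : P1 σ r z A (fun z => (dq (g z) (k z) (y z) (b z) (s z) *
      wq (k z) (b z) (s z) (p z) 1)⁻¹ * d1 (g z) (k z) (y z) (b z) (s z) (p z)) 39
      (ν / r + r + x / r) := by
    refine (h.inv20.mul h.d18 A2 r0).size A2 ?_
    have e1 : (r ^ 2)⁻¹ * (r * (ν + r ^ 2)) = ν / r + r := by field_simp
    have : 0 ≤ x / r := by positivity
    rw [e1]; linarith
  have a2 : P1 σ r z A (fun z => (wq (k z) (b z) (s z) (p z) 1)⁻¹ * (p z + 2 * k z * b z)) 18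
      r⁻¹ := (h.winv.mul h.pb6 A2 r0).size A2 (le_of_eq (by field_simp))
  have a3 : P1 σ r z A (fun z => ka z * ((wq (k z) (b z) (s z) (p z) 1)⁻¹ *
      (p z + 2 * k z * b z))) 39 (ν / r + r + x / r) := by
    refine ((hk.mul a2 A2 r0).size A2 ?_).up A2 (by norm_num)
    have : 0 ≤ ν / r := by positivity
    rw [← div_eq_mul_inv]; linarith
  refine (a1.add a3 A2 r0).congr ?_
  filter_upwards [h.near] with z' hz'
  exact al_sub hz'

/-- **The coefficient of `q`.** -/
theorem Nd.be33 (h : Nd σ r ν z A g k y b s p) (hk : P1 σ r z A ka 1 x) :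
    P1 σ r z A (fun z => be (g z) (k z) (y z) (b z) (s z) (p z) (ka z)) 33
      ((ν / r + r + x / r) / r) := by
  have A2 := h.A2
  have r0 := h.r0.le
  have hr := h.r0
  have x0 := hk.x0 A2
  have n0 := h.n0
  have a1 : P1 σ r z A (fun z => (dq (g z) (k z) (y z) (b z) (s z) *
      wq (k z) (b z) (s z) (p z) 1)⁻¹ *
      (p z * aa (g z) (k z) (y z) (b z) - 4 * g z * k z ^ 2)) 32
      ((ν / r + r + x / r) / r) := by
    refine (h.inv20.mul h.q11 A2 r0).size A2 ?_
    have e1 : (r ^ 2)⁻¹ * (ν + r ^ 2) = (ν / r + r) / r := by field_simp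
    have : 0 ≤ x / r / r := by positivity
    rw [e1, add_div _ (x / r)]; linarith
  have a2 : P1 σ r z A (fun z => (wq (k z) (b z) (s z) (p z) 1)⁻¹ * k z) 13 (r ^ 2)⁻¹ :=
    (h.winv.mul h.hk A2 r0).size A2 (by linarith)
  have a3 : P1 σ r z A (fun z => ka z * ((wq (k z) (b z) (s z) (p z) 1)⁻¹ * k z)) 32
      ((ν / r + r + x / r) / r) := by
    refine ((hk.mul a2 A2 r0).size A2 ?_).up A2 (by norm_num)
    have e1 : x * (r ^ 2)⁻¹ = x / r / r := by field_simp
    have : 0 ≤ (ν / r + r) / r := by positivity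
    rw [e1, add_div _ (x / r)]; linarith
  exact a1.sub a3 A2 r0

/-- The field `a (α e + a β q)`. -/
def fdc (a α β e q : ℝ) : ℝ := a * (α * e + a * β * q)

/-- **The field.** -/
theorem Nd.fd46 (h : Nd σ r ν z A g k y b s p) (hk : P1 σ r z A ka 1 x) {a e q : E → ℝ}
    (ha : P1 σ r z A a 1 1) (he : P1 σ r z A e 1 1) (hq : P1 σ r z A q 1 r) :
    P1 σ r z A (fun z => fdc (a z) (al (g z) (k z) (y z) (b z) (s z) (p z) (ka z))
      (be (g z) (k z) (y z) (b z) (s z) (p z) (ka z)) (e z) (q z) - a z * e z) 46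
      (ν / r + r + x / r) := by
  have A2 := h.A2
  have r0 := h.r0.le
  have hr := h.r0
  have x0 := hk.x0 A2
  have n0 := h.n0
  have X0 : 0 ≤ ν / r + r + x / r := by positivity
  have a1 := ((h.al40 hk).mul he A2 r0).size (y := ν / r + r + x / r) A2 (by linarith)
  have a2 := (ha.mul (h.be33 hk) A2 r0).mul hq A2 r0
  have a3 := (a2.size (y := ν / r + r + x / r) A2 (le_of_eq (by field_simp))).up
    (n := 42) A2 (by norm_num)
  have a4 := a1.add a3 A2 r0
  have a5 := (ha.mul a4 A2 r0).size (y := ν / r + r + x / r) A2 (by linarith)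
  refine (a5.up (n := 46) A2 (by norm_num)).congr (Eventually.of_forall fun z => ?_)
  simp only [fdc]; ring

end Vale.Agent.P088.R2.H983.Fl
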